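import Vale.Agent.P205.PT.Defs

/-!
Affine changes of variables. aff_bound: iteratedFDeriv_comp_add_left (or _right) and
ContinuousLinearMap.iteratedFDeriv_comp_right, ContinuousMultilinearMap.norm_compContinuousLinearMap_le.
aff_D2: D2_comp in Api/Ind, or differentiate aff_fderiv again.
mean1, mean2: Convex.norm_image_sub_le_of_norm_fderiv_le on closedBall 0 4 (or ball 0 4),
norm_iteratedFDeriv_fderiv.
-/

open scoped Manifold ContDiff Topology RealInnerProductSpace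
open Set Filter Metric Function

noncomputable section

namespace Vale.Agent.P205.PT

variable {V : Type} [NormedAddCommGroup V] [NormedSpace ℝ V]

theorem aff_bound {u : E2 → V} (hu : ContDiff ℝ ∞ u) (c : E2) (L : E2 →L[ℝ] E2) (j : ℕ) (z : E2) :
    ‖iteratedFDeriv ℝ j (fun x => u (c + L x)) z‖ ≤
      ‖L‖ ^ j * ‖iteratedFDeriv ℝ j u (c + L z)‖ := by
  have h1 : ContDiff ℝ ∞ fun y => u (c + y) := hu.comp (contDiff_const.add contDiff_id)
  have h2 := L.iteratedFDeriv_comp_right h1 z (i := j) (by exact_mod_cast le_top)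
  have h3 : (fun x => u (c + L x)) = (fun y => u (c + y)) ∘ L := rfl
  rw [h3, h2, iteratedFDeriv_comp_add_left]
  refine (ContinuousMultilinearMap.norm_compContinuousLinearMap_le _ _).trans (le_of_eq ?_)
  simp [mul_comm]

theorem aff_fderiv {u : E2 → V} (hu : ContDiff ℝ ∞ u) (c : E2) (L : E2 →L[ℝ] E2) (z : E2) :
    fderiv ℝ (fun x => u (c + L x)) z = (fderiv ℝ u (c + L z)).comp L := by
  have h1 : HasFDerivAt (fun x => c + L x) L z := L.hasFDerivAt.const_add c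
  exact ((hu.differentiable (by simp) (c + L z)).hasFDerivAt.comp z h1).fderiv

theorem aff_D2 {u : E2 → V} (hu : ContDiff ℝ ∞ u) (c : E2) (L : E2 →L[ℝ] E2) (z v : E2) :
    D2 (fun x => u (c + L x)) z v = D2 u (c + L z) (L v) := by
  have hτ : ContDiff ℝ ∞ fun x => c + L x := contDiff_const.add L.contDiff
  have h1 : fderiv ℝ (fun x => c + L x) = fun _ => L :=
    funext fun y => (L.hasFDerivAt.const_add c).fderiv
  have h2 := D2_comp (u := u) (τ := fun x => c + L x) (z := z) hu.contDiffAt hτ.contDiffAt v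
  have h3 : D2 (fun x => c + L x) z v = 0 := by
    unfold D2
    rw [h1]
    simp
  rw [h3, h1, map_zero, add_zero] at h2
  exact h2

theorem indQ_aff {κ r : ℝ} (hκ : 0 ≤ κ) (h0 : 0 < r) (h1 : r ≤ 1) {L : E2 →L[ℝ] E2}
    (hL : ∀ ξ, ‖L ξ‖ = r * ‖ξ‖) {A : E2 →L[ℝ] E4} {c : E4} (h : IndQ κ A c) :
    IndQ (κ * r ^ 2) (A.comp L) (r ^ 2 • c) := by
  intro ξ t
  have h2 := h (L ξ) (t * r ^ 2)
  rw [ContinuousLinearMap.comp_apply, smul_smul]
  refine le_trans ?_ h2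
  rw [hL, abs_mul, abs_of_nonneg (sq_nonneg r), mul_assoc]
  refine mul_le_mul_of_nonneg_left ?_ hκ
  have h3 : r ^ 2 ≤ r := by nlinarith
  nlinarith [mul_le_mul_of_nonneg_right h3 (norm_nonneg ξ)]

theorem norm_fderiv_eq (u : E2 → V) (z : E2) : ‖fderiv ℝ u z‖ = ‖iteratedFDeriv ℝ 1 u z‖ := by
  rw [norm_iteratedFDeriv_one]

theorem norm_fderiv2_eq (u : E2 → V) (z : E2) :
    ‖fderiv ℝ (fderiv ℝ u) z‖ = ‖iteratedFDeriv ℝ 2 u z‖ := by
  rw [← norm_iteratedFDeriv_one, norm_iteratedFDeriv_fderiv]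

/-- IndQ is stable under small changes in C². -/
theorem indQ_c2 {u w : E2 → E4} {z : E2} (hu : ContDiffAt ℝ ∞ u z) (hw : ContDiffAt ℝ ∞ w z)
    {κ ε : ℝ} {v : E2} (hv : ‖v‖ = 1) (h1 : ‖iteratedFDeriv ℝ 1 (w - u) z‖ ≤ ε)
    (h2 : ‖iteratedFDeriv ℝ 2 (w - u) z‖ ≤ ε) (h : IndQ κ (fderiv ℝ u z) (D2 u z v)) :
    IndQ (κ - ε) (fderiv ℝ w z) (D2 w z v) := by
  have h3 : ContDiffAt ℝ ∞ (w - u) z := hw.sub hu
  have e : w = u + (w - u) := by
    funext x
    simp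
  refine h.perturb ?_ ?_
  · rw [e, fderiv_add (hu.differentiableAt (by simp)) (h3.differentiableAt (by simp)),
      add_sub_cancel_left, ← norm_iteratedFDeriv_one]
    exact h1
  · rw [e, D2_add hu h3, add_sub_cancel_left]
    refine (norm_D2_le _ _ _).trans ?_
    rw [hv, one_pow, mul_one]
    exact h2

theorem Aff_mean {u : E2 → V} (hu : ∀ z ∈ closedBall (0 : E2) 4, ContDiffAt ℝ ∞ u z)
    {B : ℝ} {x y : E2} (hx : x ∈ closedBall (0 : E2) 4) (hy : y ∈ closedBall (0 : E2) 4)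
    (h2 : ∀ z ∈ closedBall (0 : E2) 4, ‖iteratedFDeriv ℝ 2 u z‖ ≤ B) :
    ‖fderiv ℝ u y - fderiv ℝ u x‖ ≤ B * ‖y - x‖ :=
  (convex_closedBall (0 : E2) 4).norm_image_sub_le_of_norm_fderiv_le
    (fun z hz => ind_diff (hu z hz)) (fun z hz => (norm_fderiv2_eq u z).trans_le (h2 z hz)) hx hy

/-- IndQ is stable under small moves of the point. -/
theorem indQ_move {u : E2 → E4} (hu : ∀ z ∈ closedBall (0 : E2) 4, ContDiffAt ℝ ∞ u z)
    {κ B : ℝ} {v x y : E2} (hv : ‖v‖ = 1) (hx : x ∈ closedBall (0 : E2) 4)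
    (hy : y ∈ closedBall (0 : E2) 4)
    (h2 : ∀ z ∈ closedBall (0 : E2) 4, ‖iteratedFDeriv ℝ 2 u z‖ ≤ B)
    (h3 : ∀ z ∈ closedBall (0 : E2) 4, ‖iteratedFDeriv ℝ 3 u z‖ ≤ B)
    (h : IndQ κ (fderiv ℝ u x) (D2 u x v)) :
    IndQ (κ - B * ‖y - x‖) (fderiv ℝ u y) (D2 u y v) := by
  have m1 := Aff_mean hu hx hy h2
  have m2 := Aff_mean (u := fderiv ℝ u) (B := B) (fun z hz => good_c1 (hu z hz)) hx hy
    (fun z hz => by rw [norm_iteratedFDeriv_fderiv]; exact h3 z hz)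
  refine h.perturb m1 ?_
  have h4 := (fderiv ℝ (fderiv ℝ u) y - fderiv ℝ (fderiv ℝ u) x).le_opNorm₂ v v
  rw [hv, mul_one, mul_one] at h4
  exact le_trans (le_of_eq (by simp [D2])) (h4.trans m2)

end Vale.Agent.P205.PT
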