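import Vale.Agent.P205.PT.Defs

/-!
exists_atl: at p take φ from IsMetric.normal_ch, then ψ from small_ch (R = 4) with r so small that
‖trep φ γ0 y - trep φ γ0 0‖ ≤ 1/100 for ‖y‖ ≤ 4 r (continuity, SmT). trep ψ γ0 z v v =
r² trep φ γ0 (r z) v v: trep_trans with φ ∘ ψ.symm = (r • ·) near z. c = r². The open sets
ψ.source ∩ ψ ⁻¹' ball 0 1 cover M; finite subcover, index it by Fin n (Finset.equivFin).
Atl.lower: apply_eq_trep and T.near.
close_atl: bd_loc (Api/Bd) near each point of K with U = ball 0 3, finite subcover of K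
(IsCompact.induction_on or elim_nhds_subcover), ν = 1.
-/

open scoped Manifold ContDiff Topology RealInnerProductSpace
open Set Filter Metric Function

noncomputable section

namespace Vale.Agent.P205.PT

variable {M : Type*} [TopologicalSpace M] [ChartedSpace E2 M] [IsManifold I2 ∞ M] {γ0 : M → Bil}

theorem atlas_loc (h0 : IsMetric γ0) (p : M) : ∃ (ψ : Chart M) (c : ℝ), IsCh ψ ∧
    closedBall (0 : E2) 4 ⊆ ψ.target ∧ 0 < c ∧ (p ∈ ψ.source ∧ ψ p = 0) ∧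
    ∀ z ∈ closedBall (0 : E2) 4, ∀ v,
      |trep ψ γ0 z v v - c * ‖v‖ ^ 2| ≤ c * ‖v‖ ^ 2 / 100 := by
  obtain ⟨φ, hφ, hp, hp0, hn⟩ := h0.normal_ch p
  have hc : ContinuousAt (trep φ γ0) 0 :=
    (h0.1 φ hφ).continuousOn.continuousAt (φ.open_target.mem_nhds (hp0 ▸ φ.map_source hp))
  have h1 : ∀ᶠ y in 𝓝 (0 : E2), ‖trep φ γ0 y - trep φ γ0 0‖ < 1 / 100 :=
    ((tendsto_iff_norm_sub_tendsto_zero (E := Bil)).1 hc).eventually (gt_mem_nhds (by norm_num))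
  have h2 : ∀ᶠ r in 𝓝 (0 : ℝ), ∀ z ∈ closedBall (0 : E2) 4,
      ‖trep φ γ0 (r • z) - trep φ γ0 0‖ < 1 / 100 := by
    refine (isCompact_closedBall (0 : E2) 4).eventually_forall_of_forall_eventually fun z _ => ?_
    have h3 : Tendsto (fun w : ℝ × E2 => w.1 • w.2) (𝓝 (0, z)) (𝓝 0) :=
      Continuous.tendsto' (by fun_prop) _ _ (zero_smul ℝ z)
    exact h3.eventually h1
  obtain ⟨r, ⟨hr, h3⟩, ψ, hψ, a1, a2, -, a4⟩ := ((eventually_mem_nhdsWithin.and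
    (h2.filter_mono nhdsWithin_le_nhds)).and (small_ch hφ hp 4)).exists
  have hr : 0 < r := hr
  have e : ∀ y ∈ ψ.target, (φ ∘ ψ.symm) y = r • y := fun y hy => by
    have := a2 (ψ.symm y)
    rw [ψ.right_inv hy, hp0, sub_zero] at this
    rw [comp_apply, ← smul_inv_smul₀ hr.ne' (φ (ψ.symm y)), ← this]
  refine ⟨ψ, r ^ 2, hψ, a4, pow_pos hr 2, ⟨a1 ▸ hp, by rw [a2, sub_self, smul_zero]⟩,
    fun z hz v => ?_⟩
  have h4 : (φ ∘ ψ.symm) =ᶠ[𝓝 z] fun y => r • y := by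
    filter_upwards [ψ.open_target.mem_nhds (a4 hz)] with y hy using e y hy
  have h5 : fderiv ℝ (φ ∘ ψ.symm) z = r • ContinuousLinearMap.id ℝ E2 := by
    rw [h4.fderiv_eq]
    exact ((hasFDerivAt_id z).const_smul r).fderiv
  have h6 := (trep φ γ0 (r • z) - trep φ γ0 0).le_opNorm₂ v v
  rw [sub_apply, sub_apply, hn, real_inner_self_eq_norm_sq, Real.norm_eq_abs, mul_assoc,
    ← sq] at h6
  have h7 := h6.trans (mul_le_mul_of_nonneg_right (h3 z hz).le (sq_nonneg _))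
  rw [trep_trans hφ hψ γ0 (a4 hz) (a1 ▸ ψ.map_target (a4 hz)), h5, e z (a4 hz),
    ContinuousLinearMap.bilinearComp_apply]
  simp only [smul_apply, ContinuousLinearMap.id_apply, map_smul, smul_eq_mul]
  rw [← mul_assoc, ← sq, ← mul_sub, abs_mul, abs_sq]
  refine (mul_le_mul_of_nonneg_left h7 (sq_nonneg r)).trans_eq ?_
  ring

theorem exists_atl [CompactSpace M] (h0 : IsMetric γ0) : Nonempty (Atl γ0) := by
  choose ψ c h1 h2 h3 h4 h5 using atlas_loc h0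
  obtain ⟨t, ht⟩ := isCompact_univ.elim_finite_subcover
    (fun p : M => (ψ p).source ∩ ψ p ⁻¹' ball 0 1)
    (fun p => (ψ p).isOpen_inter_preimage isOpen_ball)
    fun p _ => mem_iUnion.2 ⟨p, (h4 p).1, by
      rw [mem_preimage, (h4 p).2]
      exact mem_ball_self one_pos⟩
  refine ⟨⟨t.card, fun i => ψ (t.equivFin.symm i), fun i => c (t.equivFin.symm i), fun i => h1 _,
    fun i => h2 _, fun p => ?_, fun i => h3 _, fun i => h5 _⟩⟩
  obtain ⟨q, hq, hp⟩ := mem_iUnion₂.1 (ht (mem_univ p))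
  refine ⟨t.equivFin ⟨q, hq⟩, ?_⟩
  rw [Equiv.symm_apply_apply]
  exact ⟨hp.1, mem_ball_zero_iff.1 hp.2⟩

theorem Atl.lower (T : Atl γ0) (i : Fin T.n) {p : M} (hp : p ∈ (T.φ i).source)
    (hz : T.φ i p ∈ closedBall (0 : E2) 4) (v : E2) :
    T.c i / 2 * ‖dM (T.φ i) p v‖ ^ 2 ≤ γ0 p v v := by
  rw [apply_eq_trep (T.ch i) γ0 hp]
  have h1 := (abs_le.1 (T.near i _ hz (dM (T.φ i) p v))).1
  have h2 := mul_nonneg (T.cpos i).le (sq_nonneg ‖dM (T.φ i) p v‖)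
  linarith

theorem Atl.nonneg (T : Atl γ0) (p : M) (v : E2) : 0 ≤ γ0 p v v := by
  obtain ⟨i, hp, h⟩ := T.cov p
  refine le_trans ?_ (T.lower i hp (mem_closedBall_zero_iff.2 (by linarith)) v)
  exact mul_nonneg (half_pos (T.cpos i)).le (sq_nonneg _)

theorem Atl.close (T : Atl γ0) {ψ : Chart M} (hψ : IsCh ψ) {K : Set E2} (hKt : K ⊆ ψ.target)
    (hK : IsCompact K) : ∃ C : ℝ, 0 < C ∧ ∀ u : M → E4, Sm u → ∀ ε : ℝ, 0 ≤ ε →
      (∀ i, ∀ z ∈ ball (0 : E2) 3, ∀ j ≤ 2,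
        ‖iteratedFDeriv ℝ j (u ∘ (T.φ i).symm) z‖ ≤ ε) →
      ∀ z ∈ K, ∀ j ≤ 2, ‖iteratedFDeriv ℝ j (u ∘ ψ.symm) z‖ ≤ C * ε := by
  refine hK.induction_on (p := fun K => ∃ C : ℝ, 0 < C ∧ ∀ u : M → E4, Sm u →
    ∀ ε : ℝ, 0 ≤ ε → (∀ i, ∀ z ∈ ball (0 : E2) 3, ∀ j ≤ 2,
      ‖iteratedFDeriv ℝ j (u ∘ (T.φ i).symm) z‖ ≤ ε) →
      ∀ z ∈ K, ∀ j ≤ 2, ‖iteratedFDeriv ℝ j (u ∘ ψ.symm) z‖ ≤ C * ε)
    ⟨1, one_pos, fun _ _ _ _ _ _ h => h.elim⟩
    (fun s t hst ⟨C, h0, h⟩ => ⟨C, h0, fun u hu ε hε hb z hz => h u hu ε hε hb z (hst hz)⟩)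
    (fun s t ⟨C, h0, h⟩ ⟨C', _, h'⟩ => ⟨max C C', lt_max_of_lt_left h0,
      fun u hu ε hε hb z hz j hj => ?_⟩) fun x hx => ?_
  · rcases hz with hz | hz
    · exact (h u hu ε hε hb z hz j hj).trans (mul_le_mul_of_nonneg_right (le_max_left _ _) hε)
    · exact (h' u hu ε hε hb z hz j hj).trans (mul_le_mul_of_nonneg_right (le_max_right _ _) hε)
  · obtain ⟨i, hp, h1⟩ := T.cov (ψ.symm x)
    obtain ⟨K', k1, -, k2, C, hC⟩ := bd_loc (T.ch i) hψ (hKt hx) hp (U := ball 0 3)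
      (isOpen_ball.mem_nhds (mem_ball_zero_iff.2 (by linarith))) 2 E4
    refine ⟨K', nhdsWithin_le_nhds k1, max C 1, lt_max_of_lt_right one_pos,
      fun u hu ε hε hb z hz j hj => ?_⟩
    have h2 := (hC (u ∘ (T.φ i).symm) ε 1 hε le_rfl (hu.contDiffOn (T.ch i))
      (fun y hy k hk => by rw [one_pow, mul_one]; exact hb i y hy k hk) z hz).2 j hj
    rw [one_pow, mul_one] at h2
    rw [((good_trans u (k2 z hz).1 (k2 z hz).2).iteratedFDeriv ℝ j).eq_of_nhds]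
    exact h2.trans (mul_le_mul_of_nonneg_right (le_max_left _ _) hε)

end Vale.Agent.P205.PT
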