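import Vale.Agent.P205.PT.Nrm

/-!
The coefficients. bet_bound: leib with L = (mul ℝ ℝ).bilinearComp (id) (Z.A t k) (or first
ContinuousLinearMap.norm_iteratedFDeriv_comp_left), Bu = Λ^(sup mψ j, j ≤ J) (ν^j ≥ 1), Bw = ν^5;
‖L‖ 2^J Λ^.. ≤ Λ^m ≤ ν (pow_ge, finitely many t k).
bet_range: trep φ H z v v = H p w w with p = φ.symm z, w = dS φ z v (bilinearComp_apply); with T.near
|trep φ H z v v - δ c ‖v‖²| ≤ δ c ‖v‖² / 10, Z.rng; c i / 10 ≥ Λ⁻¹^e, 2 c i ≤ Λ^e for all i.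
tq_sum: Fintype.sum_prod_type; for a chart i with p in the source, Finset.sum_fiberwise (over the
colours), Finset.sum_comm, Z.dec, apply_eq_trep give ψ p * Wt (φ p) * H p v v; then C.one.
-/

open scoped Manifold ContDiff Topology RealInnerProductSpace
open Set Filter Metric Function

noncomputable section

namespace Vale.Agent.P205.PT

variable {M : Type*} [TopologicalSpace M] [ChartedSpace E2 M] [IsManifold I2 ∞ M] {γ0 : M → Bil}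

theorem Beta_leib {W : Type} [NormedAddCommGroup W] [NormedSpace ℝ W] (A : W →L[ℝ] ℝ)
    {u : E2 → ℝ} {w : E2 → W} {z : E2} {Bu Bw ν : ℝ} {j : ℕ} (hu : ContDiffAt ℝ ∞ u z)
    (hw : ContDiffAt ℝ ∞ w z) (h1 : ∀ i ≤ j, ‖iteratedFDeriv ℝ i u z‖ ≤ Bu * ν ^ i)
    (h2 : ∀ i ≤ j, ‖iteratedFDeriv ℝ i w z‖ ≤ Bw * ν ^ i) :
    ‖iteratedFDeriv ℝ j (fun x => u x * A (w x)) z‖ ≤ ‖A‖ * 2 ^ j * Bu * Bw * ν ^ j := by
  have h := leib ((1 : ℝ →L[ℝ] ℝ).smulRight A) hu hw h1 h2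
  rw [ContinuousLinearMap.norm_smulRight_apply, norm_one, one_mul] at h
  exact h

theorem Beta_cd {W : Type} [NormedAddCommGroup W] [NormedSpace ℝ W] (A : W →L[ℝ] ℝ)
    {u : E2 → ℝ} {w : E2 → W} {z : E2} (hu : ContDiffAt ℝ ∞ u z) (hw : ContDiffAt ℝ ∞ w z) :
    ContDiffAt ℝ ∞ (fun x => u x * A (w x)) z :=
  hu.mul (A.contDiff.contDiffAt.comp z hw)

theorem Beta_ex {W : Type} [NormedAddCommGroup W] [NormedSpace ℝ W] (A : W →L[ℝ] ℝ) :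
    ∃ a : ℝ, 0 ≤ a ∧ ∀ (u : E2 → ℝ) (w : E2 → W) (z : E2), ContDiffAt ℝ ∞ u z →
      ContDiffAt ℝ ∞ w z → ContDiffAt ℝ ∞ (fun x => u x * A (w x)) z ∧ ∀ (Bu Bw ν : ℝ) (j : ℕ),
        (∀ i ≤ j, ‖iteratedFDeriv ℝ i u z‖ ≤ Bu * ν ^ i) →
        (∀ i ≤ j, ‖iteratedFDeriv ℝ i w z‖ ≤ Bw * ν ^ i) →
        ‖iteratedFDeriv ℝ j (fun x => u x * A (w x)) z‖ ≤ a * 2 ^ j * Bu * Bw * ν ^ j :=
  ⟨‖A‖, norm_nonneg _, fun _ _ _ hu hw =>
    ⟨Beta_cd A hu hw, fun _ _ _ _ h1 h2 => Beta_leib A hu hw h1 h2⟩⟩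

theorem bet_bound (T : Atl γ0) (Z : Dirs) (J : ℕ) (mψ : ℕ → ℕ) : ∃ m : ℕ,
    ∀ (Λ ν : ℝ) (ψ : M → ℝ) (H : M → Bil), 2 ≤ Λ → Λ ^ m ≤ ν → Sm ψ → SmT H →
    (∀ j, T.Nrm ψ j (Λ ^ mψ j)) → (∀ j ≤ J, T.NrmT H j (ν ^ (j + 5))) →
    ∀ i t k, ∀ z ∈ closedBall (0 : E2) 4, ContDiffAt ℝ ∞ (bet Z (T.φ i) ψ H t k) z ∧
      ∀ j ≤ J, ‖iteratedFDeriv ℝ j (bet Z (T.φ i) ψ H t k) z‖ ≤ ν ^ (j + 6) := by
  choose a ha0 ha using fun t k => Beta_ex (W := Bil) (Z.A t k)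
  obtain ⟨e, he⟩ := pow_ge ((∑ t, ∑ k, a t k) * 2 ^ J)
  refine ⟨e + (Finset.range (J + 1)).sup mψ, fun Λ ν ψ H hΛ hν hψ hH nψ nH i t k z hz => ?_⟩
  set s := (Finset.range (J + 1)).sup mψ
  have hν1 : 1 ≤ ν := (one_le_pow₀ (by linarith)).trans hν
  have hu := T.smAt hψ i z hz
  have hw := T.smTAt hH i z hz
  obtain ⟨hc, hb⟩ := ha t k _ _ z hu hw
  refine ⟨hc, fun j hj => ?_⟩
  have h1 : ∀ l ≤ j, ‖iteratedFDeriv ℝ l (ψ ∘ (T.φ i).symm) z‖ ≤ Λ ^ s * ν ^ l := by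
    intro l hl
    have h2 : mψ l ≤ s := Finset.le_sup (f := mψ) (Finset.mem_range.2 (by omega))
    refine (nψ l i z hz).trans ((pow_mono hΛ h2).trans ?_)
    exact le_mul_of_one_le_right (by positivity) (one_le_pow₀ hν1)
  have h2 : ∀ l ≤ j, ‖iteratedFDeriv ℝ l (trep (T.φ i) H) z‖ ≤ ν ^ 5 * ν ^ l := by
    intro l hl
    refine (nH l (hl.trans hj) i z hz).trans (le_of_eq ?_)
    ring
  refine (hb _ _ _ j h1 h2).trans ?_
  have h3 : a t k ≤ ∑ t, ∑ k, a t k :=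
    (Finset.single_le_sum (f := fun k => a t k) (fun _ _ => ha0 _ _)
      (Finset.mem_univ k)).trans (Finset.single_le_sum (f := fun t => ∑ k, a t k)
        (fun _ _ => Finset.sum_nonneg fun _ _ => ha0 _ _) (Finset.mem_univ t))
  have h4 : a t k * 2 ^ j ≤ Λ ^ e :=
    (mul_le_mul h3 (pow_le_pow_right₀ (by norm_num) hj) (by positivity)
      ((ha0 _ _).trans h3)).trans (he Λ hΛ)
  have h5 : a t k * 2 ^ j * Λ ^ s ≤ ν := by
    refine le_trans ?_ hν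
    rw [pow_add]
    exact mul_le_mul_of_nonneg_right h4 (by positivity)
  calc a t k * 2 ^ j * Λ ^ s * ν ^ 5 * ν ^ j ≤ ν * ν ^ 5 * ν ^ j := by gcongr
    _ = ν ^ (j + 6) := by ring

theorem bet_range (T : Atl γ0) (Z : Dirs) : ∃ e : ℕ,
    ∀ (Λ δ : ℝ) (m0 : ℕ) (ψ : M → ℝ) (H : M → Bil), 2 ≤ Λ → 0 < δ → SymT H →
    (∀ p, Λ⁻¹ ^ m0 ≤ ψ p ∧ ψ p ≤ Λ ^ m0) →
    (∀ p v, |H p v v - δ * γ0 p v v| ≤ δ * γ0 p v v / 25) →
    ∀ i t k, ∀ z ∈ closedBall (0 : E2) 4, δ * Λ⁻¹ ^ (m0 + e) ≤ bet Z (T.φ i) ψ H t k z ∧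
      bet Z (T.φ i) ψ H t k z ≤ δ * Λ ^ (m0 + e) := by
  have h1 : ∀ i, ∃ e : ℕ, ∀ Λ : ℝ, 2 ≤ Λ → Λ⁻¹ ^ e ≤ T.c i / 10 := fun i =>
    pow_ge' (by have := T.cpos i; positivity)
  choose e1 he1 using h1
  choose e2 he2 using fun i => pow_ge (2 * T.c i)
  refine ⟨Finset.univ.sup e1 + Finset.univ.sup e2,
    fun Λ δ m0 ψ H hΛ hδ hH hψ hd i t k z hz => ?_⟩
  set e := Finset.univ.sup e1 + Finset.univ.sup e2 with he
  have l1 : e1 i ≤ e := (Finset.le_sup (f := e1) (Finset.mem_univ i)).trans (Nat.le_add_right _ _)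
  have l2 : e2 i ≤ e := (Finset.le_sup (f := e2) (Finset.mem_univ i)).trans (Nat.le_add_left _ _)
  have a1 : Λ⁻¹ ^ e ≤ T.c i / 10 := (inv_pow_anti hΛ l1).trans (he1 i Λ hΛ)
  have a2 : 2 * T.c i ≤ Λ ^ e := (he2 i Λ hΛ).trans (pow_mono hΛ l2)
  have hc := T.cpos i
  have hr := Z.rng t k (trep (T.φ i) H z) (δ * T.c i) (fun v w => hH _ _ _) (fun v => by
    have b1 := T.near i z hz v
    have b2 : |trep (T.φ i) H z v v - δ * trep (T.φ i) γ0 z v v| ≤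
        δ * trep (T.φ i) γ0 z v v / 25 := hd _ _
    have b3 : 0 ≤ T.c i * ‖v‖ ^ 2 := by positivity
    rw [mul_assoc]
    generalize T.c i * ‖v‖ ^ 2 = n at b1 b3 ⊢
    generalize trep (T.φ i) γ0 z v v = x at b1 b2
    generalize trep (T.φ i) H z v v = y at b2 ⊢
    rw [abs_le] at b1 b2 ⊢
    have b4 := mul_le_mul_of_nonneg_left b1.1 hδ.le
    have b5 := mul_le_mul_of_nonneg_left b1.2 hδ.le
    have b6 := mul_nonneg hδ.le b3
    constructor <;> nlinarith [b2.1, b2.2])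
  have hp := hψ ((T.φ i).symm z)
  have hΛ0 : 0 < Λ := by linarith
  have p0 : 0 < Λ⁻¹ ^ m0 := by positivity
  have p1 : 0 < δ * T.c i / 10 := by positivity
  unfold bet
  constructor
  · calc δ * Λ⁻¹ ^ (m0 + e) = Λ⁻¹ ^ m0 * (δ * Λ⁻¹ ^ e) := by ring
      _ ≤ Λ⁻¹ ^ m0 * (δ * (T.c i / 10)) := by gcongr
      _ = Λ⁻¹ ^ m0 * (δ * T.c i / 10) := by ring
      _ ≤ _ := mul_le_mul hp.1 hr.1 p1.le (p0.le.trans hp.1)
  · calc _ ≤ Λ ^ m0 * (2 * (δ * T.c i)) :=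
          mul_le_mul hp.2 hr.2 (p1.le.trans hr.1) (by positivity)
      _ = δ * (Λ ^ m0 * (2 * T.c i)) := by ring
      _ ≤ δ * (Λ ^ m0 * Λ ^ e) := by gcongr
      _ = δ * Λ ^ (m0 + e) := by ring

theorem tq_sum {T : Atl γ0} {Z : Dirs} {m0 : ℕ} {mψ : ℕ → ℕ} {Λ : ℝ} {F0 : M → E4}
    (C : Ctx T Z m0 mψ Λ F0) {H : M → Bil} (hH : SymT H) (p : M) (v : E2) :
    ∑ s : Fin T.n × (ZMod 3 × ZMod 3) × Fin 3,
      tq (T.φ s.1) C.r (C.D.filter fun d => C.col d = s.2.1) (fun d => Z.R (C.t s.1 d) s.2.2)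
        (fun d => bet Z (T.φ s.1) C.ψ H (C.t s.1 d) s.2.2) p v = H p v v := by
  have key : ∀ i, ∑ c : ZMod 3 × ZMod 3, ∑ k : Fin 3,
      tq (T.φ i) C.r (C.D.filter fun d => C.col d = c) (fun d => Z.R (C.t i d) k)
        (fun d => bet Z (T.φ i) C.ψ H (C.t i d) k) p v =
      C.ψ p * push (T.φ i) (Wt C.r C.D) p * H p v v := by
    intro i
    unfold tq push
    by_cases hp : p ∈ (T.φ i).source
    · simp only [if_pos hp]
      have h1 : ∀ d, ∑ k : Fin 3, wt (C.r⁻¹ • (T.φ i p - d)) ^ 2 *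
          bet Z (T.φ i) C.ψ H (C.t i d) k (T.φ i p) * ⟪Z.R (C.t i d) k ex, dM (T.φ i) p v⟫ ^ 2 =
          wt (C.r⁻¹ • (T.φ i p - d)) ^ 2 * (C.ψ p * H p v v) := by
        intro d
        rw [apply_eq_trep (T.ch i) H hp,
          Z.dec (C.t i d) (trep (T.φ i) H (T.φ i p)) (fun v w => hH _ _ _), Finset.mul_sum,
          Finset.mul_sum]
        refine Finset.sum_congr rfl fun k _ => ?_
        unfold bet
        rw [(T.φ i).left_inv hp]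
        ring
      calc _ = ∑ c : ZMod 3 × ZMod 3, ∑ d ∈ C.D.filter fun d => C.col d = c,
            wt (C.r⁻¹ • (T.φ i p - d)) ^ 2 * (C.ψ p * H p v v) := by
            refine Finset.sum_congr rfl fun c _ => ?_
            rw [Finset.sum_comm]
            exact Finset.sum_congr rfl fun d _ => h1 d
        _ = ∑ d ∈ C.D, wt (C.r⁻¹ • (T.φ i p - d)) ^ 2 * (C.ψ p * H p v v) :=
            Finset.sum_fiberwise C.D C.col _
        _ = _ := by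
            rw [← Finset.sum_mul]
            unfold Wt
            ring
    · simp [if_neg hp]
  rw [Fintype.sum_prod_type]
  simp only [Fintype.sum_prod_type (α₁ := ZMod 3 × ZMod 3) (α₂ := Fin 3), key]
  rw [← Finset.sum_mul, ← Finset.mul_sum, C.one, one_mul]

end Vale.Agent.P205.PT
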