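import Vale.Agent.P205.PT.Defs

/-!
Choice of a good triple. c = B v v, κ = Λ⁻¹. n0 = c - (orthogonal projection of c on range A) has
‖n0‖ ≥ κ (IndQ with t = 1), n = n0 / ‖n0‖ is a unit vector orthogonal to range A, ⟪n, c⟫ ≥ κ.
Q w = ⟪n, B w w⟫ = α w0² + β w0 w1 + γ w1². Lagrange: for y1 y2 y3 with det(yi,yk) ≠ 0,
Q v = Σ_i Q(yi) Π_{k≠i} det(v,yk) / det(yi,yk) (field_simp; ring); |det| ≤ 1 for unit vectors.
If every t had a k with |Q (R t k ey)| < κ s² / 3 then |Q v| < κ. So some t has |Q Y| ≥ q = κ s²/3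
for its three Y. Then |τ| q ≤ ‖A ξ + τ c'‖ (c' = B Y Y, ‖c'‖ ≤ Λ³) and
κ ‖ξ‖ ≤ ‖A ξ‖ ≤ ‖A ξ + τ c'‖ + |τ| Λ³. Absorb constants with pow_ge.
-/

open scoped Manifold ContDiff Topology RealInnerProductSpace
open Set Filter Metric Function

noncomputable section

namespace Vale.Agent.P205.PT

theorem pick_normal {κ : ℝ} (hκ : 0 < κ) {A : E2 →L[ℝ] E4} {c : E4} (h : IndQ κ A c) :
    ∃ n : E4, ‖n‖ = 1 ∧ (∀ ξ, ⟪n, A ξ⟫ = 0) ∧ κ ≤ ⟪n, c⟫ := by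
  obtain ⟨y, ⟨ξ, rfl⟩, z, hz, hc⟩ :=
    (LinearMap.range (A : E2 →ₗ[ℝ] E4)).exists_add_mem_mem_orthogonal c
  have h0 : ∀ ξ, ⟪z, A ξ⟫ = 0 := fun ξ =>
    Submodule.inner_left_of_mem_orthogonal (LinearMap.mem_range_self _ ξ) hz
  have h1 := h (-ξ) 1
  have h2 : A (-ξ) + (1 : ℝ) • c = z := by
    rw [hc, map_neg, one_smul]
    exact neg_add_cancel_left _ _
  rw [h2, abs_one] at h1
  have h3 : κ ≤ ‖z‖ := le_trans (by nlinarith [norm_nonneg (-ξ)]) h1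
  have h4 : ‖z‖ ≠ 0 := (hκ.trans_le h3).ne'
  refine ⟨‖z‖⁻¹ • z, ?_, fun ξ => ?_, ?_⟩
  · rw [norm_smul, norm_inv, norm_norm, inv_mul_cancel₀ h4]
  · rw [real_inner_smul_left, h0, mul_zero]
  · have h5 : ⟪z, (A : E2 →ₗ[ℝ] E4) ξ⟫ = 0 := h0 ξ
    rw [real_inner_smul_left, hc, inner_add_right, h5, zero_add, real_inner_self_eq_norm_sq, sq,
      inv_mul_cancel_left₀ h4]
    exact h3

theorem pick_term {Q d1 d2 e1 e2 q s : ℝ} (hQ : |Q| ≤ q) (h1 : |d1| ≤ 1) (h2 : |d2| ≤ 1)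
    (hs : 0 < s) (h3 : s ≤ |e1|) (h4 : s ≤ |e2|) : Q * d1 * d2 / (e1 * e2) ≤ q / s ^ 2 := by
  refine (le_abs_self _).trans ?_
  rw [abs_div, abs_mul, abs_mul, abs_mul, sq]
  have h5 : |Q| * |d1| * |d2| ≤ q * 1 * 1 := by
    have := (abs_nonneg _).trans hQ
    gcongr
  exact div_le_div₀ ((abs_nonneg _).trans hQ) (by linarith) (mul_pos hs hs)
    (mul_le_mul h3 h4 hs.le (abs_nonneg _))

theorem pick_det {u w : E2} (hu : ‖u‖ = 1) (hw : ‖w‖ = 1) : |u 0 * w 1 - u 1 * w 0| ≤ 1 := by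
  have h1 := EuclideanSpace.real_norm_sq_eq u
  have h2 := EuclideanSpace.real_norm_sq_eq w
  rw [Fin.sum_univ_two] at h1 h2
  rw [hu] at h1
  rw [hw] at h2
  rw [← sq_le_one_iff_abs_le_one]
  nlinarith [sq_nonneg (u 0 * w 0 + u 1 * w 1)]

theorem pick_quad (n : E4) (B : E2 →L[ℝ] E2 →L[ℝ] E4) : ∃ α β γ : ℝ, ∀ w : E2,
    ⟪n, B w w⟫ = α * w 0 ^ 2 + β * (w 0 * w 1) + γ * w 1 ^ 2 := by
  refine ⟨⟪n, B ex ex⟫, ⟪n, B ex ey⟫ + ⟪n, B ey ex⟫, ⟪n, B ey ey⟫, fun w => ?_⟩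
  have hw : w = w 0 • ex + w 1 • ey := by
    ext i
    fin_cases i <;> simp [ex, ey]
  conv_lhs => rw [hw]
  simp only [map_add, map_smul, add_apply, smul_apply, inner_add_right, real_inner_smul_right]
  ring

theorem pick_lagrange (n : E4) (B : E2 →L[ℝ] E2 →L[ℝ] E4) {v : E2} {y : Fin 3 → E2} {q s : ℝ}
    (hv : ‖v‖ = 1) (hy : ∀ i, ‖y i‖ = 1) (hs : 0 < s)
    (hsep : ∀ i j, i ≠ j → s ≤ |y i 0 * y j 1 - y i 1 * y j 0|)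
    (hq : ∀ i, |⟪n, B (y i) (y i)⟫| ≤ q) : ⟪n, B v v⟫ ≤ 3 * (q / s ^ 2) := by
  obtain ⟨α, β, γ, hQ⟩ := pick_quad n B
  have d := fun i => pick_det hv (hy i)
  have t0 := pick_term (hq 0) (d 1) (d 2) hs (hsep 0 1 (by decide)) (hsep 0 2 (by decide))
  have t1 := pick_term (hq 1) (d 0) (d 2) hs (hsep 1 0 (by decide)) (hsep 1 2 (by decide))
  have t2 := pick_term (hq 2) (d 0) (d 1) hs (hsep 2 0 (by decide)) (hsep 2 1 (by decide))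
  have ne : ∀ i j, i ≠ j → y i 0 * y j 1 - y i 1 * y j 0 ≠ 0 := fun i j h =>
    abs_pos.1 (hs.trans_le (hsep i j h))
  have n01 := ne 0 1 (by decide)
  have n02 := ne 0 2 (by decide)
  have n12 := ne 1 2 (by decide)
  have e10 : y 1 0 * y 0 1 - y 1 1 * y 0 0 = -(y 0 0 * y 1 1 - y 0 1 * y 1 0) := by ring
  have e20 : y 2 0 * y 0 1 - y 2 1 * y 0 0 = -(y 0 0 * y 2 1 - y 0 1 * y 2 0) := by ring
  have e21 : y 2 0 * y 1 1 - y 2 1 * y 1 0 = -(y 1 0 * y 2 1 - y 1 1 * y 2 0) := by ring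
  rw [e10] at t1
  rw [e20, e21] at t2
  refine le_trans (le_of_eq ?_) ((add_le_add (add_le_add t0 t1) t2).trans (le_of_eq (by ring)))
  simp only [hQ]
  field_simp
  ring

theorem pick (Z : Dirs) : ∃ m : ℕ, ∀ (Λ : ℝ) (A : E2 →L[ℝ] E4) (B : E2 →L[ℝ] E2 →L[ℝ] E4)
    (v : E2), 2 ≤ Λ → ‖v‖ = 1 → ‖B‖ ≤ Λ ^ 3 → IndQ Λ⁻¹ A (B v v) →
    ∃ t, ∀ k, IndQ (Λ⁻¹ ^ m) A (B (Z.R t k ey) (Z.R t k ey)) := by
  obtain ⟨e, he⟩ := pow_ge' (c := Z.s ^ 2 / 4) (by have := Z.spos; positivity)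
  refine ⟨e + 7, fun Λ A B v hΛ hv hB h => ?_⟩
  have hΛ0 : 0 < Λ := by linarith
  have hκ : 0 < Λ⁻¹ := inv_pos.2 hΛ0
  obtain ⟨n, hn, hn0, hc⟩ := pick_normal hκ h
  have hY : ∀ t k, ‖Z.R t k ey‖ = 1 := fun t k => by simp [ey]
  obtain ⟨t, ht⟩ : ∃ t, ∀ k, Λ⁻¹ * (Z.s ^ 2 / 4) ≤ |⟪n, B (Z.R t k ey) (Z.R t k ey)⟫| := by
    by_contra hcon
    push Not at hcon
    choose k hk using hcon
    have h1 := hc.trans (pick_lagrange n B (y := fun t => Z.R t (k t) ey) hv (fun t => hY t _)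
      Z.spos (fun i j hij => Z.sep i j _ _ hij) fun t => (hk t).le)
    have h2 : Λ⁻¹ * (Z.s ^ 2 / 4) / Z.s ^ 2 = Λ⁻¹ / 4 := by
      have := Z.spos
      field_simp
    rw [h2] at h1
    linarith
  refine ⟨t, fun k ξ τ => ?_⟩
  obtain ⟨c, hc'⟩ : ∃ c, c = B (Z.R t k ey) (Z.R t k ey) := ⟨_, rfl⟩
  have hcn : ‖c‖ ≤ Λ ^ 3 := by
    have := B.le_opNorm₂ (Z.R t k ey) (Z.R t k ey)
    rw [hY, mul_one, mul_one, ← hc'] at this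
    exact this.trans hB
  have hq := (mul_le_mul_of_nonneg_left (he Λ hΛ) hκ.le).trans (ht k)
  rw [← hc'] at hq ⊢
  obtain ⟨N, hN⟩ : ∃ N, N = ‖A ξ + τ • c‖ := ⟨_, rfl⟩
  have hN0 : 0 ≤ N := hN ▸ norm_nonneg _
  have a1 : |τ| * |⟪n, c⟫| ≤ N := by
    have := abs_real_inner_le_norm n (A ξ + τ • c)
    rwa [inner_add_right, hn0, zero_add, real_inner_smul_right, abs_mul, hn, one_mul, ← hN] at this
  have a2 : |τ| ≤ N * Λ ^ (e + 1) := by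
    have := (mul_le_mul_of_nonneg_left hq (abs_nonneg τ)).trans a1
    rwa [← pow_succ', inv_pow, ← div_eq_mul_inv, div_le_iff₀ (pow_pos hΛ0 _)] at this
  have a3 : ‖ξ‖ ≤ (N + |τ| * Λ ^ 3) * Λ := by
    have h1 := h ξ 0
    rw [abs_zero, add_zero, zero_smul, add_zero, mul_comm, ← div_eq_mul_inv,
      div_le_iff₀ hΛ0] at h1
    refine h1.trans (mul_le_mul_of_nonneg_right ?_ hΛ0.le)
    have h2 := norm_sub_le (A ξ + τ • c) (τ • c)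
    rw [add_sub_cancel_right, norm_smul, Real.norm_eq_abs, ← hN] at h2
    exact h2.trans (add_le_add le_rfl (mul_le_mul_of_nonneg_left hcn (abs_nonneg τ)))
  have a4 : |τ| * Λ ^ 3 * Λ ≤ N * Λ ^ (e + 5) := by
    calc |τ| * Λ ^ 3 * Λ ≤ N * Λ ^ (e + 1) * Λ ^ 3 * Λ := by gcongr
      _ = _ := by ring
  have a5 : N * Λ ^ 1 ≤ N * Λ ^ (e + 5) :=
    mul_le_mul_of_nonneg_left (pow_mono hΛ (by omega)) hN0
  have a6 : N * Λ ^ (e + 1) ≤ N * Λ ^ (e + 5) :=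
    mul_le_mul_of_nonneg_left (pow_mono hΛ (by omega)) hN0
  have a7 : N * Λ ^ (e + 5) * 3 ≤ N * Λ ^ (e + 5) * Λ ^ 2 :=
    mul_le_mul_of_nonneg_left (by nlinarith) (by positivity)
  rw [← hN, inv_pow, mul_comm, ← div_eq_mul_inv, div_le_iff₀ (pow_pos hΛ0 _)]
  calc ‖ξ‖ + |τ| ≤ N * Λ ^ (e + 5) * Λ ^ 2 := by linarith
    _ = _ := by ring

end Vale.Agent.P205.PT
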