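import Vale.Agent.P205.PT.Part
import Vale.Agent.P205.PT.Pick
import Vale.Agent.P205.PT.Aff

/-!
Existence of the geometric data. m from pick, r = Λ⁻¹^(m+6), D col from exists_latt
(card ≤ 36 Λ^(2m+12) ≤ Λ^(2m+18)), ψ from exists_part with 2m+18, m0 = 2m + 18 + m1.
t i d: pick at the centre d for A = fderiv f d, B = fderiv (fderiv f) d, f = F0 ∘ (φ i).symm
(norm_fderiv2_eq; choose over all d with d ∈ closedBall 0 4 as a hypothesis).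
adm: F = F0 + (F - F0) gives Nrm F j ≤ Λ³ + 1 ≤ Λ^m0. indQ_move with B = Λ⁴ loses Λ⁻¹^(m+2),
indQ_c2 loses Λ⁻¹^m0 ≤ Λ⁻¹^(m+2); Λ⁻¹^m - 2 Λ⁻¹^(m+2) ≥ Λ⁻¹^(m+1) ≥ Λ⁻¹^m0 (IndQ.mono).
-/

open scoped Manifold ContDiff Topology RealInnerProductSpace
open Set Filter Metric Function

noncomputable section

namespace Vale.Agent.P205.PT

variable {M : Type*} [TopologicalSpace M] [ChartedSpace E2 M] [IsManifold I2 ∞ M] {γ0 : M → Bil}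

theorem exists_ctx [T2Space M] (T : Atl γ0) (Z : Dirs) : ∃ (m0 : ℕ) (mψ : ℕ → ℕ), 1 ≤ m0 ∧
    ∀ (Λ : ℝ) (F0 : M → E4), 2 ≤ Λ → Sm F0 → (∀ j ≤ 3, T.Nrm F0 j (Λ ^ (j + 1))) →
    (∀ i, ∀ z ∈ closedBall (0 : E2) 4, ∃ v : E2, ‖v‖ = 1 ∧
      IndQ Λ⁻¹ (fderiv ℝ (F0 ∘ (T.φ i).symm) z) (D2 (F0 ∘ (T.φ i).symm) z v)) →
    Nonempty (Ctx T Z m0 mψ Λ F0) := by
  obtain ⟨m, hm⟩ := pick Z
  obtain ⟨m1, mψ, hpart⟩ := exists_part T (2 * m + 18)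
  refine ⟨2 * m + 18 + m1, mψ, by omega, fun Λ F0 hΛ hF0 hN hI => ?_⟩
  have hΛ0 : 0 < Λ := by linarith
  have hi0 : 0 < Λ⁻¹ := inv_pos.2 hΛ0
  have hi1 : Λ⁻¹ ≤ 1 / 2 := by
    rw [one_div]
    exact inv_anti₀ (by norm_num) hΛ
  have hr0 : 0 < Λ⁻¹ ^ (m + 6) := pow_pos hi0 _
  have hr1 : Λ⁻¹ ^ (m + 6) ≤ 1 / 2 := by
    refine le_trans (inv_pow_anti hΛ (by omega : 1 ≤ m + 6)) ?_
    rwa [pow_one]
  obtain ⟨D, col, hcard, hcen, hsep, hcov⟩ := exists_latt hr0 hr1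
  have hcard' : (D.card : ℝ) ≤ Λ ^ (2 * m + 18) := by
    refine hcard.trans ?_
    have e : (Λ⁻¹ ^ (m + 6))⁻¹ ^ 2 = Λ ^ (2 * m + 12) := by
      rw [inv_pow Λ, inv_inv, ← pow_mul]
      congr 1
      omega
    have h6 : (36 : ℝ) ≤ Λ ^ 6 :=
      le_trans (by norm_num) (pow_le_pow_left₀ (by norm_num : (0 : ℝ) ≤ 2) hΛ 6)
    rw [e, show 2 * m + 18 = 6 + (2 * m + 12) by omega, pow_add Λ 6]
    exact mul_le_mul_of_nonneg_right h6 (by positivity)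
  obtain ⟨ψ, hs, hn, hr, hone⟩ := hpart Λ _ D hΛ (inv_pow_anti hΛ (by omega)) hr1 hcard' hcen hcov
  have ht : ∀ (i : Fin T.n) (d : E2), ∃ t : Fin 3, d ∈ closedBall (0 : E2) 4 → ∀ k,
      IndQ (Λ⁻¹ ^ m) (fderiv ℝ (F0 ∘ (T.φ i).symm) d)
        (D2 (F0 ∘ (T.φ i).symm) d (Z.R t k ey)) := by
    intro i d
    by_cases hd : d ∈ closedBall (0 : E2) 4
    · obtain ⟨v, hv, hq⟩ := hI i d hd
      obtain ⟨t, ht⟩ := hm Λ _ (fderiv ℝ (fderiv ℝ (F0 ∘ (T.φ i).symm)) d) v hΛ hv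
        ((norm_fderiv2_eq _ _).trans_le (hN 2 (by norm_num) i d hd)) hq
      exact ⟨t, fun _ => ht⟩
    · exact ⟨0, fun h => absurd h hd⟩
  choose t ht using ht
  refine ⟨⟨Λ⁻¹ ^ (m + 6), D, col, ψ, t, inv_pow_anti hΛ (by omega), hr1,
    hcard'.trans (pow_mono hΛ (by omega)), hcen, hsep, hs, hn,
    fun p => ⟨(inv_pow_anti hΛ (by omega)).trans (hr p).1,
      (hr p).2.trans (pow_mono hΛ (by omega))⟩, hone, fun F hF hc => ⟨fun j hj => ?_, ?_⟩⟩⟩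
  · have h1 := (hN j (by omega)).add (hc j hj) hF0 (sm_sub hF hF0)
    rw [add_sub_cancel] at h1
    refine h1.mono ?_
    have h2 : Λ ^ (j + 1) ≤ Λ ^ 3 := pow_mono hΛ (by omega)
    have h3 : Λ⁻¹ ^ (2 * m + 18 + m1) ≤ 1 := pow_le_one₀ hi0.le (by linarith)
    have h4 : Λ ^ 4 ≤ Λ ^ (2 * m + 18 + m1) := pow_mono hΛ (by omega)
    have h5 : 1 ≤ Λ ^ 3 := one_le_pow₀ (by linarith)
    have h6 : Λ ^ 4 = Λ ^ 3 * Λ := pow_succ Λ 3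
    nlinarith
  · intro i d hd k z hz
    have hd4 : d ∈ closedBall (0 : E2) 4 :=
      mem_closedBall_zero_iff.2 ((hcen d hd).trans (by norm_num))
    have hzd : ‖z - d‖ < Λ⁻¹ ^ (m + 6) := by rwa [mem_ball, dist_eq_norm] at hz
    have hz4 : z ∈ closedBall (0 : E2) 4 := by
      rw [mem_closedBall_zero_iff]
      have := norm_sub_norm_le z d
      linarith [hcen d hd]
    have hY : ‖Z.R (t i d) k ey‖ = 1 := by simp [ey]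
    have h1 := indQ_move (T.smAt hF0 i) (B := Λ ^ 4) hY hd4 hz4
      (fun x hx => (hN 2 (by norm_num) i x hx).trans (pow_mono hΛ (by omega)))
      (fun x hx => hN 3 le_rfl i x hx) (ht i d hd4 k)
    have h2 := indQ_c2 (T.smAt hF0 i z hz4) (T.smAt hF i z hz4) hY
      (hc 1 (by norm_num) i z hz4) (hc 2 le_rfl i z hz4) h1
    refine h2.mono ?_
    have h3 : Λ ^ 4 * ‖z - d‖ ≤ Λ⁻¹ ^ (m + 2) := by
      refine (mul_le_mul_of_nonneg_left hzd.le (by positivity)).trans (le_of_eq ?_)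
      rw [show m + 6 = 4 + (m + 2) by omega, pow_add Λ⁻¹ 4, ← mul_assoc, ← mul_pow,
        mul_inv_cancel₀ hΛ0.ne', one_pow, one_mul]
    have h4 : Λ⁻¹ ^ (2 * m + 18 + m1) ≤ Λ⁻¹ ^ (m + 2) := inv_pow_anti hΛ (by omega)
    have h5 : Λ⁻¹ ^ (m + 2) ≤ Λ⁻¹ ^ m / 4 := by
      rw [pow_add]
      have h6 : Λ⁻¹ ^ 2 ≤ (1 / 2) ^ 2 := pow_le_pow_left₀ hi0.le hi1 2
      have h7 := mul_le_mul_of_nonneg_left h6 (pow_pos hi0 m).le
      linarith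
    have h8 := pow_pos hi0 m
    linarith

end Vale.Agent.P205.PT
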