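import Vale.Agent.P205.PT.Defs

/-!
Nine directions. exists_rot: the linear map with matrix columns (p, q), (-q, p) preserves norms
(LinearIsometry.toLinearIsometryEquiv, or LinearEquiv.isometryOfInner).
Frames (e1, e2) = (p, q), (-q, p) for (p, q) = (1, 0), (0, 1), (12/13, 5/13), t = 0, 1, 2.
R t k ex = e1, (3 e1 + 4 e2) / 5, (-3 e1 + 4 e2) / 5 for k = 0, 1, 2, that is
t = 0: (1,0), (3/5,4/5), (-3/5,4/5); t = 1: (0,1), (-4/5,3/5), (-4/5,-3/5);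
t = 2: (12/13,5/13), (16/65,63/65), (-56/65,33/65). With h11 = H e1 e1, h12 = H e1 e2,
h22 = H e2 e2: A t 0 = h11 - 9/16 h22, A t 1 = 25/32 h22 + 25/24 h12, A t 2 = 25/32 h22 - 25/24 h12
(evaluation maps: (ContinuousLinearMap.apply ℝ ℝ w).comp (ContinuousLinearMap.apply ℝ _ v)).
rng: test on e1, e2, e1 + e2, e1 - e2 gives |h11 - c|, |h22 - c|, |h12| ≤ c / 10. s = 1 / 10.
Prove dec and rng once for a general orthonormal frame (v = x e1 + y e2), then fin_cases.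
-/

open scoped Manifold ContDiff Topology RealInnerProductSpace
open Set Filter Metric Function

noncomputable section

namespace Vale.Agent.P205.PT

theorem exists_rot {p q : ℝ} (h : p ^ 2 + q ^ 2 = 1) : ∃ R : E2 ≃ₗᵢ[ℝ] E2,
    (R ex 0 = p ∧ R ex 1 = q) ∧ R ey 0 = -q ∧ R ey 1 = p := by
  obtain ⟨L, hL⟩ : ∃ L : E2 →L[ℝ] E2, ∀ v, L v 0 = p * v 0 - q * v 1 ∧ L v 1 = q * v 0 + p * v 1 :=
    ⟨(EuclideanSpace.proj 0 : E2 →L[ℝ] ℝ).smulRight !₂[p, q] +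
      (EuclideanSpace.proj 1 : E2 →L[ℝ] ℝ).smulRight !₂[-q, p], fun v => by
      constructor <;> simp <;> ring⟩
  have hn : ∀ v, ‖L v‖ = ‖v‖ := fun v => by
    rw [EuclideanSpace.norm_eq, EuclideanSpace.norm_eq, Fin.sum_univ_two, Fin.sum_univ_two,
      (hL v).1, (hL v).2]
    simp only [Real.norm_eq_abs, sq_abs]
    congr 1
    linear_combination (v 0 ^ 2 + v 1 ^ 2) * h
  refine ⟨(⟨L.toLinearMap, hn⟩ : E2 →ₗᵢ[ℝ] E2).toLinearIsometryEquiv rfl, ?_⟩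
  change (L ex 0 = p ∧ L ex 1 = q) ∧ L ey 0 = -q ∧ L ey 1 = p
  rw [(hL ex).1, (hL ex).2, (hL ey).1, (hL ey).2]
  simp [ex, ey]

def dir_a : Fin 3 → ℝ := ![1, 3 / 5, -3 / 5]

def dir_b : Fin 3 → ℝ := ![0, 4 / 5, 4 / 5]

theorem dir_ev (v w : E2) : ∃ L : Bil →L[ℝ] ℝ, ∀ H, L H = H v w :=
  ⟨(ContinuousLinearMap.apply ℝ ℝ w).comp (ContinuousLinearMap.apply ℝ (E2 →L[ℝ] ℝ) v),
    fun _ => rfl⟩

theorem dir_frame {p q : ℝ} (h : p ^ 2 + q ^ 2 = 1) :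
    ∃ (R : Fin 3 → (E2 ≃ₗᵢ[ℝ] E2)) (A : Fin 3 → (Bil →L[ℝ] ℝ)),
      (∀ H : Bil, (∀ v w, H v w = H w v) → ∀ v, H v v = ∑ k, A k H * ⟪R k ex, v⟫ ^ 2) ∧
      (∀ k (H : Bil) (c : ℝ), (∀ v w, H v w = H w v) →
        (∀ v, |H v v - c * ‖v‖ ^ 2| ≤ c * ‖v‖ ^ 2 / 10) → c / 10 ≤ A k H ∧ A k H ≤ 2 * c) ∧
      ∀ k, R k ey 0 = -(dir_a k * q + dir_b k * p) ∧ R k ey 1 = dir_a k * p - dir_b k * q := by
  have h1 : ∀ k, (dir_a k * p - dir_b k * q) ^ 2 + (dir_a k * q + dir_b k * p) ^ 2 = 1 := by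
    intro k
    fin_cases k <;> simp [dir_a, dir_b] <;> linarith
  choose R hR using fun k => exists_rot (h1 k)
  obtain ⟨e1, he1⟩ : ∃ e : E2, e 0 = p ∧ e 1 = q := ⟨!₂[p, q], rfl, rfl⟩
  obtain ⟨e2, he2⟩ : ∃ e : E2, e 0 = -q ∧ e 1 = p := ⟨!₂[-q, p], rfl, rfl⟩
  obtain ⟨L11, h11⟩ := dir_ev e1 e1
  obtain ⟨L12, h12⟩ := dir_ev e1 e2
  obtain ⟨L22, h22⟩ := dir_ev e2 e2
  have hq : ∀ H : Bil, (∀ v w, H v w = H w v) → ∀ x y : ℝ, H (x • e1 + y • e2) (x • e1 + y • e2) =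
      x ^ 2 * H e1 e1 + 2 * x * y * H e1 e2 + y ^ 2 * H e2 e2 := fun H hH x y => by
    simp only [map_add, map_smul, add_apply, smul_apply, smul_eq_mul, hH e2 e1]
    ring
  have hn : ∀ x y : ℝ, ‖x • e1 + y • e2‖ ^ 2 = x ^ 2 + y ^ 2 := fun x y => by
    rw [EuclideanSpace.real_norm_sq_eq, Fin.sum_univ_two]
    simp only [PiLp.add_apply, PiLp.smul_apply, smul_eq_mul, he1.1, he1.2, he2.1, he2.2]
    linear_combination (x ^ 2 + y ^ 2) * h
  refine ⟨R, ![L11 + (-9 / 16 : ℝ) • L22, (25 / 32 : ℝ) • L22 + (25 / 24 : ℝ) • L12,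
    (25 / 32 : ℝ) • L22 + (-25 / 24 : ℝ) • L12], fun H hH v => ?_, fun k H c hH hc => ?_,
    fun k => (hR k).2⟩
  · have hv : v = (p * v 0 + q * v 1) • e1 + (-q * v 0 + p * v 1) • e2 := by
      ext i
      fin_cases i
      · simp only [Fin.zero_eta, PiLp.add_apply, PiLp.smul_apply, smul_eq_mul, he1.1, he2.1]
        linear_combination (-v 0) * h
      · simp only [Fin.mk_one, PiLp.add_apply, PiLp.smul_apply, smul_eq_mul, he1.2, he2.2]
        linear_combination (-v 1) * h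
    have hi : ∀ k, ⟪R k ex, v⟫ =
        dir_a k * (p * v 0 + q * v 1) + dir_b k * (-q * v 0 + p * v 1) := fun k => by
      rw [PiLp.inner_apply, Fin.sum_univ_two, (hR k).1.1, (hR k).1.2]
      simp only [RCLike.inner_apply, conj_trivial]
      ring
    conv_lhs => rw [hv, hq H hH]
    simp only [Fin.sum_univ_three, hi, dir_a, dir_b, Matrix.cons_val_zero, Matrix.cons_val_one,
      Matrix.cons_val, add_apply, smul_apply, h11, h12, h22, smul_eq_mul]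
    ring
  · have a1 := abs_le.1 (hc ((1 : ℝ) • e1 + (0 : ℝ) • e2))
    have a2 := abs_le.1 (hc ((0 : ℝ) • e1 + (1 : ℝ) • e2))
    have a3 := abs_le.1 (hc ((1 : ℝ) • e1 + (1 : ℝ) • e2))
    have a4 := abs_le.1 (hc ((1 : ℝ) • e1 + (-1 : ℝ) • e2))
    rw [hq H hH, hn] at a1 a2 a3 a4
    obtain ⟨a1, b1⟩ := a1
    obtain ⟨a2, b2⟩ := a2
    obtain ⟨a3, b3⟩ := a3
    obtain ⟨a4, b4⟩ := a4
    fin_cases k <;>
      simp only [Fin.zero_eta, Fin.mk_one, Fin.reduceFinMk, Matrix.cons_val_zero,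
        Matrix.cons_val_one, Matrix.cons_val, add_apply, smul_apply, h11, h12, h22,
        smul_eq_mul] <;>
      constructor <;> linarith

theorem exists_dirs : Nonempty Dirs := by
  have h : ∀ t : Fin 3, (![1, 0, 12 / 13] t : ℝ) ^ 2 + (![0, 1, 5 / 13] t : ℝ) ^ 2 = 1 := by
    intro t
    fin_cases t <;> simp <;> norm_num
  choose R A h1 h2 h3 using fun t => dir_frame (h t)
  refine ⟨⟨R, A, 1 / 10, by norm_num, h1, h2, fun t t' k k' htt => ?_⟩⟩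
  rw [(h3 t k).1, (h3 t k).2, (h3 t' k').1, (h3 t' k').2]
  fin_cases t <;> fin_cases t' <;> first | exact absurd rfl htt | skip
  all_goals
    fin_cases k <;> fin_cases k' <;>
      simp only [dir_a, dir_b, Fin.zero_eta, Fin.mk_one, Fin.reduceFinMk, Matrix.cons_val_zero,
        Matrix.cons_val_one, Matrix.cons_val] <;>
      norm_num [le_abs]

end Vale.Agent.P205.PT
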