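import Vale.Agent.P205.PT.Iter2

/-!
The sequence. Recursion over the level l on triples (F, ν, δ) with Inv l (choose from switch, then
Nat.rec on the subtype, or exists_seq style lemma). ν_l ≥ 2^l, δ_l ≤ ν_l⁻¹^bb ≤ 2⁻¹^l, δ_l ≥ 0.
v i = if j ≤ i + 2 then 2 * 2⁻¹^i else a bound from ex; summable since eventually geometric
(summable_nat_add_iff or Summable.congr_atTop / of_norm_bounded_eventually_nat).
-/

open scoped Manifold ContDiff Topology RealInnerProductSpace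
open Set Filter Metric Function

noncomputable section

namespace Vale.Agent.P205.PT

variable {X : Type*} [AddCommGroup X]

theorem ItD.iter (I : ItD X) {ν δ : ℝ} {F1 : X} (h : I.Inv 0 ν δ F1) :
    ∃ (F : ℕ → X) (e : ℕ → ℝ),
      (∀ i, I.S (F i) ∧ I.Df (F i) (e i) ∧ ∀ j ≤ 2, I.N (F i - I.F0) j I.ρ) ∧
      Tendsto e atTop (𝓝 0) ∧
      ∀ j, ∃ v : ℕ → ℝ, Summable v ∧ ∀ i, I.N (F (i + 1) - F i) j (v i) := by
  have h1 : ∀ (l : ℕ) (t : {t : X × ℝ × ℝ // I.Inv l t.2.1 t.2.2 t.1}),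
      ∃ t' : {t : X × ℝ × ℝ // I.Inv (l + 1) t.2.1 t.2.2 t.1}, 2 * t.1.2.1 ≤ t'.1.2.1 ∧
        ∀ j ≤ l + 2, I.N (t'.1.1 - t.1.1) j (2 * t.1.2.1⁻¹) := fun l t => by
    obtain ⟨F', ν', a1, a2, a3⟩ := I.switch t.2
    exact ⟨⟨(F', ν', _), a2⟩, a1, a3⟩
  choose step hstep using h1
  obtain ⟨s, hs⟩ : ∃ s : ∀ l, {t : X × ℝ × ℝ // I.Inv l t.2.1 t.2.2 t.1},
      ∀ l, s (l + 1) = step l (s l) :=
    ⟨fun l => Nat.rec ⟨(F1, ν, δ), h⟩ step l, fun _ => rfl⟩
  have h2 : ∀ l, 2 ≤ (s l).1.2.1 := fun l => (s l).2.2.1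
  have h3 : ∀ l, 2 ^ l ≤ (s l).1.2.1 := fun l => by
    induction l with
    | zero => exact (pow_zero (2 : ℝ)).trans_le (one_le_two.trans (h2 0))
    | succ l ih =>
      have := (hstep l (s l)).1
      rw [← hs] at this
      rw [pow_succ]
      linarith
  have h4 : ∀ l, (s l).1.2.1⁻¹ ≤ 2⁻¹ ^ l := fun l => by
    rw [inv_pow]
    exact inv_anti₀ (by positivity) (h3 l)
  have h5 : ∀ l, 0 ≤ (s l).1.2.1⁻¹ := fun l => inv_nonneg.2 (zero_le_two.trans (h2 l))
  have hg : Summable fun i : ℕ => (2⁻¹ : ℝ) ^ i :=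
    summable_geometric_of_lt_one (by norm_num) (by norm_num)
  refine ⟨fun l => (s l).1.1, fun l => (s l).1.2.2, fun l => ?_, ?_, fun j => ?_⟩
  · obtain ⟨-, -, -, -, a1, -, a2, a3⟩ := (s l).2
    exact ⟨a1, a2, fun j hj => I.mono _ _ _ _ (a3 j hj) (by linarith [h5 l])⟩
  · refine squeeze_zero (fun l => (pow_nonneg (h5 l) _).trans (s l).2.2.2.1) (fun l => ?_)
      hg.tendsto_atTop_zero
    refine (s l).2.2.2.2.1.trans (le_trans ?_ (h4 l))
    exact (inv_pow_anti (h2 l) (m := 1) (by unfold bb; omega)).trans_eq (pow_one _)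
  · choose B hB using fun i =>
      I.ex _ (I.sub _ _ (s (i + 1)).2.2.2.2.2.1 (s i).2.2.2.2.2.1) j
    refine ⟨fun i => if j ≤ i + 2 then 2 * 2⁻¹ ^ i else B i, (hg.mul_left 2).congr_atTop ?_,
      fun i => ?_⟩
    · filter_upwards [eventually_ge_atTop j] with i hi
      rw [if_pos (by omega)]
    · by_cases hj : j ≤ i + 2
      · simp only [if_pos hj]
        have := (hstep i (s i)).2 j hj
        rw [← hs] at this
        exact I.mono _ _ _ _ this (by linarith [h4 i])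
      · simp only [if_neg hj]
        exact hB i

end Vale.Agent.P205.PT
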