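import Vale.Agent.P205.PT.Leib

/-!
Algebra of the atlas norms. Chart representatives are smooth at points of closedBall 0 4
(Sm.contDiffAt, SmT on the open target); iteratedFDeriv_add_apply, iteratedFDeriv_const_smul_apply
(ContDiffAt versions). ex: cmp_unif for each chart, sum over Fin T.n.
nrm_push: push_bound (Api/Cmp) with K = closedBall 0 3, K' = closedBall 0 4, max over charts.
nrmT_pull: near z, trep φ (pull F) x = L (fderiv f x) (fderiv f x), f = F ∘ φ.symm (trep_pull, ext),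
where L : (E2 →L E4) →L (E2 →L E4) →L Bil sends (A, A') to (innerSL ℝ).bilinearComp A A'
(build it with LinearMap.mkContinuous₂, or as a composite of compL and flip); then leib and
norm_iteratedFDeriv_fderiv with Bu = Bw = B ν.
-/

open scoped Manifold ContDiff Topology RealInnerProductSpace
open Set Filter Metric Function

noncomputable section

namespace Vale.Agent.P205.PT

variable {M : Type*} [TopologicalSpace M] [ChartedSpace E2 M] [IsManifold I2 ∞ M] {γ0 : M → Bil}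
variable {V : Type} [NormedAddCommGroup V] [NormedSpace ℝ V]

theorem Nrm_le (j : ℕ) : ((j : ℕ∞) : WithTop ℕ∞) ≤ ∞ := by exact_mod_cast le_top

theorem Nrm_add {u w : E2 → V} {z : E2} {j : ℕ} {B B' : ℝ} (hu : ContDiffAt ℝ ∞ u z)
    (hw : ContDiffAt ℝ ∞ w z) (h : ‖iteratedFDeriv ℝ j u z‖ ≤ B)
    (h' : ‖iteratedFDeriv ℝ j w z‖ ≤ B') : ‖iteratedFDeriv ℝ j (u + w) z‖ ≤ B + B' := by
  rw [iteratedFDeriv_add_apply (hu.of_le (Nrm_le j)) (hw.of_le (Nrm_le j))]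
  exact (norm_add_le _ _).trans (add_le_add h h')

theorem Nrm_sub {u w : E2 → V} {z : E2} {j : ℕ} {B B' : ℝ} (hu : ContDiffAt ℝ ∞ u z)
    (hw : ContDiffAt ℝ ∞ w z) (h : ‖iteratedFDeriv ℝ j u z‖ ≤ B)
    (h' : ‖iteratedFDeriv ℝ j w z‖ ≤ B') : ‖iteratedFDeriv ℝ j (u - w) z‖ ≤ B + B' := by
  rw [iteratedFDeriv_sub_apply (hu.of_le (Nrm_le j)) (hw.of_le (Nrm_le j))]
  exact (norm_sub_le _ _).trans (add_le_add h h')

theorem Nrm_smul {u : E2 → V} {z : E2} {j : ℕ} {B : ℝ} (hu : ContDiffAt ℝ ∞ u z)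
    (h : ‖iteratedFDeriv ℝ j u z‖ ≤ B) (a : ℝ) :
    ‖iteratedFDeriv ℝ j (a • u) z‖ ≤ |a| * B := by
  rw [iteratedFDeriv_const_smul_apply (hu.of_le (Nrm_le j)), norm_smul, Real.norm_eq_abs]
  exact mul_le_mul_of_nonneg_left h (abs_nonneg a)

theorem Nrm_ex {n : ℕ} {u : Fin n → E2 → V}
    (hu : ∀ i, ∀ z ∈ closedBall (0 : E2) 4, ContDiffAt ℝ ∞ (u i) z) (j : ℕ) :
    ∃ B, ∀ i, ∀ z ∈ closedBall (0 : E2) 4, ‖iteratedFDeriv ℝ j (u i) z‖ ≤ B := by
  choose D hD h using fun i => cmp_unif (isCompact_closedBall (0 : E2) 4) (hu i) j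
  exact ⟨∑ i, D i, fun i z hz => (h i j le_rfl z hz).trans
    (Finset.single_le_sum (fun k _ => zero_le_one.trans (hD k)) (Finset.mem_univ i))⟩

theorem Nrm_leib {Y : Type} [NormedAddCommGroup Y] [NormedSpace ℝ Y] (f : V → V → Y)
    (a1 : ∀ a b c, f (a + b) c = f a c + f b c) (s1 : ∀ (c : ℝ) a b, f (c • a) b = c • f a b)
    (a2 : ∀ a b c, f a (b + c) = f a b + f a c) (s2 : ∀ (c : ℝ) a b, f a (c • b) = c • f a b)
    (hf : ∀ a b, ‖f a b‖ ≤ 1 * ‖a‖ * ‖b‖) {u : E2 → V} {z : E2} {B ν : ℝ} {j : ℕ} (hν : 0 ≤ ν)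
    (hu : ContDiffAt ℝ ∞ u z) (h1 : ∀ i ≤ j, ‖iteratedFDeriv ℝ i u z‖ ≤ B * ν ^ i) :
    ‖iteratedFDeriv ℝ j (fun x => f (u x) (u x)) z‖ ≤ 2 ^ j * B ^ 2 * ν ^ j := by
  have h2 := leib ((LinearMap.mk₂ ℝ f a1 s1 a2 s2).mkContinuous₂ 1 hf) hu hu h1 h1
  have h3 := LinearMap.mkContinuous₂_norm_le (LinearMap.mk₂ ℝ f a1 s1 a2 s2) zero_le_one hf
  refine h2.trans ?_
  have h4 : 0 ≤ 2 ^ j * B ^ 2 * ν ^ j := by positivity
  calc _ = ‖(LinearMap.mk₂ ℝ f a1 s1 a2 s2).mkContinuous₂ 1 hf‖ * (2 ^ j * B ^ 2 * ν ^ j) := by ring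
    _ ≤ 1 * (2 ^ j * B ^ 2 * ν ^ j) := mul_le_mul_of_nonneg_right h3 h4
    _ = _ := one_mul _

/-- The inner product of two linear maps. -/
def Nrm_ip (A A' : E2 →L[ℝ] E4) : Bil := (innerSL ℝ : E4 →L[ℝ] E4 →L[ℝ] ℝ).bilinearComp A A'

theorem Nrm_ip_apply (A A' : E2 →L[ℝ] E4) (v w : E2) : Nrm_ip A A' v w = ⟪A v, A' w⟫ := rfl

theorem Nrm_ip_bound {u : E2 → E2 →L[ℝ] E4} {z : E2} {B ν : ℝ} {j : ℕ} (hν : 0 ≤ ν)
    (hu : ContDiffAt ℝ ∞ u z) (h1 : ∀ i ≤ j, ‖iteratedFDeriv ℝ i u z‖ ≤ B * ν ^ i) :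
    ‖iteratedFDeriv ℝ j (fun x => Nrm_ip (u x) (u x)) z‖ ≤ 2 ^ j * B ^ 2 * ν ^ j := by
  refine Nrm_leib (Y := Bil) Nrm_ip (fun A B C => ?_) (fun c A C => ?_) (fun A B C => ?_)
    (fun c A C => ?_) (fun A A' => ?_) hν hu h1
  · ext v w
    exact inner_add_left (A v) (B v) (C w)
  · ext v w
    exact real_inner_smul_left (A v) (C w) c
  · ext v w
    exact inner_add_right (A v) (B w) (C w)
  · ext v w
    exact real_inner_smul_right (A v) (C w) c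
  · refine ContinuousLinearMap.opNorm_le_bound₂ _ (by positivity) fun v w => ?_
    refine (norm_inner_le_norm (𝕜 := ℝ) (A v) (A' w)).trans ?_
    calc ‖A v‖ * ‖A' w‖ ≤ (‖A‖ * ‖v‖) * (‖A'‖ * ‖w‖) :=
          mul_le_mul (A.le_opNorm v) (A'.le_opNorm w) (norm_nonneg _) (by positivity)
      _ = _ := by ring

theorem sm_add {u w : M → V} (hu : Sm u) (hw : Sm w) : Sm (u + w) := by
  exact ContMDiff.add hu hw

theorem sm_sub {u w : M → V} (hu : Sm u) (hw : Sm w) : Sm (u - w) := by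
  exact ContMDiff.sub hu hw

theorem sm_smul {u : M → V} (a : ℝ) (hu : Sm u) : Sm (a • u) := by
  exact (contDiff_const_smul a).comp_contMDiff hu

theorem smT_const_smul {S : M → Bil} (a : ℝ) (hS : SmT S) : SmT (fun p => a • S p) := by
  exact SmT.smul (f := fun _ => a) contMDiff_const hS

theorem pull_smul {F : M → E4} (a : ℝ) (hF : Sm F) (p : M) (v : E2) :
    pull (a • F) p v v = a ^ 2 * pull F p v v := by
  have h : dM (a • F) p = a • dM F p :=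
    const_smul_mfderiv (hF.mdifferentiableAt (by simp)) a
  rw [pull_apply, pull_apply, h]
  change ⟪a • dM F p v, a • dM F p v⟫ = _
  rw [real_inner_smul_left, real_inner_smul_right]
  ring

theorem Atl.smAt (T : Atl γ0) {u : M → V} (hu : Sm u) (i : Fin T.n) :
    ∀ z ∈ closedBall (0 : E2) 4, ContDiffAt ℝ ∞ (u ∘ (T.φ i).symm) z := by
  exact fun z hz => hu.contDiffAt (T.ch i) (T.tgt i hz)

theorem Atl.smTAt (T : Atl γ0) {S : M → Bil} (hS : SmT S) (i : Fin T.n) :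
    ∀ z ∈ closedBall (0 : E2) 4, ContDiffAt ℝ ∞ (trep (T.φ i) S) z := by
  exact fun z hz => (hS _ (T.ch i)).contDiffAt ((T.φ i).open_target.mem_nhds (T.tgt i hz))

theorem Atl.Nrm.mono {T : Atl γ0} {u : M → V} {j : ℕ} {B B' : ℝ} (h : T.Nrm u j B)
    (hB : B ≤ B') : T.Nrm u j B' := by
  exact fun i z hz => (h i z hz).trans hB

theorem Atl.Nrm.add {T : Atl γ0} {u w : M → V} {j : ℕ} {B B' : ℝ} (h : T.Nrm u j B)
    (h' : T.Nrm w j B') (hu : Sm u) (hw : Sm w) : T.Nrm (u + w) j (B + B') := by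
  exact fun i z hz => Nrm_add (T.smAt hu i z hz) (T.smAt hw i z hz) (h i z hz) (h' i z hz)

theorem Atl.Nrm.smul {T : Atl γ0} {u : M → V} {j : ℕ} {B : ℝ} (h : T.Nrm u j B) (hu : Sm u)
    (a : ℝ) : T.Nrm (a • u) j (|a| * B) := by
  exact fun i z hz => Nrm_smul (T.smAt hu i z hz) (h i z hz) a

theorem Atl.nrm_zero (T : Atl γ0) (j : ℕ) : T.Nrm (0 : M → V) j 0 := by
  intro i z _
  have e : ((0 : M → V) ∘ (T.φ i).symm) = 0 := rfl
  rw [e, iteratedFDeriv_zero, Pi.zero_apply, norm_zero]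

theorem Atl.nrm_ex (T : Atl γ0) {u : M → V} (hu : Sm u) (j : ℕ) : ∃ B, T.Nrm u j B := by
  exact Nrm_ex (fun i => T.smAt hu i) j

theorem Atl.NrmT.mono {T : Atl γ0} {S : M → Bil} {j : ℕ} {B B' : ℝ} (h : T.NrmT S j B)
    (hB : B ≤ B') : T.NrmT S j B' := by
  exact fun i z hz => (h i z hz).trans hB

theorem Atl.NrmT.sub {T : Atl γ0} {S S' : M → Bil} {j : ℕ} {B B' : ℝ} (h : T.NrmT S j B)
    (h' : T.NrmT S' j B') (hS : SmT S) (hS' : SmT S') :
    T.NrmT (fun p => S p - S' p) j (B + B') := by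
  intro i z hz
  have e : trep (T.φ i) (fun p => S p - S' p) = trep (T.φ i) S - trep (T.φ i) S' := by
    ext x v w
    rfl
  rw [e]
  exact Nrm_sub (T.smTAt hS i z hz) (T.smTAt hS' i z hz) (h i z hz) (h' i z hz)

theorem Atl.NrmT.smul {T : Atl γ0} {S : M → Bil} {j : ℕ} {B : ℝ} (h : T.NrmT S j B) (hS : SmT S)
    (a : ℝ) : T.NrmT (fun p => a • S p) j (|a| * B) := by
  intro i z hz
  have e : trep (T.φ i) (fun p => a • S p) = a • trep (T.φ i) S := by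
    ext x v w
    rfl
  rw [e]
  exact Nrm_smul (T.smTAt hS i z hz) (h i z hz) a

theorem Atl.nrmT_ex (T : Atl γ0) {S : M → Bil} (hS : SmT S) (j : ℕ) : ∃ B, T.NrmT S j B := by
  exact Nrm_ex (fun i => T.smTAt hS i) j

theorem Atl.nrm_push [T2Space M] (T : Atl γ0) (j : ℕ) : ∃ C : ℝ, 0 < C ∧
    ∀ (i : Fin T.n) (U : E2 → V) (B ν : ℝ), 0 ≤ B → 1 ≤ ν → ContDiff ℝ ∞ U →
      support U ⊆ closedBall 0 3 → (∀ k ≤ j, ∀ z, ‖iteratedFDeriv ℝ k U z‖ ≤ B * ν ^ k) →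
      T.Nrm (push (T.φ i) U) j (C * B * ν ^ j) := by
  choose C hC h using fun q : Fin T.n × Fin T.n => push_bound (V := V) (T.ch q.1) (T.ch q.2)
    (isCompact_closedBall (0 : E2) 3)
    ((closedBall_subset_closedBall (by norm_num)).trans (T.tgt q.1))
    (isCompact_closedBall (0 : E2) 4) (T.tgt q.2) j
  have h0 : 0 ≤ ∑ q, C q := Finset.sum_nonneg fun q _ => (hC q).le
  refine ⟨1 + ∑ q, C q, by linarith, fun i U B ν hB hν hU hs hb i' z hz => ?_⟩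
  refine (h (i, i') U B ν hB hν hU hs hb z hz).trans ?_
  have h1 : C (i, i') ≤ ∑ q, C q := Finset.single_le_sum (fun q _ => (hC q).le) (Finset.mem_univ _)
  exact mul_le_mul_of_nonneg_right (mul_le_mul_of_nonneg_right (by linarith) hB)
    (pow_nonneg (zero_le_one.trans hν) _)

theorem Atl.nrmT_pull (T : Atl γ0) (j : ℕ) : ∃ C : ℝ, 0 < C ∧ ∀ (F : M → E4) (B ν : ℝ), Sm F →
    1 ≤ ν → (∀ k ≤ j + 1, T.Nrm F k (B * ν ^ k)) →
    T.NrmT (pull F) j (C * B ^ 2 * ν ^ (j + 2)) := by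
  refine ⟨2 ^ j, by positivity, fun F B ν hF hν hb i z hz => ?_⟩
  have e : trep (T.φ i) (pull F) =ᶠ[𝓝 z] fun x =>
      Nrm_ip (fderiv ℝ (F ∘ (T.φ i).symm) x) (fderiv ℝ (F ∘ (T.φ i).symm) x) := by
    filter_upwards [(T.φ i).open_target.mem_nhds (T.tgt i hz)] with x hx
    ext v w
    rw [trep_pull hF (T.ch i) hx, Nrm_ip_apply]
  have h1 : ∀ k ≤ j, ‖iteratedFDeriv ℝ k (fderiv ℝ (F ∘ (T.φ i).symm)) z‖ ≤ B * ν * ν ^ k :=
    fun k hk => by
      rw [norm_iteratedFDeriv_fderiv, mul_assoc, ← pow_succ']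
      exact hb (k + 1) (by omega) i z hz
  rw [(e.iteratedFDeriv ℝ j).eq_of_nhds]
  exact (Nrm_ip_bound (zero_le_one.trans hν) (good_c1 (T.smAt hF i z hz)) h1).trans
    (le_of_eq (by ring))

/-- The atlas norms as an abstract scale. -/
def Atl.abs (T : Atl γ0) : Abs (M → E4) where
  S := Sm
  N := T.Nrm
  sub := fun _ _ => sm_sub
  mono := fun _ _ _ _ => Atl.Nrm.mono
  add := fun _ _ _ _ _ hu hw h h' => h.add h' hu hw
  zero := T.nrm_zero
  ex := fun _ hu => T.nrm_ex hu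

end Vale.Agent.P205.PT
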