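import Vale.Agent.P205.PT.Limit1
import Vale.Agent.P205.PT.Nrm

/-!
Smooth limits on M. For each p the sequence F i p is Cauchy (T.cov, order zero bound,
cauchySeq_of_dist_le_of_summable), G p = its limit. limit_plane in each chart; sm_of_local.
pull: apply_eq_trep, trep_pull, fderiv f z w = iteratedFDeriv ℝ 1 f z (fun _ => w)
(iteratedFDeriv_one_apply), continuity of evaluation and of the inner product.
Last claim: D^j ((F i - F0) ∘ symm) z = D^j (F i ∘ symm) z - D^j (F0 ∘ symm) z, le_of_tendsto'.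
-/

open scoped Manifold ContDiff Topology RealInnerProductSpace
open Set Filter Metric Function

noncomputable section

namespace Vale.Agent.P205.PT

variable {M : Type*} [TopologicalSpace M] [ChartedSpace E2 M] [IsManifold I2 ∞ M] {γ0 : M → Bil}

theorem limit_mfd (T : Atl γ0) {F : ℕ → M → E4} (hF : ∀ i, Sm (F i))
    (h : ∀ j, ∃ v : ℕ → ℝ, Summable v ∧ ∀ i, T.Nrm (F (i + 1) - F i) j (v i)) :
    ∃ G : M → E4, Sm G ∧
      (∀ p v, Tendsto (fun i => pull (F i) p v v) atTop (𝓝 (pull G p v v))) ∧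
      ∀ (F0 : M → E4) (j : ℕ) (B : ℝ), Sm F0 → (∀ i, T.Nrm (F i - F0) j B) →
        ∀ c, ∀ z ∈ ball (0 : E2) 3, ‖iteratedFDeriv ℝ j ((G - F0) ∘ (T.φ c).symm) z‖ ≤ B := by
  have hc : ∀ p, ∃ g, Tendsto (fun i => F i p) atTop (𝓝 g) := by
    intro p
    obtain ⟨c, hp, hn⟩ := T.cov p
    obtain ⟨v, sv, hv⟩ := h 0
    refine cauchySeq_tendsto_of_complete (cauchySeq_of_dist_le_of_summable v (fun i => ?_) sv)
    have := hv i c (T.φ c p) (by simp only [mem_closedBall, dist_zero_right]; linarith)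
    rw [norm_iteratedFDeriv_zero, Function.comp_apply, (T.φ c).left_inv hp] at this
    rw [dist_comm, dist_eq_norm]
    exact this
  choose G hG using hc
  have key : ∀ c, ∀ z ∈ ball (0 : E2) 3, ContDiffAt ℝ ∞ (G ∘ (T.φ c).symm) z ∧ ∀ j,
      Tendsto (fun i => iteratedFDeriv ℝ j (F i ∘ (T.φ c).symm) z) atTop
        (𝓝 (iteratedFDeriv ℝ j (G ∘ (T.φ c).symm) z)) := fun c =>
    limit_plane (u := fun i => F i ∘ (T.φ c).symm) (fun i => T.smAt (hF i) c)
      (fun j => by
        obtain ⟨v, sv, hv⟩ := h j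
        exact ⟨v, sv, fun i z hz => hv i c z hz⟩)
      (fun z _ => hG _)
  have hb : ∀ {z : E2}, ‖z‖ < 1 → z ∈ ball (0 : E2) 3 := fun hz => by
    simp only [mem_ball, dist_zero_right]; linarith
  have sG : Sm G := sm_of_local fun p => by
    obtain ⟨c, hp, hn⟩ := T.cov p
    exact ⟨T.φ c, T.ch c, hp, (key c _ (hb hn)).1⟩
  refine ⟨G, sG, fun p v => ?_, fun F0 j B s0 hB c z hz => ?_⟩
  · obtain ⟨c, hp, hn⟩ := T.cov p
    have hz := (T.φ c).map_source hp
    have e : ∀ H : M → E4, Sm H → pull H p v v =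
        ⟪iteratedFDeriv ℝ 1 (H ∘ (T.φ c).symm) (T.φ c p) (fun _ => dM (T.φ c) p v),
          iteratedFDeriv ℝ 1 (H ∘ (T.φ c).symm) (T.φ c p) (fun _ => dM (T.φ c) p v)⟫ :=
      fun H sH => by
        rw [apply_eq_trep (T.ch c) _ hp, trep_pull sH (T.ch c) hz, iteratedFDeriv_one_apply]
    simp only [e _ sG, e _ (hF _)]
    have t := ((continuous_eval_const (fun _ : Fin 1 => dM (T.φ c) p v)).tendsto _).comp
      ((key c _ (hb hn)).2 1)
    exact t.inner (𝕜 := ℝ) t
  · have hz4 : z ∈ closedBall (0 : E2) 4 :=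
      ball_subset_closedBall (ball_subset_ball (by norm_num) hz)
    have e : ∀ H : M → E4, Sm H → iteratedFDeriv ℝ j ((H - F0) ∘ (T.φ c).symm) z =
        iteratedFDeriv ℝ j (H ∘ (T.φ c).symm) z - iteratedFDeriv ℝ j (F0 ∘ (T.φ c).symm) z :=
      fun H sH => iteratedFDeriv_sub_apply ((T.smAt sH c z hz4).of_le (by exact_mod_cast le_top))
        ((T.smAt s0 c z hz4).of_le (by exact_mod_cast le_top))
    rw [e G sG]
    refine le_of_tendsto' (((key c z hz).2 j).sub_const _).norm fun i => ?_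
    rw [← e _ (hF i)]
    exact hB i c z hz4

end Vale.Agent.P205.PT
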