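import Vale.Agent.P205.PT.Stage
import Vale.Agent.P205.PT.CtxEx
import Vale.Agent.P205.PT.Dir
import Vale.Agent.P205.PT.Iter3
import Vale.Agent.P205.PT.Limit2

/-!
The uniform perturbation theorem.
-/

open scoped Manifold ContDiff Topology RealInnerProductSpace
open Set Filter Metric Function

noncomputable section

namespace Vale.Agent.P205.PT

variable {M : Type*} [TopologicalSpace M] [ChartedSpace E2 M] [IsManifold I2 ∞ M] {γ0 : M → Bil}

theorem core_start {δ x : ℝ} (h0 : 0 ≤ δ) (h1 : δ ≤ 1) (hx : x = √(1 - δ)) :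
    x ^ 2 = 1 - δ ∧ |x| ≤ 1 ∧ |x - 1| ≤ δ := by
  have a1 : x ^ 2 = 1 - δ := by rw [hx]; exact Real.sq_sqrt (by linarith)
  have a2 : 0 ≤ x := by rw [hx]; exact Real.sqrt_nonneg _
  have a3 : x ≤ 1 := by nlinarith
  refine ⟨a1, abs_le.2 ⟨by linarith, a3⟩, abs_le.2 ⟨by nlinarith, by linarith⟩⟩

theorem core [T2Space M] (T : Atl γ0) : ∃ P J : ℕ, ∀ (Λ : ℝ) (F0 : M → E4) (γ : M → Bil),
    2 ≤ Λ → Sm F0 → SmT γ → SymT γ →
    (∀ j ≤ J, T.Nrm F0 j (Λ ^ (j + 1)) ∧ T.NrmT γ j (Λ ^ (j + 1))) →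
    (∀ i, ∀ z ∈ closedBall (0 : E2) 4, ∃ v : E2, ‖v‖ = 1 ∧
      IndQ Λ⁻¹ (fderiv ℝ (F0 ∘ (T.φ i).symm) z) (D2 (F0 ∘ (T.φ i).symm) z v)) →
    (∀ p v, |γ p v v - γ0 p v v| ≤ γ0 p v v / 100) →
    (∀ p v, |pull F0 p v v - γ p v v| ≤ Λ⁻¹ ^ P * γ0 p v v) →
    ∃ F' : M → E4, Sm F' ∧ pull F' = γ ∧ ∀ i, ∀ z ∈ ball (0 : E2) 3, ∀ j ≤ 2,
      ‖iteratedFDeriv ℝ j ((F' - F0) ∘ (T.φ i).symm) z‖ ≤ Λ⁻¹ := by
  obtain ⟨Z⟩ := exists_dirs
  obtain ⟨m0, mψ, hm0, hctx⟩ := exists_ctx T Z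
  obtain ⟨a, ha, hst⟩ := stage T Z
  choose J m mm hst using fun l => hst m0 mψ (bb a (l + 1))
  set m' : ℕ → ℕ := fun l => m l + (Finset.range (J l + l + 3)).sup (mm l) with hm'
  set A0 := m' 0 + m0 + 3 with hA0
  refine ⟨A0 * bb a 0 + 7, J 0 + 3, fun Λ F0 γ hΛ hF0 hγ hsy hN hI hcl hex => ?_⟩
  have hC := hctx Λ F0 hΛ hF0 (fun j hj => (hN j (by omega)).1) hI
  choose G hG using fun j => T.nrmT_ex hγ j
  let I : ItD (M → E4) :=
    { T.abs with
      Df := Dfc γ0 γ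
      Q := fun l ν => Λ ^ m' l ≤ ν ∧ 1 ≤ ν ∧ ∀ j ≤ J l, T.NrmT γ j (ν ^ (j + 1))
      a := a
      J := J
      K := fun l j => Λ ^ mm l j
      F0 := F0
      ρ := Λ⁻¹ ^ m0
      ha := ha
      s0 := hF0
      qmono := fun l ν ν' h hν => ⟨h.1.trans hν, h.2.1.trans hν, fun j hj =>
        (h.2.2 j hj).mono (pow_le_pow_left₀ (by linarith [h.2.1]) hν _)⟩
      qev := fun l => by
        have h1 : ∀ᶠ ν in atTop, ∀ j ∈ Finset.range (J l + 1), G j ≤ ν :=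
          (eventually_all_finset _).2 fun j _ => eventually_ge_atTop _
        filter_upwards [h1, eventually_ge_atTop (Λ ^ m' l), eventually_ge_atTop 1] with ν a1 a2 a3
        exact ⟨a2, a3, fun j hj => (hG j).mono ((a1 j (Finset.mem_range.2 (by omega))).trans
          (le_self_pow₀ a3 (by omega)))⟩
      k0 := fun l j => by positivity
      kle := fun l ν h j hj => by
        have h1 : mm l j ≤ (Finset.range (J l + l + 3)).sup (mm l) :=
          Finset.le_sup (f := mm l) (Finset.mem_range.2 (by omega))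
        exact (pow_mono hΛ (by simp only [hm']; omega)).trans h.1
      stage := fun l ν δ F h hν d1 d2 sF nF dF cF =>
        hst l Λ ν δ F0 F γ hΛ ((pow_mono hΛ (by simp only [hm']; omega)).trans h.1) hC hF0 hγ hsy
          hcl d1 (d2.trans (inv_pow_anti hν (by unfold bb; nlinarith))) sF
          (fun j hj => ⟨nF j hj, h.2.2 j hj⟩) dF cF }
  set ν := Λ ^ A0 with hν
  have hΛν : Λ ≤ ν := le_self_pow₀ (by linarith) (by omega)
  have hν2 : 2 ≤ ν := hΛ.trans hΛν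
  set δ := ν⁻¹ ^ bb a 0 with hδ
  have hδ0 : 0 ≤ δ := by positivity
  have hδ1 : δ ≤ 1 := pow_le_one₀ (by positivity) (inv_le_one_of_one_le₀ (by linarith))
  obtain ⟨x1, x2, x3⟩ := core_start hδ0 hδ1 rfl
  set x := √(1 - δ) with hx
  have hinv : I.Inv 0 ν δ (x • F0) := by
    refine ⟨⟨pow_mono hΛ (by omega), by linarith, fun j hj => (hN j (by omega)).2.mono
      (pow_le_pow_left₀ (by linarith) hΛν _)⟩, hν2, inv_pow_anti hν2 (by unfold bb; nlinarith),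
      le_rfl, sm_smul x hF0, fun j hj => ?_, fun p v => ?_, fun j hj => ?_⟩
    · refine (((hN j (by have : j ≤ J 0 := hj; omega)).1).smul hF0 x).mono ?_
      exact (mul_le_of_le_one_left (by positivity) x2).trans
        (pow_le_pow_left₀ (by linarith) hΛν _)
    · rw [pull_smul x hF0, x1]
      have h1 : γ p v v - (1 - δ) * pull F0 p v v - δ * γ p v v =
          -((1 - δ) * (pull F0 p v v - γ p v v)) := by ring
      have h2 := T.nonneg p v
      have h3 : Λ⁻¹ ^ 7 ≤ 1 / 100 := by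
        calc Λ⁻¹ ^ 7 ≤ (1 / 2) ^ 7 := pow_le_pow_left₀ (by positivity)
              (by rw [one_div]; exact inv_anti₀ (by norm_num) hΛ) 7
          _ ≤ 1 / 100 := by norm_num
      rw [h1, abs_neg, abs_mul, abs_of_nonneg (by linarith)]
      calc (1 - δ) * |pull F0 p v v - γ p v v| ≤ 1 * (Λ⁻¹ ^ (A0 * bb a 0 + 7) * γ0 p v v) :=
            mul_le_mul (by linarith) (hex p v) (abs_nonneg _) (by norm_num)
        _ = Λ⁻¹ ^ 7 * (δ * γ0 p v v) := by rw [hδ, hν, ← inv_pow, ← pow_mul]; ring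
        _ ≤ 1 / 100 * (δ * γ0 p v v) := mul_le_mul_of_nonneg_right h3 (by positivity)
        _ = δ * γ0 p v v / 100 := by ring
    · have h1 : x • F0 - F0 = (x - 1) • F0 := by rw [sub_smul, one_smul]
      show T.Nrm (x • F0 - F0) j (Λ⁻¹ ^ m0 - 2 * ν⁻¹)
      rw [h1]
      refine (((hN j (by omega)).1).smul hF0 (x - 1)).mono ?_
      have h2 : Λ ^ (j + 1) ≤ ν := pow_mono hΛ (by omega)
      have h3 : δ ≤ ν⁻¹ ^ 2 := inv_pow_anti hν2 (by unfold bb; omega)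
      have h4 : |x - 1| * Λ ^ (j + 1) ≤ ν⁻¹ := by
        calc |x - 1| * Λ ^ (j + 1) ≤ ν⁻¹ ^ 2 * ν :=
              mul_le_mul (x3.trans h3) h2 (by positivity) (by positivity)
          _ = ν⁻¹ := by field_simp
      have h5 : ν⁻¹ ≤ Λ⁻¹ ^ m0 * (1 / 4) := by
        calc ν⁻¹ = Λ⁻¹ ^ A0 := by rw [hν, inv_pow]
          _ ≤ Λ⁻¹ ^ (m0 + 2) := inv_pow_anti hΛ (by omega)
          _ = Λ⁻¹ ^ m0 * Λ⁻¹ ^ 2 := pow_add _ _ _
          _ ≤ Λ⁻¹ ^ m0 * (1 / 2) ^ 2 := mul_le_mul_of_nonneg_left (pow_le_pow_left₀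
              (by positivity) (by rw [one_div]; exact inv_anti₀ (by norm_num) hΛ) 2)
              (by positivity)
          _ = Λ⁻¹ ^ m0 * (1 / 4) := by norm_num
      have h6 : 0 ≤ ν⁻¹ := by positivity
      linarith
  obtain ⟨F, e, h1, h2, h3⟩ := I.iter hinv
  obtain ⟨F', s', t', c'⟩ := limit_mfd T (fun i => (h1 i).1) h3
  refine ⟨F', s', eq_of_diag (symT_pull F') hsy fun p v => ?_, fun i z hz j hj => ?_⟩
  · have a1 : Tendsto (fun i => |γ p v v - pull (F i) p v v - e i * γ p v v|) atTop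
        (𝓝 |γ p v v - pull F' p v v - 0 * γ p v v|) :=
      ((tendsto_const_nhds.sub (t' p v)).sub (h2.mul_const _)).abs
    have a2 : Tendsto (fun i => e i * γ0 p v v / 100) atTop (𝓝 (0 * γ0 p v v / 100)) :=
      (h2.mul_const _).div_const _
    have a3 := le_of_tendsto_of_tendsto' a1 a2 fun i => (h1 i).2.1 p v
    rw [zero_mul, zero_mul, sub_zero, zero_div, abs_nonpos_iff] at a3
    linarith
  · refine (c' F0 j _ hF0 (fun i => (h1 i).2.2 j hj) i z hz).trans ?_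
    have := inv_pow_anti hΛ hm0
    rwa [pow_one] at this

end Vale.Agent.P205.PT
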