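import Vale.Agent.P205.Api.Bd
import Vale.Agent.P205.Api.Met
import Vale.Agent.P205.Api.Good

/-!
Part PT definitions (owner helper72). FROZEN. All constants are written as powers of Λ ≥ 2
(use pow_ge to absorb a real constant).
-/

open scoped Manifold ContDiff Topology RealInnerProductSpace
open Set Filter Metric Function

noncomputable section

namespace Vale.Agent.P205.PT

/-- The cutoff: one on the closed ball of radius 3, support the open ball of radius 4. -/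
def chi : ContDiffBump (0 : E2) := ⟨3, 4, by norm_num, by norm_num⟩

def cut {V : Type} [NormedAddCommGroup V] [NormedSpace ℝ V] (u : E2 → V) : E2 → V :=
  fun z => chi z • u z

/-- Sum of the squared weights of the discs of radius r with centres in D. -/
def Wt (r : ℝ) (D : Finset E2) (z : E2) : ℝ := ∑ d ∈ D, wt (r⁻¹ • (z - d)) ^ 2

/-- Three triples of directions. -/
structure Dirs where
  R : Fin 3 → Fin 3 → (E2 ≃ₗᵢ[ℝ] E2)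
  A : Fin 3 → Fin 3 → (Bil →L[ℝ] ℝ)
  s : ℝ
  spos : 0 < s
  dec : ∀ t (H : Bil), (∀ v w, H v w = H w v) → ∀ v,
    H v v = ∑ k, A t k H * ⟪R t k ex, v⟫ ^ 2
  rng : ∀ t k (H : Bil) (c : ℝ), (∀ v w, H v w = H w v) →
    (∀ v, |H v v - c * ‖v‖ ^ 2| ≤ c * ‖v‖ ^ 2 / 10) → c / 10 ≤ A t k H ∧ A t k H ≤ 2 * c
  sep : ∀ t t' k k', t ≠ t' →
    s ≤ |R t k ey 0 * R t' k' ey 1 - R t k ey 1 * R t' k' ey 0|

/-- Abstract scale of norms. -/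
structure Abs (X : Type*) [AddCommGroup X] where
  S : X → Prop
  N : X → ℕ → ℝ → Prop
  sub : ∀ x y, S x → S y → S (x - y)
  mono : ∀ x j B B', N x j B → B ≤ B' → N x j B'
  add : ∀ x y j B B', S x → S y → N x j B → N y j B' → N (x + y) j (B + B')
  zero : ∀ j, N 0 j 0
  ex : ∀ x, S x → ∀ j, ∃ B, N x j B

def bb (a l : ℕ) : ℕ := 2 * a * (l + 2) + 4

/-- Abstract data of the iteration. -/
structure ItD (X : Type*) [AddCommGroup X] extends Abs X where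
  Df : X → ℝ → Prop
  Q : ℕ → ℝ → Prop
  a : ℕ
  J : ℕ → ℕ
  K : ℕ → ℕ → ℝ
  F0 : X
  ρ : ℝ
  ha : 2 ≤ a
  s0 : S F0
  qmono : ∀ l ν ν', Q l ν → ν ≤ ν' → Q l ν'
  qev : ∀ l, ∀ᶠ ν in atTop, Q l ν
  k0 : ∀ l j, 0 ≤ K l j
  kle : ∀ l ν, Q l ν → ∀ j ≤ J l + l + 2, K l j ≤ ν
  stage : ∀ l ν δ F, Q l ν → 2 ≤ ν → ν⁻¹ ^ bb a (l + 1) ≤ δ → δ ≤ ν⁻¹ ^ bb a l → S F →
    (∀ j ≤ J l, N F j (ν ^ (j + 1))) → Df F δ → (∀ j ≤ 2, N (F - F0) j (ρ - ν⁻¹)) →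
    ∃ F', S F' ∧ Df F' ((ν ^ a)⁻¹ ^ bb a (l + 1)) ∧
      ∀ j, N (F' - F) j (K l j * √δ * (ν ^ a) ^ j)

/-- The invariant at level l. -/
def ItD.Inv {X : Type*} [AddCommGroup X] (I : ItD X) (l : ℕ) (ν δ : ℝ) (F : X) : Prop :=
  I.Q l ν ∧ 2 ≤ ν ∧ ν⁻¹ ^ bb I.a (l + 1) ≤ δ ∧ δ ≤ ν⁻¹ ^ bb I.a l ∧ I.S F ∧
    (∀ j ≤ I.J l, I.N F j (ν ^ (j + 1))) ∧ I.Df F δ ∧
    ∀ j ≤ 2, I.N (F - I.F0) j (I.ρ - 2 * ν⁻¹)

section Mfd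

variable {M : Type*} [TopologicalSpace M] [ChartedSpace E2 M]

/-- A finite atlas in which γ0 is almost Euclidean. -/
structure Atl (γ0 : M → Bil) where
  n : ℕ
  φ : Fin n → Chart M
  c : Fin n → ℝ
  ch : ∀ i, IsCh (φ i)
  tgt : ∀ i, closedBall (0 : E2) 4 ⊆ (φ i).target
  cov : ∀ p, ∃ i, p ∈ (φ i).source ∧ ‖φ i p‖ < 1
  cpos : ∀ i, 0 < c i
  near : ∀ i, ∀ z ∈ closedBall (0 : E2) 4, ∀ v,
    |trep (φ i) γ0 z v v - c i * ‖v‖ ^ 2| ≤ c i * ‖v‖ ^ 2 / 100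

variable {γ0 : M → Bil}

def Atl.Nrm {V : Type} [NormedAddCommGroup V] [NormedSpace ℝ V] (T : Atl γ0) (u : M → V)
    (j : ℕ) (B : ℝ) : Prop :=
  ∀ i, ∀ z ∈ closedBall (0 : E2) 4, ‖iteratedFDeriv ℝ j (u ∘ (T.φ i).symm) z‖ ≤ B

def Atl.NrmT (T : Atl γ0) (S : M → Bil) (j : ℕ) (B : ℝ) : Prop :=
  ∀ i, ∀ z ∈ closedBall (0 : E2) 4, ‖iteratedFDeriv ℝ j (trep (T.φ i) S) z‖ ≤ B

/-- The deficit is δ γ up to one percent. -/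
def Dfc (γ0 γ : M → Bil) (F : M → E4) (δ : ℝ) : Prop :=
  ∀ p v, |γ p v v - pull F p v v - δ * γ p v v| ≤ δ * γ0 p v v / 100

/-- The quadratic form added by one sub-step. -/
def tq (φ : Chart M) (r : ℝ) (D : Finset E2) (R : E2 → (E2 ≃ₗᵢ[ℝ] E2)) (β : E2 → E2 → ℝ)
    (p : M) (v : E2) : ℝ :=
  push φ (fun z => ∑ d ∈ D, wt (r⁻¹ • (z - d)) ^ 2 * β d z * ⟪R d ex, dM φ p v⟫ ^ 2) p

/-- The coefficient of the primitive metric number (t, k) in the chart φ. -/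
def bet (Z : Dirs) (φ : Chart M) (ψ : M → ℝ) (H : M → Bil) (t k : Fin 3) (z : E2) : ℝ :=
  ψ (φ.symm z) * Z.A t k (trep φ H z)

/-- Geometric data fixed during the iteration. -/
structure Ctx (T : Atl γ0) (Z : Dirs) (m0 : ℕ) (mψ : ℕ → ℕ) (Λ : ℝ) (F0 : M → E4) where
  r : ℝ
  D : Finset E2
  col : E2 → ZMod 3 × ZMod 3
  ψ : M → ℝ
  t : Fin T.n → E2 → Fin 3
  rlo : Λ⁻¹ ^ m0 ≤ r
  rhi : r ≤ 1 / 2
  card : (D.card : ℝ) ≤ Λ ^ m0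
  cen : ∀ d ∈ D, ‖d‖ ≤ 2
  sep : ∀ d ∈ D, ∀ d' ∈ D, d ≠ d' → col d = col d' → 2 * r < dist d d'
  sψ : Sm ψ
  nψ : ∀ j, T.Nrm ψ j (Λ ^ mψ j)
  rψ : ∀ p, Λ⁻¹ ^ m0 ≤ ψ p ∧ ψ p ≤ Λ ^ m0
  one : ∀ p, ψ p * ∑ i, push (T.φ i) (Wt r D) p = 1
  adm : ∀ F, Sm F → (∀ j ≤ 2, T.Nrm (F - F0) j (Λ⁻¹ ^ m0)) →
    (∀ j ≤ 2, T.Nrm F j (Λ ^ m0)) ∧ ∀ i, ∀ d ∈ D, ∀ k, ∀ z ∈ ball d r,
      IndQ (Λ⁻¹ ^ m0) (fderiv ℝ (F ∘ (T.φ i).symm) z)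
        (D2 (F ∘ (T.φ i).symm) z (Z.R (t i d) k ey))

end Mfd

theorem pow_ge (C : ℝ) : ∃ e : ℕ, ∀ Λ : ℝ, 2 ≤ Λ → C ≤ Λ ^ e := by
  obtain ⟨e, he⟩ := pow_unbounded_of_one_lt C (by norm_num : (1 : ℝ) < 2)
  exact ⟨e, fun Λ h => he.le.trans (pow_le_pow_left₀ (by norm_num) h e)⟩

theorem pow_ge' {c : ℝ} (hc : 0 < c) : ∃ e : ℕ, ∀ Λ : ℝ, 2 ≤ Λ → Λ⁻¹ ^ e ≤ c := by
  obtain ⟨e, he⟩ := pow_ge c⁻¹
  refine ⟨e, fun Λ h => ?_⟩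
  rw [inv_pow]
  exact inv_le_of_inv_le₀ hc (he Λ h)

theorem pow_mono {Λ : ℝ} (h : 2 ≤ Λ) {m n : ℕ} (hmn : m ≤ n) : Λ ^ m ≤ Λ ^ n :=
  pow_le_pow_right₀ (by linarith) hmn

theorem inv_pow_anti {Λ : ℝ} (h : 2 ≤ Λ) {m n : ℕ} (hmn : m ≤ n) : Λ⁻¹ ^ n ≤ Λ⁻¹ ^ m :=
  pow_le_pow_of_le_one (by positivity) (inv_le_one_of_one_le₀ (by linarith)) hmn

theorem wt_nonneg (z : E2) : 0 ≤ wt z := expNegInvGlue.nonneg _

theorem wt_le_one (z : E2) : wt z ≤ 1 := by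
  unfold wt expNegInvGlue
  split_ifs with h
  · norm_num
  · exact Real.exp_le_one_iff.2 (by have := not_le.1 h; simp only [Left.neg_nonpos_iff]; positivity)

theorem wt_eq_zero {z : E2} (h : 1 ≤ ‖z‖) : wt z = 0 :=
  expNegInvGlue.zero_of_nonpos (by nlinarith)

theorem contDiff_wt : ContDiff ℝ ∞ wt :=
  expNegInvGlue.contDiff.comp (contDiff_const.sub (contDiff_norm_sq ℝ))

end Vale.Agent.P205.PT
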