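import Vale.Agent.P205.PT.Defs

/-!
Pointwise derivative bounds: Leibniz rule, real powers, cutoff.
leib: pick an open s ∋ z with u, w of class C^j on s (cmp_open in Api/Cmp), pass to
iteratedFDerivWithin s (iteratedFDerivWithin_of_isOpen), use
ContinuousLinearMap.norm_iteratedFDerivWithin_le_of_bilinear and Nat.sum_range_choose.
rpow_bound: norm_iteratedFDerivWithin_comp_le with g x = x ^ s on Ioi 0 (shrink s so that u > 0),
the i-th derivative of g is (descPochhammer ℝ i).eval s * x ^ (s - i) (Real.iter_deriv_rpow_const or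
iteratedDerivWithin versions), bounded by c * L ^ (natCeil |s| + i) for L⁻¹ ≤ x ≤ L; D = L * ν.
cut_*: chi = 1 on closedBall 0 3, support chi = ball 0 4; outside closedBall 0 4 cut u vanishes near
the point (cmp_zero); inside use cmp_bil (Api/Cmp) with lsmul, or leib.
-/

open scoped Manifold ContDiff Topology RealInnerProductSpace
open Set Filter Metric Function

noncomputable section

namespace Vale.Agent.P205.PT

variable {V : Type} [NormedAddCommGroup V] [NormedSpace ℝ V]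

theorem leib_pow {L x t : ℝ} {N : ℕ} (hL : 1 ≤ L) (h1 : L⁻¹ ≤ x) (h2 : x ≤ L)
    (ht : |t| ≤ N) : x ^ t ≤ L ^ N := by
  have hL0 : 0 < L := by linarith
  have hx : 0 < x := (inv_pos.2 hL0).trans_le h1
  rw [← Real.rpow_natCast]
  rcases le_total 0 t with h | h
  · exact (Real.rpow_le_rpow hx.le h2 h).trans
      (Real.rpow_le_rpow_of_exponent_le hL ((le_abs_self t).trans ht))
  · refine (Real.rpow_le_rpow_of_nonpos (inv_pos.2 hL0) h1 h).trans ?_
    rw [Real.inv_rpow hL0.le, ← Real.rpow_neg hL0.le]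
    exact Real.rpow_le_rpow_of_exponent_le hL ((neg_le_abs t).trans ht)

theorem leib_out (u : E2 → V) {z : E2} (hz : z ∉ closedBall (0 : E2) 4) : cut u =ᶠ[𝓝 z] 0 := by
  filter_upwards [isClosed_closedBall.isOpen_compl.mem_nhds hz] with y hy
  have h : chi y = 0 := chi.zero_of_le_dist (by
    have h1 : (4 : ℝ) < dist y 0 := not_le.1 fun h => hy (mem_closedBall.2 h)
    exact h1.le)
  simp [cut, h]

theorem leib {V₂ V₃ : Type} [NormedAddCommGroup V₂] [NormedSpace ℝ V₂] [NormedAddCommGroup V₃]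
    [NormedSpace ℝ V₃] (L : V →L[ℝ] V₂ →L[ℝ] V₃) {u : E2 → V} {w : E2 → V₂} {z : E2}
    {Bu Bw ν : ℝ} {j : ℕ} (hu : ContDiffAt ℝ ∞ u z) (hw : ContDiffAt ℝ ∞ w z)
    (h1 : ∀ i ≤ j, ‖iteratedFDeriv ℝ i u z‖ ≤ Bu * ν ^ i)
    (h2 : ∀ i ≤ j, ‖iteratedFDeriv ℝ i w z‖ ≤ Bw * ν ^ i) :
    ‖iteratedFDeriv ℝ j (fun x => L (u x) (w x)) z‖ ≤ ‖L‖ * 2 ^ j * Bu * Bw * ν ^ j := by
  obtain ⟨t, ht, hzt, hwt⟩ := cmp_open hw j
  obtain ⟨s₀, hs₀, hzs₀, hus⟩ := cmp_open hu j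
  have hs : IsOpen (s₀ ∩ t) := hs₀.inter ht
  have hzs : z ∈ s₀ ∩ t := ⟨hzs₀, hzt⟩
  have h := L.norm_iteratedFDerivWithin_le_of_bilinear (hus.mono inter_subset_left)
    (hwt.mono inter_subset_right) hs.uniqueDiffOn hzs (n := j) le_rfl
  rw [iteratedFDerivWithin_of_isOpen j hs hzs] at h
  refine h.trans ?_
  have h3 : ∑ i ∈ Finset.range (j + 1), (j.choose i : ℝ) *
      ‖iteratedFDerivWithin ℝ i u (s₀ ∩ t) z‖ * ‖iteratedFDerivWithin ℝ (j - i) w (s₀ ∩ t) z‖ ≤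
      ∑ i ∈ Finset.range (j + 1), (j.choose i : ℝ) * (Bu * Bw * ν ^ j) := by
    refine Finset.sum_le_sum fun i hi => ?_
    have hi' : i ≤ j := Nat.lt_succ_iff.1 (Finset.mem_range.1 hi)
    rw [iteratedFDerivWithin_of_isOpen i hs hzs, iteratedFDerivWithin_of_isOpen (j - i) hs hzs,
      mul_assoc]
    refine mul_le_mul_of_nonneg_left ?_ (Nat.cast_nonneg _)
    have h4 := mul_le_mul (h1 i hi') (h2 (j - i) (Nat.sub_le j i)) (norm_nonneg _)
      ((norm_nonneg _).trans (h1 i hi'))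
    refine h4.trans_eq ?_
    have h5 : ν ^ j = ν ^ i * ν ^ (j - i) := by rw [← pow_add, Nat.add_sub_cancel' hi']
    rw [h5]
    ring
  have h6 : ∑ i ∈ Finset.range (j + 1), (j.choose i : ℝ) = 2 ^ j := by
    exact_mod_cast Nat.sum_range_choose j
  rw [← Finset.sum_mul, h6] at h3
  calc _ ≤ ‖L‖ * (2 ^ j * (Bu * Bw * ν ^ j)) := mul_le_mul_of_nonneg_left h3 L.opNorm_nonneg
    _ = _ := by ring

theorem rpow_bound (s : ℝ) (j : ℕ) : ∃ m : ℕ, ∀ (u : E2 → ℝ) (z : E2) (L ν : ℝ), 2 ≤ L → 1 ≤ ν →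
    ContDiffAt ℝ ∞ u z → L⁻¹ ≤ u z → (∀ i ≤ j, ‖iteratedFDeriv ℝ i u z‖ ≤ L * ν ^ i) →
    ‖iteratedFDeriv ℝ j (fun x => u x ^ s) z‖ ≤ L ^ m * ν ^ j := by
  obtain ⟨c, hc⟩ : ∃ c : ℝ, ∀ i ≤ j, |(descPochhammer ℝ i).eval s| ≤ c :=
    ⟨∑ i ∈ Finset.range (j + 1), |(descPochhammer ℝ i).eval s|, fun i hi =>
      Finset.single_le_sum (f := fun i => |(descPochhammer ℝ i).eval s|) (fun i _ => abs_nonneg _)
        (Finset.mem_range.2 (Nat.lt_succ_of_le hi))⟩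
  have hc0 : 0 ≤ c := (abs_nonneg _).trans (hc 0 (Nat.zero_le j))
  obtain ⟨e, he⟩ := pow_ge (j.factorial * c)
  refine ⟨e + (⌈|s|⌉₊ + j) + j, fun u z L ν hL hν hu hlo hb => ?_⟩
  have hL0 : 0 < L := by linarith
  have hz0 : 0 < u z := (inv_pos.2 hL0).trans_le hlo
  have hhi : u z ≤ L := by
    have h0 := hb 0 (Nat.zero_le j)
    rw [norm_iteratedFDeriv_zero, pow_zero, mul_one, Real.norm_eq_abs] at h0
    exact (le_abs_self _).trans h0
  obtain ⟨s₀, hs₀, hzs₀, hus⟩ := cmp_open hu j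
  have hs : IsOpen (s₀ ∩ u ⁻¹' Ioi 0) := hus.continuousOn.isOpen_inter_preimage hs₀ isOpen_Ioi
  have hzs : z ∈ s₀ ∩ u ⁻¹' Ioi 0 := ⟨hzs₀, hz0⟩
  have hg : ContDiffOn ℝ j (fun x : ℝ => x ^ s) (Ioi 0) := fun x hx =>
    (Real.contDiffAt_rpow_const_of_ne (ne_of_gt hx)).contDiffWithinAt
  have h := norm_iteratedFDerivWithin_comp_le (n := j) hg (hus.mono inter_subset_left) le_rfl
    isOpen_Ioi.uniqueDiffOn hs.uniqueDiffOn (fun x hx => hx.2) hzs
    (C := c * L ^ (⌈|s|⌉₊ + j)) (D := L * ν)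
    (fun i hi => by
      rw [iteratedFDerivWithin_of_isOpen i isOpen_Ioi hz0, norm_iteratedFDeriv_eq_norm_iteratedDeriv,
        iteratedDeriv_eq_iterate, Real.iter_deriv_rpow_const, norm_mul, Real.norm_eq_abs,
        Real.norm_eq_abs, abs_of_pos (Real.rpow_pos_of_pos hz0 _)]
      refine mul_le_mul (hc i hi) (leib_pow (by linarith) hlo hhi ?_)
        (Real.rpow_pos_of_pos hz0 _).le hc0
      have h1 : (i : ℝ) ≤ j := by exact_mod_cast hi
      have h2 := Nat.le_ceil |s|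
      have h3 : |s - i| ≤ |s| + |(i : ℝ)| := abs_sub s i
      rw [Nat.abs_cast] at h3
      push_cast
      linarith)
    (fun i hi1 hi => by
      rw [iteratedFDerivWithin_of_isOpen i hs hzs, mul_pow]
      exact (hb i hi).trans (mul_le_mul_of_nonneg_right
        (le_self_pow₀ (by linarith) (by omega)) (by positivity)))
  rw [iteratedFDerivWithin_of_isOpen j hs hzs] at h
  refine le_trans h ?_
  have h7 := he L hL
  calc (j.factorial : ℝ) * (c * L ^ (⌈|s|⌉₊ + j)) * (L * ν) ^ j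
      = (j.factorial * c) * (L ^ (⌈|s|⌉₊ + j) * L ^ j * ν ^ j) := by rw [mul_pow]; ring
    _ ≤ L ^ e * (L ^ (⌈|s|⌉₊ + j) * L ^ j * ν ^ j) :=
      mul_le_mul_of_nonneg_right h7 (by positivity)
    _ = _ := by ring

theorem cut_smooth {u : E2 → V} (hu : ∀ z ∈ closedBall (0 : E2) 4, ContDiffAt ℝ ∞ u z) :
    ContDiff ℝ ∞ (cut u) := by
  refine contDiff_iff_contDiffAt.2 fun z => ?_
  by_cases hz : z ∈ closedBall (0 : E2) 4
  · exact chi.contDiff.contDiffAt.smul (hu z hz)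
  · exact contDiffAt_const.congr_of_eventuallyEq (leib_out u hz)

theorem cut_eq (u : E2 → V) {z : E2} (hz : z ∈ ball (0 : E2) 3) : cut u =ᶠ[𝓝 z] u := by
  filter_upwards [isOpen_ball.mem_nhds hz] with y hy
  have h : chi y = 1 := chi.one_of_mem_closedBall (ball_subset_closedBall hy)
  simp [cut, h]

theorem cut_bound (j : ℕ) : ∃ C : ℝ, 1 ≤ C ∧ ∀ (u : E2 → V) (B ν : ℝ), 1 ≤ ν →
    (∀ z ∈ closedBall (0 : E2) 4, ContDiffAt ℝ ∞ u z) →
    (∀ i ≤ j, ∀ z ∈ closedBall (0 : E2) 4, ‖iteratedFDeriv ℝ i u z‖ ≤ B * ν ^ i) →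
    ∀ i ≤ j, ∀ z, ‖iteratedFDeriv ℝ i (cut u) z‖ ≤ C * B * ν ^ i := by
  obtain ⟨C, hC, h⟩ := cmp_bil (G := V) (H := V) (ContinuousLinearMap.lsmul ℝ ℝ) (P := chi)
    (isCompact_closedBall (0 : E2) 4) (fun z _ => chi.contDiff.contDiffAt) j
  refine ⟨C + 1, by linarith, fun u B ν hν hu hb i hi z => ?_⟩
  have hB : 0 ≤ B := cmp_nonneg fun i hi => hb i hi 0 (mem_closedBall_self (by norm_num))
  have h0 : 0 ≤ B * ν ^ i := by positivity
  by_cases hz : z ∈ closedBall (0 : E2) 4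
  · have h1 := h u B ν hν z hz (hu z hz) (fun i hi => hb i hi z hz) i hi
    refine le_trans h1 ?_
    nlinarith
  · rw [((leib_out u hz).iteratedFDeriv ℝ i).eq_of_nhds]
    have h2 : iteratedFDeriv ℝ i (0 : E2 → V) z = 0 := by
      have h3 := congrFun (iteratedFDeriv_fun_zero (𝕜 := ℝ) (E := E2) (F := V) (n := i)) z
      exact h3
    rw [h2, norm_zero]
    positivity

end Vale.Agent.P205.PT
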