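import Vale.Agent.P205.PT.Unif
import Vale.Agent.P205.PT.Aff
import Vale.Agent.P205.PT.Leib

/-!
The step on a small rotated disc. L = r • R (as a continuous linear map, ‖L ξ‖ = r ‖ξ‖),
L' = r⁻¹ • R.symm. Apply unif (with 3 m0 in place of m0) to F x = f (d + L x), s0 = √δ,
a x = r * (δ⁻¹ * b (d + L x)) ^ (1/2 : ℝ). Bounds: aff_bound (‖L‖ ≤ 1), rpow_bound with
Λ ^ (1 + m0 + sup of mm0 i, i ≤ j) as its L; a ≥ Λ⁻¹ ^ (2 m0); IndQ: aff_fderiv, aff_D2, D2_smul,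
indQ_aff. U z = Uh (-(L' d) + L' z), ‖L'‖ ≤ Λ ^ m0. Since f z = F (-(L' d) + L' z), aff_fderiv gives
fderiv (f + U) z v = fderiv (F + Uh) x (L' v), x = L' (z - d), ‖x‖ = ‖r⁻¹ • (z - d)‖ (so the same
wt), (L' v) 0 = r⁻¹ ⟪R ex, v⟫, (√δ wt a)² r⁻² = wt² b.
-/

open scoped Manifold ContDiff Topology RealInnerProductSpace
open Set Filter Metric Function

noncomputable section

namespace Vale.Agent.P205.PT

theorem disc : ∃ k : ℕ, ∀ (n m0 : ℕ) (mm0 : ℕ → ℕ), ∃ (mm : ℕ → ℕ) (m1 : ℕ),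
    ∀ (Λ μ δ r : ℝ) (d : E2) (R : E2 ≃ₗᵢ[ℝ] E2) (f : E2 → E4) (b : E2 → ℝ),
    2 ≤ Λ → 1 ≤ μ → 0 < δ → δ ≤ 1 → Λ⁻¹ ^ m0 ≤ r → r ≤ 1 → ContDiff ℝ ∞ f → ContDiff ℝ ∞ b →
    (∀ j z, ‖iteratedFDeriv ℝ (j + 1) f z‖ ≤ Λ ^ mm0 j * μ ^ j ∧
      ‖iteratedFDeriv ℝ (j + 2) f z‖ ≤ Λ ^ mm0 j * μ ^ j ∧
      ‖iteratedFDeriv ℝ j b z‖ ≤ Λ ^ mm0 j * δ * μ ^ j) →
    (∀ z, δ * Λ⁻¹ ^ m0 ≤ b z) →
    (∀ z ∈ ball d r, IndQ (Λ⁻¹ ^ m0) (fderiv ℝ f z) (D2 f z (R ey))) →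
    ∃ U : E2 → E4, ContDiff ℝ ∞ U ∧ support U ⊆ ball d r ∧
      (∀ j z, ‖iteratedFDeriv ℝ j U z‖ ≤ Λ ^ mm j * √δ * (μ ^ (k + 2)) ^ j) ∧
      ∀ z v, |‖fderiv ℝ (f + U) z v‖ ^ 2 - ‖fderiv ℝ f z v‖ ^ 2
        - wt (r⁻¹ • (z - d)) ^ 2 * b z * ⟪R ex, v⟫ ^ 2| ≤ Λ ^ m1 * μ⁻¹ ^ n * ‖v‖ ^ 2 := by
  obtain ⟨k, hk⟩ := unif
  refine ⟨k, fun n m0 mm0 => ?_⟩
  choose mr hmr using rpow_bound (1 / 2)
  obtain ⟨mm, m1, H⟩ := hk n (3 * m0)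
    fun j => mm0 j + (1 + m0 + (Finset.range (j + 1)).sup mm0) * mr j
  refine ⟨fun j => mm j + m0 * j, m1 + 2 * m0,
    fun Λ μ δ r d R f b hΛ hμ hδ hδ1 hr hr1 hf hb hB hlo hI => ?_⟩
  have hΛ0 : 0 < Λ := by linarith
  have ht0 : 0 < Λ⁻¹ ^ m0 := by positivity
  have hr0 : 0 < r := ht0.trans_le hr
  have ht1 : Λ⁻¹ ^ m0 ≤ 1 := hr.trans hr1
  obtain ⟨L, hL⟩ : ∃ L : E2 →L[ℝ] E2, ∀ x, L x = r • R x :=
    ⟨r • (R.toContinuousLinearEquiv : E2 →L[ℝ] E2), fun _ => rfl⟩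
  obtain ⟨L', hL'⟩ : ∃ L' : E2 →L[ℝ] E2, ∀ x, L' x = r⁻¹ • R.symm x :=
    ⟨r⁻¹ • (R.symm.toContinuousLinearEquiv : E2 →L[ℝ] E2), fun _ => rfl⟩
  have nL : ∀ x, ‖L x‖ = r * ‖x‖ := fun x => by
    rw [hL, norm_smul, R.norm_map, Real.norm_of_nonneg hr0.le]
  have nL' : ∀ x, ‖L' x‖ = r⁻¹ * ‖x‖ := fun x => by
    rw [hL', norm_smul, R.symm.norm_map, Real.norm_of_nonneg (inv_pos.2 hr0).le]
  have hri : r⁻¹ ≤ Λ ^ m0 := by
    rw [inv_pow] at hr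
    exact inv_le_of_inv_le₀ (by positivity) hr
  have oL : ‖L‖ ≤ 1 := L.opNorm_le_bound zero_le_one fun x => by
    rw [nL]
    gcongr
  have oL' : ‖L'‖ ≤ Λ ^ m0 := L'.opNorm_le_bound (by positivity) fun x => by
    rw [nL']
    gcongr
  have hLL : ∀ z, d + L (-(L' d) + L' z) = z := fun z => by
    rw [← map_neg, ← map_add, hL', hL, map_smul, R.apply_symm_apply, smul_inv_smul₀ hr0.ne']
    abel
  have haf : ∀ (T : E2 →L[ℝ] E2) (c : E2), ContDiff ℝ ∞ fun x => c + T x := fun T c =>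
    contDiff_const.add T.contDiff
  have bL : ∀ {V : Type} [NormedAddCommGroup V] [NormedSpace ℝ V] {u : E2 → V}, ContDiff ℝ ∞ u →
      ∀ j z, ‖iteratedFDeriv ℝ j (fun x => u (d + L x)) z‖ ≤ ‖iteratedFDeriv ℝ j u (d + L z)‖ :=
    fun hu j z => (aff_bound hu d L j z).trans
      (mul_le_of_le_one_left (norm_nonneg _) (pow_le_one₀ (norm_nonneg _) oL))
  have hF : ContDiff ℝ ∞ fun x => f (d + L x) := hf.comp (haf L d)
  have hb' : ContDiff ℝ ∞ fun y => δ⁻¹ • b y := hb.const_smul _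
  have hu : ContDiff ℝ ∞ fun x => δ⁻¹ • b (d + L x) := hb'.comp (haf L d)
  have ulo : ∀ y, Λ⁻¹ ^ m0 ≤ δ⁻¹ • b y := fun y => by
    rw [smul_eq_mul, le_inv_mul_iff₀ hδ]
    exact hlo y
  have hw : ContDiff ℝ ∞ fun x => (δ⁻¹ • b (d + L x)) ^ (1 / 2 : ℝ) :=
    hu.rpow_const_of_ne fun x => (ht0.trans_le (ulo _)).ne'
  have ub : ∀ i z, ‖iteratedFDeriv ℝ i (fun x => δ⁻¹ • b (d + L x)) z‖ ≤ Λ ^ mm0 i * μ ^ i := by
    intro i z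
    refine (bL hb' i z).trans ?_
    rw [iteratedFDeriv_const_smul_apply' (hb.contDiffAt.of_le (by exact_mod_cast le_top)),
      norm_smul, Real.norm_of_nonneg (inv_pos.2 hδ).le, inv_mul_le_iff₀ hδ]
    exact (hB i _).2.2.trans (le_of_eq (by ring))
  have hm : ∀ {i j : ℕ}, i ≤ j → ∀ l : ℕ, Λ ^ i * μ ^ l ≤ Λ ^ j * μ ^ l := fun h l =>
    mul_le_mul_of_nonneg_right (pow_mono hΛ h) (by positivity)
  obtain ⟨U, hU, hs, hUb, hE⟩ := H Λ μ √δ (fun x => f (d + L x))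
    (fun x => r • (δ⁻¹ • b (d + L x)) ^ (1 / 2 : ℝ)) hΛ hμ (Real.sqrt_pos.2 hδ)
    (Real.sqrt_le_one.2 hδ1) hF (hw.const_smul r)
    (fun j z _ => by
      refine ⟨(bL hf _ z).trans ((hB j _).1.trans (hm (Nat.le_add_right _ _) j)),
        (bL hf _ z).trans ((hB j _).2.1.trans (hm (Nat.le_add_right _ _) j)), ?_⟩
      rw [iteratedFDeriv_const_smul_apply' (hw.contDiffAt.of_le (by exact_mod_cast le_top)),
        norm_smul, Real.norm_of_nonneg hr0.le]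
      refine (mul_le_of_le_one_left (norm_nonneg _) hr1).trans
        ((hmr j _ z (Λ ^ (1 + m0 + (Finset.range (j + 1)).sup mm0)) μ ?_ hμ hu.contDiffAt ?_
          fun i hi => (ub i z).trans (hm ?_ i)).trans ?_)
      · exact hΛ.trans ((pow_one Λ).symm.trans_le (pow_mono hΛ (by omega)))
      · rw [← inv_pow]
        exact (inv_pow_anti hΛ (by omega)).trans (ulo _)
      · exact (Finset.le_sup (f := mm0) (Finset.mem_range.2 (by omega))).trans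
          (Nat.le_add_left _ _)
      · rw [← pow_mul]
        exact hm (Nat.le_add_left _ _) j)
    (fun z hz => by
      have e3 : Λ⁻¹ ^ (3 * m0) = Λ⁻¹ ^ m0 * (Λ⁻¹ ^ m0) ^ 2 := by ring
      constructor
      · have h1 : Λ⁻¹ ^ m0 ≤ (δ⁻¹ • b (d + L z)) ^ (1 / 2 : ℝ) := by
          rw [← Real.sqrt_eq_rpow]
          exact Real.le_sqrt_of_sq_le (le_trans (by nlinarith) (ulo _))
        rw [e3, smul_eq_mul]
        exact mul_le_mul hr (le_trans (by nlinarith) h1) (by positivity) hr0.le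
      · have h1 : d + L z ∈ ball d r := by
          rw [mem_ball_iff_norm, add_sub_cancel_left, nL]
          exact mul_lt_of_lt_one_right hr0 (mem_ball_zero_iff.1 hz)
        rw [aff_fderiv hf, aff_D2 hf, hL ey, D2_smul, e3]
        refine (indQ_aff ht0.le hr0 hr1 nL (hI _ h1)).mono ?_
        gcongr)
  have nx : ∀ z, ‖-(L' d) + L' z‖ = r⁻¹ * ‖z - d‖ := fun z => by
    rw [← map_neg, ← map_add, nL', neg_add_eq_sub]
  refine ⟨fun z => U (-(L' d) + L' z), hU.comp (haf L' _), fun z hz => ?_, fun j z => ?_,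
    fun z v => ?_⟩
  · have h1 := mem_ball_zero_iff.1 (hs hz)
    rw [nx, inv_mul_lt_iff₀ hr0, mul_one] at h1
    exact mem_ball_iff_norm.2 h1
  · refine (aff_bound hU _ L' j z).trans ((mul_le_mul (pow_le_pow_left₀ (norm_nonneg _) oL' j)
      (hUb j _) (norm_nonneg _) (by positivity)).trans (le_of_eq ?_))
    ring
  · have e1 := aff_fderiv hF (-(L' d)) L' z
    have e2 := aff_fderiv (hF.add hU) (-(L' d)) L' z
    simp only [hLL] at e1 e2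
    have e3 : wt (-(L' d) + L' z) = wt (r⁻¹ • (z - d)) := by
      rw [wt, wt, nx, norm_smul, Real.norm_of_nonneg (inv_pos.2 hr0).le]
    have e4 : L' v 0 = r⁻¹ * ⟪R ex, v⟫ := by
      rw [hL', R.inner_map_eq_flip]
      simp [ex, EuclideanSpace.inner_single_left]
    have e5 : ((δ⁻¹ • b z) ^ (1 / 2 : ℝ)) ^ 2 = δ⁻¹ * b z := by
      rw [← Real.sqrt_eq_rpow]
      exact Real.sq_sqrt (ht0.le.trans (ulo z))
    have h1 := hE (-(L' d) + L' z) (L' v)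
    simp only [hLL, e3, e4, smul_eq_mul r, mul_pow, e5, Real.sq_sqrt hδ.le] at h1
    have e6 : δ * wt (r⁻¹ • (z - d)) ^ 2 * (r ^ 2 * (δ⁻¹ * b z)) * (r⁻¹ ^ 2 * ⟪R ex, v⟫ ^ 2) =
        wt (r⁻¹ • (z - d)) ^ 2 * b z * ⟪R ex, v⟫ ^ 2 := by
      field_simp
    rw [e6, nL'] at h1
    have e7 : fderiv ℝ f z v = _ := DFunLike.congr_fun e1 v
    have e8 : fderiv ℝ (f + fun z => U (-(L' d) + L' z)) z v = _ := DFunLike.congr_fun e2 v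
    rw [e7, e8]
    refine h1.trans ?_
    calc Λ ^ m1 * μ⁻¹ ^ n * (r⁻¹ * ‖v‖) ^ 2 ≤ Λ ^ m1 * μ⁻¹ ^ n * (Λ ^ m0 * ‖v‖) ^ 2 := by gcongr
      _ = _ := by ring

end Vale.Agent.P205.PT
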