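import Vale.Agent.P205.PT.Defs

/-!
One stage keeps the invariant. ν' = ν^a ≥ ν² ≥ 2ν. √δ ≤ ν⁻¹^(a(l+2)+2) (Real.sqrt_le_sqrt,
sqrt_sq; bb a l = 2 (a (l+2) + 2)). For j ≤ l+2: K √δ ν'^j ≤ ν ν⁻¹^2 = ν⁻¹. For j ≤ J l:
F' = F + (F' - F), ν^(j+1) + ν⁻¹ ν'^j ≤ ν'^(j+1). F' - F0 = (F' - F) + (F - F0),
ρ - 2ν⁻¹ + ν⁻¹ ≤ ρ - 2ν'⁻¹. bb is monotone in l, ν'⁻¹ ≤ 1.
-/

open scoped Manifold ContDiff Topology RealInnerProductSpace
open Set Filter Metric Function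

noncomputable section

namespace Vale.Agent.P205.PT

variable {X : Type*} [AddCommGroup X]

theorem ItD.next (I : ItD X) {l : ℕ} {ν δ : ℝ} {F : X} (h : I.Inv l ν δ F) :
    ∃ F', I.Inv l (ν ^ I.a) ((ν ^ I.a)⁻¹ ^ bb I.a (l + 1)) F' ∧
      (∀ j ≤ l + 2, I.N (F' - F) j ν⁻¹) ∧ ∀ j, I.N (F' - F) j (I.K l j * (ν ^ I.a) ^ j) := by
  obtain ⟨hQ, hν, h1, h2, hS, hN, hD, hρ⟩ := h
  have hν0 : 0 < ν := by linarith
  have hi : 0 < ν⁻¹ := inv_pos.2 hν0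
  obtain ⟨F', hS', hD', k⟩ := I.stage l ν δ F hQ hν h1 h2 hS hN hD fun j hj =>
    I.mono _ _ _ _ (hρ j hj) (by linarith)
  have hs : √δ ≤ ν⁻¹ ^ (I.a * (l + 2) + 2) := Real.sqrt_le_iff.2 ⟨by positivity, by
    rw [← pow_mul, show (I.a * (l + 2) + 2) * 2 = bb I.a l by unfold bb; ring]
    exact h2⟩
  have hs1 : √δ ≤ 1 :=
    hs.trans (pow_le_one₀ hi.le (inv_le_one_of_one_le₀ (by linarith)))
  have hs0 := Real.sqrt_nonneg δ
  have h2ν : 2 * ν ≤ ν ^ I.a := le_trans (by nlinarith) (pow_mono hν I.ha)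
  have hp : 0 < ν ^ I.a := pow_pos hν0 _
  have hd := I.sub F' F hS' hS
  have k1 : ∀ j ≤ l + 2, I.N (F' - F) j ν⁻¹ := fun j hj => by
    refine I.mono _ _ _ _ (k j) ?_
    have a1 : (ν ^ I.a) ^ j ≤ ν ^ (I.a * (l + 2)) := by
      rw [← pow_mul]
      exact pow_mono hν (Nat.mul_le_mul_left _ hj)
    have a2 : I.K l j * √δ ≤ ν * ν⁻¹ ^ (I.a * (l + 2) + 2) :=
      mul_le_mul (I.kle l ν hQ j (by omega)) hs hs0 hν0.le
    refine (mul_le_mul a2 a1 (by positivity) (by positivity)).trans (le_of_eq ?_)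
    rw [inv_pow, pow_add]
    field_simp
  refine ⟨F', ⟨I.qmono l ν _ hQ (by linarith), by linarith, le_rfl,
    inv_pow_anti (by linarith) (by unfold bb; nlinarith), hS', fun j hj => ?_, hD',
    fun j hj => ?_⟩, k1, fun j => I.mono _ _ _ _ (k j) ?_⟩
  · have h3 := I.add F (F' - F) j _ _ hS hd (hN j hj) (k j)
    rw [add_sub_cancel] at h3
    refine I.mono _ _ _ _ h3 ?_
    generalize ν ^ I.a = ν' at h2ν hp
    have a1 : ν ^ j ≤ ν' ^ j := pow_le_pow_left₀ hν0.le (by linarith) _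
    have a2 : I.K l j * √δ ≤ ν * 1 := mul_le_mul (I.kle l ν hQ j (by omega)) hs1 hs0 hν0.le
    have a3 := mul_le_mul_of_nonneg_right a2 (pow_pos hp j).le
    have a4 := mul_le_mul_of_nonneg_right h2ν (pow_pos hp j).le
    have a5 := mul_le_mul_of_nonneg_left a1 hν0.le
    rw [pow_succ', pow_succ']
    linarith
  · have h3 := I.add (F' - F) (F - I.F0) j _ _ hd (I.sub F _ hS I.s0) (k1 j (by omega)) (hρ j hj)
    rw [sub_add_sub_cancel] at h3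
    refine I.mono _ _ _ _ h3 ?_
    have a1 : (ν ^ I.a)⁻¹ ≤ (2 * ν)⁻¹ := inv_anti₀ (by linarith) h2ν
    rw [mul_inv] at a1
    linarith
  · exact mul_le_mul_of_nonneg_right (mul_le_of_le_one_right (I.k0 l j) hs1) (by positivity)

end Vale.Agent.P205.PT
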