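import Vale.Agent.P205.PT.Iter1

/-!
Level switch. By induction on i there are G, ν' with 2^(i+1) ν ≤ ν',
Inv l ν' (ν'⁻¹ ^ bb a (l+1)) G, N (G - F) j (2ν⁻¹ - 2ν'⁻¹) for j ≤ l+2 and
N (G - F) j ((i+1) K l j ν'^j) for all j (use next; ν'^a ≥ 2ν'). With B j from ex for F:
N G j (B j + (i+1) K ν'^j) and |B j| + (i+1) K l j ≤ 2^(i+1) ≤ ν' for large i, all j ≤ J (l+1);
Q (l+1) ν' for large i (qev, qmono). No sequence has to be built.
-/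

open scoped Manifold ContDiff Topology RealInnerProductSpace
open Set Filter Metric Function

noncomputable section

namespace Vale.Agent.P205.PT

variable {X : Type*} [AddCommGroup X]

theorem Iter2_pow (I : ItD X) {ν : ℝ} (h : 2 ≤ ν) :
    2 * ν ≤ ν ^ I.a ∧ 2 * (ν ^ I.a)⁻¹ ≤ ν⁻¹ := by
  have h1 : 2 * ν ≤ ν ^ I.a := by nlinarith [pow_mono h I.ha]
  refine ⟨h1, ?_⟩
  have h2 : (ν ^ I.a)⁻¹ ≤ (2 * ν)⁻¹ := inv_anti₀ (by linarith) h1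
  rw [mul_inv] at h2
  linarith

theorem Iter2_ind (I : ItD X) {l : ℕ} {ν δ : ℝ} {F : X} (h : I.Inv l ν δ F) (i : ℕ) :
    ∃ (G : X) (ν' : ℝ), 2 ^ (i + 1) * ν ≤ ν' ∧ I.Inv l ν' (ν'⁻¹ ^ bb I.a (l + 1)) G ∧
      (∀ j ≤ l + 2, I.N (G - F) j (2 * ν⁻¹ - 2 * ν'⁻¹)) ∧
      ∀ j, I.N (G - F) j ((i + 1 : ℕ) * I.K l j * ν' ^ j) := by
  induction i with
  | zero =>
    obtain ⟨G, h1, h2, h3⟩ := I.next h
    obtain ⟨h4, h5⟩ := Iter2_pow I h.2.1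
    exact ⟨G, _, by simpa using h4, h1, fun j hj => I.mono _ _ _ _ (h2 j hj) (by linarith),
      fun j => by simpa using h3 j⟩
  | succ i ih =>
    obtain ⟨G, ν', g1, g2, g3, g4⟩ := ih
    obtain ⟨G', h1, h2, h3⟩ := I.next g2
    obtain ⟨h4, h5⟩ := Iter2_pow I g2.2.1
    have h6 := I.sub _ _ h1.2.2.2.2.1 g2.2.2.2.2.1
    have h7 := I.sub _ _ g2.2.2.2.2.1 h.2.2.2.2.1
    have h8 := g2.2.1
    refine ⟨G', _, by rw [pow_succ]; linarith, h1, fun j hj => ?_, fun j => ?_⟩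
    · rw [← sub_add_sub_cancel G' G F]
      exact I.mono _ _ _ _ (I.add _ _ _ _ _ h6 h7 (h2 j hj) (g3 j hj)) (by linarith)
    · rw [← sub_add_sub_cancel G' G F]
      refine I.mono _ _ _ _ (I.add _ _ _ _ _ h6 h7 (h3 j) (g4 j)) ?_
      have h9 : ν' ^ j ≤ (ν' ^ I.a) ^ j := pow_le_pow_left₀ (by linarith) (by linarith) j
      have h10 := mul_le_mul_of_nonneg_left h9
        (mul_nonneg (Nat.cast_nonneg (i + 1)) (I.k0 l j))
      push_cast at h10 ⊢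
      linarith

theorem Iter2_ev {B K : ℝ} (hB : 0 ≤ B) (hK : 0 ≤ K) :
    ∀ᶠ i : ℕ in atTop, B + (i + 1 : ℕ) * K ≤ 2 ^ (i + 1) := by
  have h := ((tendsto_pow_const_div_const_pow_of_one_lt 1 (one_lt_two (α := ℝ))).comp
    (tendsto_add_atTop_nat 1)).eventually (gt_mem_nhds (show 0 < (B + K + 1)⁻¹ by positivity))
  refine h.mono fun i hi => ?_
  simp only [Function.comp, pow_one] at hi
  rw [div_lt_iff₀ (by positivity), inv_mul_eq_div, lt_div_iff₀ (by positivity)] at hi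
  have h1 : (1 : ℝ) ≤ (i + 1 : ℕ) := by exact_mod_cast Nat.le_add_left 1 i
  nlinarith

theorem ItD.switch (I : ItD X) {l : ℕ} {ν δ : ℝ} {F : X} (h : I.Inv l ν δ F) :
    ∃ (F' : X) (ν' : ℝ), 2 * ν ≤ ν' ∧ I.Inv (l + 1) ν' (ν'⁻¹ ^ bb I.a (l + 1)) F' ∧
      ∀ j ≤ l + 2, I.N (F' - F) j (2 * ν⁻¹) := by
  choose B hB using I.ex F h.2.2.2.2.1
  have h1 : ∀ᶠ i : ℕ in atTop, ∀ j ∈ Finset.range (I.J (l + 1) + 1),
      |B j| + (i + 1 : ℕ) * I.K l j ≤ 2 ^ (i + 1) :=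
    (Filter.eventually_all_finset _).2 fun j _ => Iter2_ev (abs_nonneg _) (I.k0 l j)
  have h2 := ((tendsto_pow_atTop_atTop_of_one_lt (one_lt_two (α := ℝ))).comp
    (tendsto_add_atTop_nat 1)).eventually (I.qev (l + 1))
  obtain ⟨i, h3, h4⟩ := (h1.and h2).exists
  obtain ⟨G, ν', g1, g2, g3, g4⟩ := Iter2_ind I h i
  have h5 := h.2.1
  have h6 : (2 : ℝ) ^ 1 ≤ 2 ^ (i + 1) := pow_le_pow_right₀ one_le_two (Nat.le_add_left 1 i)
  have h7 : (2 : ℝ) ^ (i + 1) ≤ ν' := by nlinarith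
  obtain ⟨-, g5, -, -, g6, -, g7, g8⟩ := g2
  refine ⟨G, ν', by nlinarith, ⟨I.qmono _ _ _ h4 h7, g5, inv_pow_anti g5 ?_, le_rfl, g6,
    fun j hj => ?_, g7, g8⟩, fun j hj => I.mono _ _ _ _ (g3 j hj) ?_⟩
  · unfold bb
    gcongr
    omega
  · rw [← add_sub_cancel F G]
    refine I.mono _ _ _ _ (I.add _ _ _ _ _ h.2.2.2.2.1 (I.sub _ _ g6 h.2.2.2.2.1) (hB j) (g4 j)) ?_
    have h8 := (h3 j (Finset.mem_range.2 (Nat.lt_succ_of_le hj))).trans h7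
    have h9 : 1 ≤ ν' ^ j := one_le_pow₀ (by linarith)
    have h10 := mul_le_mul_of_nonneg_right h8 (zero_le_one.trans h9)
    rw [pow_succ']
    nlinarith [le_abs_self (B j), abs_nonneg (B j)]
  · have : 0 < ν'⁻¹ := inv_pos.2 (by linarith)
    linarith

end Vale.Agent.P205.PT
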