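import Vale.Agent.P205.PT.Defs

/-!
Lattice of tiny discs. n = ⌈2 / r⌉, D = points r • (a, b), a b ∈ Finset.Icc (-n) n (integers), of norm
at most 2; col d = ((round (d 0 / r) : ℤ), (round (d 1 / r) : ℤ)) cast to ZMod 3. Different points
of the same colour have an integer coordinate differing by a nonzero multiple of 3, so the distance
is at least 3 r. Cover: a = round (z 0 / r), b = round (z 1 / r) (abs_sub_round), distance² ≤ r² / 2.
Also bounds for the sum of weights Wt: fun z => wt z ^ 2 is smooth with support in the closed unit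
ball, so every derivative is bounded (HasCompactSupport.exists_bound_iteratedFDeriv or continuity);
composition with z ↦ r⁻¹ • (z - d): iteratedFDeriv_comp_sub / ContinuousLinearMap.iteratedFDeriv_comp_right
or iteratedFDeriv_comp_const_smul. Lower bound: expNegInvGlue.monotone, 1 - ‖w‖² ≥ 7 / 16.
-/

open scoped Manifold ContDiff Topology RealInnerProductSpace
open Set Filter Metric Function

noncomputable section

namespace Vale.Agent.P205.PT

theorem exists_latt {r : ℝ} (h0 : 0 < r) (h1 : r ≤ 1 / 2) :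
    ∃ (D : Finset E2) (col : E2 → ZMod 3 × ZMod 3), (D.card : ℝ) ≤ 36 * r⁻¹ ^ 2 ∧
      (∀ d ∈ D, ‖d‖ ≤ 2) ∧
      (∀ d ∈ D, ∀ d' ∈ D, d ≠ d' → col d = col d' → 2 * r < dist d d') ∧
      ∀ z : E2, ‖z‖ < 1 → ∃ d ∈ D, ‖z - d‖ ≤ 3 / 4 * r := by
  classical
  set n : ℤ := ⌈2 / r⌉ with hn
  let pt : ℤ × ℤ → E2 := fun p => !₂[r * p.1, r * p.2]
  have hp0 : ∀ p, pt p 0 = r * p.1 := fun p => rfl
  have hp1 : ∀ p, pt p 1 = r * p.2 := fun p => rfl
  have hrd : ∀ a : ℤ, round (r * a / r) = a := fun a => by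
    rw [mul_div_cancel_left₀ _ h0.ne', round_intCast]
  have hn1 : 2 / r ≤ n := Int.le_ceil _
  have hn2 : (n : ℝ) < 2 / r + 1 := Int.ceil_lt_add_one _
  have hr2 : 2 ≤ r⁻¹ := by
    rw [le_inv_comm₀ (by norm_num) h0]; linarith
  have hn0 : 0 ≤ n := by
    have : (0 : ℝ) ≤ n := le_trans (by positivity) hn1
    exact_mod_cast this
  refine ⟨((Finset.Icc (-n) n ×ˢ Finset.Icc (-n) n).image pt).filter fun d => ‖d‖ ≤ 2,
    fun d => (((round (d 0 / r) : ℤ) : ZMod 3), ((round (d 1 / r) : ℤ) : ZMod 3)), ?_,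
    fun d hd => (Finset.mem_filter.1 hd).2, fun d hd d' hd' hne hc => ?_, fun z hz => ?_⟩
  · have e1 := (Finset.card_filter_le ((Finset.Icc (-n) n ×ˢ Finset.Icc (-n) n).image pt)
      fun d => ‖d‖ ≤ 2).trans Finset.card_image_le
    rw [Finset.card_product, Int.card_Icc] at e1
    have e2 : (((n + 1 - -n).toNat : ℕ) : ℝ) = 2 * n + 1 := by
      have : (((n + 1 - -n).toNat : ℕ) : ℤ) = 2 * n + 1 := by
        rw [Int.toNat_of_nonneg (by omega)]; ring
      exact_mod_cast this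
    refine le_trans (Nat.cast_le.2 e1) ?_
    rw [Nat.cast_mul, e2]
    have e3 : (2 * n + 1 : ℝ) ≤ 6 * r⁻¹ := by
      rw [div_eq_mul_inv] at hn2; linarith
    have e4 : (0 : ℝ) ≤ 2 * n + 1 := by
      have : (0 : ℝ) ≤ n := by exact_mod_cast hn0
      linarith
    nlinarith
  · obtain ⟨p, -, rfl⟩ := Finset.mem_image.1 (Finset.mem_filter.1 hd).1
    obtain ⟨q, -, rfl⟩ := Finset.mem_image.1 (Finset.mem_filter.1 hd').1
    simp only [hp0, hp1, hrd, Prod.mk.injEq, ZMod.intCast_eq_intCast_iff_dvd_sub] at hc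
    have key : ∀ a b : ℤ, a ≠ b → ((3 : ℕ) : ℤ) ∣ b - a → 2 * r < |r * a - r * b| := by
      intro a b hab hdv
      have e1 : (3 : ℤ) ≤ |a - b| := by
        obtain ⟨k, hk⟩ := hdv
        rcases le_total a b with h | h
        · rw [abs_of_nonpos (by omega)]; omega
        · rw [abs_of_nonneg (by omega)]; omega
      have e2 : (3 : ℝ) ≤ |(a : ℝ) - b| := by exact_mod_cast e1
      rw [← mul_sub, abs_mul, abs_of_pos h0]
      nlinarith
    rw [dist_eq_norm]
    by_cases h : p.1 = q.1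
    · have h' : p.2 ≠ q.2 := fun h2 => hne (congrArg pt (Prod.ext h h2))
      exact (key _ _ h' hc.2).trans_le (PiLp.norm_apply_le (pt p - pt q) 1)
    · exact (key _ _ h hc.1).trans_le (PiLp.norm_apply_le (pt p - pt q) 0)
  · have e0 : ∀ x : ℝ, (x - r * round (x / r)) ^ 2 ≤ r ^ 2 / 4 := fun x => by
      have e1 := abs_sub_round (x / r)
      have e2 : x - r * round (x / r) = r * (x / r - round (x / r)) := by field_simp
      have e3 : (x / r - round (x / r)) ^ 2 ≤ (1 / 2) ^ 2 := by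
        rw [← sq_abs]; exact pow_le_pow_left₀ (abs_nonneg _) e1 2
      rw [e2, mul_pow]
      nlinarith [sq_nonneg r]
    have e1 : ‖z - pt (round (z 0 / r), round (z 1 / r))‖ ≤ 3 / 4 * r := by
      refine (pow_le_pow_iff_left₀ (norm_nonneg _) (by positivity) two_ne_zero).1 ?_
      rw [EuclideanSpace.real_norm_sq_eq, Fin.sum_univ_two]
      simp only [PiLp.sub_apply, hp0, hp1]
      nlinarith [e0 (z 0), e0 (z 1), sq_nonneg r]
    have e2 : ‖pt (round (z 0 / r), round (z 1 / r))‖ ≤ 2 := by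
      have := norm_sub_norm_le (pt (round (z 0 / r), round (z 1 / r))) z
      rw [norm_sub_rev] at this
      linarith
    have e3 : ∀ a : ℤ, |r * a| ≤ 2 → a ∈ Finset.Icc (-n) n := fun a ha => by
      rw [abs_mul, abs_of_pos h0] at ha
      have e4 : |(a : ℝ)| ≤ n := le_trans (by rw [le_div_iff₀ h0]; linarith) hn1
      have e5 : |a| ≤ n := by exact_mod_cast e4
      exact Finset.mem_Icc.2 (abs_le.1 e5)
    refine ⟨_, Finset.mem_filter.2 ⟨Finset.mem_image.2 ⟨_, Finset.mem_product.2 ⟨e3 _ ?_, e3 _ ?_⟩,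
      rfl⟩, e2⟩, e1⟩
    · exact (PiLp.norm_apply_le (pt (round (z 0 / r), round (z 1 / r))) 0).trans e2
    · exact (PiLp.norm_apply_le (pt (round (z 0 / r), round (z 1 / r))) 1).trans e2

theorem contDiff_Wt (r : ℝ) (D : Finset E2) : ContDiff ℝ ∞ (Wt r D) := by
  unfold Wt
  exact ContDiff.sum fun d _ =>
    (contDiff_wt.comp ((contDiff_id.sub contDiff_const).const_smul r⁻¹)).pow 2

theorem Wt_nonneg (r : ℝ) (D : Finset E2) (z : E2) : 0 ≤ Wt r D z := by
  exact Finset.sum_nonneg fun d _ => sq_nonneg _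

theorem support_Wt {r : ℝ} (h0 : 0 < r) (h1 : r ≤ 1 / 2) {D : Finset E2} (h : ∀ d ∈ D, ‖d‖ ≤ 2) :
    support (Wt r D) ⊆ closedBall 0 3 := by
  intro z hz
  by_contra hne
  rw [mem_closedBall_zero_iff, not_le] at hne
  refine hz (Finset.sum_eq_zero fun d hd => ?_)
  rw [wt_eq_zero, zero_pow two_ne_zero]
  rw [norm_smul, norm_inv, Real.norm_of_nonneg h0.le, le_inv_mul_iff₀ h0]
  have := norm_sub_norm_le z d
  linarith [h d hd]

theorem Wt_bound (j : ℕ) : ∃ C : ℝ, 0 < C ∧ ∀ (r : ℝ) (D : Finset E2), 0 < r → ∀ z,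
    ‖iteratedFDeriv ℝ j (Wt r D) z‖ ≤ C * D.card * r⁻¹ ^ j := by
  have hs : ContDiff ℝ ∞ fun z => wt z ^ 2 := contDiff_wt.pow 2
  have hj : ContDiff ℝ j fun z => wt z ^ 2 := hs.of_le (by exact_mod_cast le_top)
  have hc : HasCompactSupport fun z => wt z ^ 2 :=
    HasCompactSupport.intro (isCompact_closedBall (0 : E2) 1) fun z hz => by
      rw [mem_closedBall_zero_iff, not_le] at hz
      rw [wt_eq_zero hz.le, zero_pow two_ne_zero]
  obtain ⟨C, hC⟩ := (hj.continuous_iteratedFDeriv le_rfl).bounded_above_of_compact_support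
    (hc.iteratedFDeriv j)
  refine ⟨|C| + 1, by positivity, fun r D h0 z => ?_⟩
  have e1 : ∀ d : E2, ContDiffAt ℝ j (fun z : E2 => wt (r⁻¹ • (z - d)) ^ 2) z := fun d =>
    (hj.comp ((contDiff_id.sub contDiff_const).const_smul r⁻¹)).contDiffAt
  have e2 : ∀ d : E2, ‖iteratedFDeriv ℝ j (fun z : E2 => wt (r⁻¹ • (z - d)) ^ 2) z‖ ≤
      (|C| + 1) * r⁻¹ ^ j := fun d => by
    rw [iteratedFDeriv_comp_sub (f := fun y : E2 => wt (r⁻¹ • y) ^ 2),
      iteratedFDeriv_comp_const_smul (f := fun y : E2 => wt y ^ 2) _ hj, norm_smul, mul_comm,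
      Real.norm_of_nonneg (by positivity)]
    gcongr
    exact (hC _).trans ((le_abs_self C).trans (by linarith))
  unfold Wt
  rw [iteratedFDeriv_fun_sum_apply fun d _ => e1 d]
  refine (norm_sum_le _ _).trans ((Finset.sum_le_sum fun d _ => e2 d).trans_eq ?_)
  rw [Finset.sum_const, nsmul_eq_mul]
  ring

theorem Wt_lower : ∃ c : ℝ, 0 < c ∧ ∀ (r : ℝ) (D : Finset E2) (z : E2), 0 < r →
    (∃ d ∈ D, ‖z - d‖ ≤ 3 / 4 * r) → c ≤ Wt r D z := by
  have hp := expNegInvGlue.pos_of_pos (by norm_num : (0 : ℝ) < 7 / 16)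
  refine ⟨expNegInvGlue (7 / 16) ^ 2, by positivity, fun r D z h0 ⟨d, hd, h⟩ => ?_⟩
  refine le_trans ?_ (Finset.single_le_sum (f := fun d => wt (r⁻¹ • (z - d)) ^ 2)
    (fun d _ => sq_nonneg _) hd)
  refine pow_le_pow_left₀ hp.le (expNegInvGlue.monotone ?_) 2
  have e1 : ‖r⁻¹ • (z - d)‖ ≤ 3 / 4 := by
    rw [norm_smul, norm_inv, Real.norm_of_nonneg h0.le, inv_mul_le_iff₀ h0]
    linarith
  nlinarith [norm_nonneg (r⁻¹ • (z - d))]

end Vale.Agent.P205.PT
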