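import Vale.Agent.P205.PT.Leib

/-!
Smooth limits in the plane. w i = cut (u (i+1) - u i) is smooth with ‖D^j (w i)‖ ≤ C_j Σ_{k≤j} |v k i|
(cut_bound with ν = 1), so s = Σ' w i is smooth (contDiff_tsum) and D^j s = Σ' D^j (w i)
(iteratedFDeriv_tsum_apply). On ball 0 3, u n = u 0 + Σ_{i<n} w i and g = u 0 + s (near the point,
cut_eq, uniqueness of limits), so D^j (u n) z = D^j (u 0) z + Σ_{i<n} D^j (w i) z converges
(HasSum.tendsto_sum_nat).
-/

open scoped Manifold ContDiff Topology RealInnerProductSpace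
open Set Filter Metric Function

noncomputable section

namespace Vale.Agent.P205.PT

variable {V : Type} [NormedAddCommGroup V] [NormedSpace ℝ V] [CompleteSpace V]

theorem limit1_tel {W : Type} [NormedAddCommGroup W] {a b : ℕ → W} (hb : Summable b)
    (h : ∀ i, b i = a (i + 1) - a i) : Tendsto a atTop (𝓝 (a 0 + ∑' i, b i)) := by
  refine (hb.hasSum.tendsto_sum_nat.const_add (a 0)).congr fun n => ?_
  simp only [h, Finset.sum_range_sub, add_sub_cancel]

theorem limit_plane {u : ℕ → E2 → V} {g : E2 → V}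
    (hu : ∀ i, ∀ z ∈ closedBall (0 : E2) 4, ContDiffAt ℝ ∞ (u i) z)
    (hv : ∀ j, ∃ v : ℕ → ℝ, Summable v ∧ ∀ i, ∀ z ∈ closedBall (0 : E2) 4,
      ‖iteratedFDeriv ℝ j (u (i + 1) - u i) z‖ ≤ v i)
    (hg : ∀ z ∈ ball (0 : E2) 3, Tendsto (fun i => u i z) atTop (𝓝 (g z))) :
    ∀ z ∈ ball (0 : E2) 3, ContDiffAt ℝ ∞ g z ∧ ∀ j,
      Tendsto (fun i => iteratedFDeriv ℝ j (u i) z) atTop (𝓝 (iteratedFDeriv ℝ j g z)) := by
  choose v hv1 hv2 using hv
  choose C hC1 hC using cut_bound (V := V)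
  have hd : ∀ i, ∀ z ∈ closedBall (0 : E2) 4, ContDiffAt ℝ ∞ (u (i + 1) - u i) z :=
    fun i z hz => (hu _ z hz).sub (hu _ z hz)
  have hw : ∀ i, ContDiff ℝ ((⊤ : ℕ∞) : WithTop ℕ∞) (cut (u (i + 1) - u i)) := fun i =>
    cut_smooth (hd i)
  have hs : ∀ k : ℕ, Summable fun i => C k * ∑ m ∈ Finset.range (k + 1), |v m i| := fun k =>
    (summable_sum fun m _ => (hv1 m).abs).mul_left _
  have hb : ∀ (k i : ℕ) (x : E2), ‖iteratedFDeriv ℝ k (cut (u (i + 1) - u i)) x‖ ≤
      C k * ∑ m ∈ Finset.range (k + 1), |v m i| := fun k i x => by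
    have := hC k _ (∑ m ∈ Finset.range (k + 1), |v m i|) 1 le_rfl (hd i) (fun m hm y hy => by
      rw [one_pow, mul_one]
      exact (hv2 m i y hy).trans (bd_sum (fun m => v m i) hm)) k le_rfl x
    rwa [one_pow, mul_one] at this
  have hsm := contDiff_tsum hw (fun k _ => hs k) fun k i x _ => hb k i x
  have hg' : ∀ y ∈ ball (0 : E2) 3, g y = u 0 y + ∑' i, cut (u (i + 1) - u i) y := fun y hy => by
    refine tendsto_nhds_unique (hg y hy) (limit1_tel (a := fun i => u i y) ?_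
      fun i => (cut_eq _ hy).eq_of_nhds)
    refine Summable.of_norm_bounded (hs 0) fun i => ?_
    simpa only [norm_iteratedFDeriv_zero] using hb 0 i y
  intro z hz
  have hz4 : z ∈ closedBall (0 : E2) 4 :=
    closedBall_subset_closedBall (by norm_num) (ball_subset_closedBall hz)
  have he : g =ᶠ[𝓝 z] u 0 + fun y => ∑' i, cut (u (i + 1) - u i) y := by
    filter_upwards [isOpen_ball.mem_nhds hz] with y hy using hg' y hy
  refine ⟨((hu 0 z hz4).add hsm.contDiffAt).congr_of_eventuallyEq he, fun j => ?_⟩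
  have hj : (j : WithTop ℕ∞) ≤ ∞ := by exact_mod_cast le_top
  rw [(he.iteratedFDeriv ℝ j).eq_of_nhds,
    iteratedFDeriv_add_apply ((hu 0 z hz4).of_le hj) (hsm.contDiffAt.of_le hj),
    iteratedFDeriv_tsum_apply hw (fun k _ => hs k) (fun k i x _ => hb k i x) le_top]
  refine limit1_tel (a := fun i => iteratedFDeriv ℝ j (u i) z)
    (Summable.of_norm_bounded (hs j) fun i => hb j i z) fun i => ?_
  rw [((cut_eq _ hz).iteratedFDeriv ℝ j).eq_of_nhds]
  exact iteratedFDeriv_sub_apply ((hu _ z hz4).of_le hj) ((hu _ z hz4).of_le hj)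

end Vale.Agent.P205.PT
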