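import Vale.Agent.P205.PT.Core

/-!
Part PT (perturbation theorem). Statement FROZEN. See notes/P205.md.
-/

open scoped Manifold ContDiff Topology RealInnerProductSpace
open Set Filter Metric Function

noncomputable section

namespace Vale.Agent.P205

variable {M : Type*} [TopologicalSpace M] [ChartedSpace E2 M] [IsManifold I2 ∞ M]
  [T2Space M] [CompactSpace M]

theorem perturb {γ0 : M → Bil} (h0 : IsMetric γ0) : ∃ n : ℕ, ∀ {ι : Type} (l : Filter ι)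
    (lam : ι → ℝ) (F : ι → M → E4) (γ : ι → M → Bil), Tendsto lam l atTop →
    (∀ᶠ i in l, Sm (F i) ∧ SmT (γ i) ∧ SymT (γ i)) → Bd l lam F → BdT l lam γ → UG1 l F →
    (∀ᶠ i in l, ∀ p v, |γ i p v v - γ0 p v v| ≤ γ0 p v v / 100) →
    (∀ᶠ i in l, ∀ p v, |pull (F i) p v v - γ i p v v| ≤ (lam i)⁻¹ ^ n * γ0 p v v) →
    ∃ F' : ι → M → E4, (∀ᶠ i in l, Sm (F' i) ∧ pull (F' i) = γ i) ∧ Close2 l F F' := by
  obtain ⟨T⟩ := PT.exists_atl h0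
  obtain ⟨P, J, hc⟩ := PT.core T
  refine ⟨P, fun {ι} l lam F γ hl hs hF hγ hU h1 h2 => ?_⟩
  have hK : IsCompact (closedBall (0 : E2) 4) := isCompact_closedBall _ _
  have up : ∀ (C : ℝ) (j : ℕ), ∀ᶠ i in l, C * lam i ^ j ≤ lam i ^ (j + 1) := fun C j => by
    filter_upwards [hl.eventually_ge_atTop C, hl.eventually_ge_atTop 0] with i a1 a2
    rw [pow_succ']
    exact mul_le_mul_of_nonneg_right a1 (by positivity)
  have n1 : ∀ᶠ i in l, ∀ j ∈ Finset.range (J + 1), ∀ c, ∀ z ∈ closedBall (0 : E2) 4,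
      ‖iteratedFDeriv ℝ j (F i ∘ (T.φ c).symm) z‖ ≤ lam i ^ (j + 1) :=
    (eventually_all_finset _).2 fun j _ => eventually_all.2 fun c => by
      obtain ⟨C, hC⟩ := hF _ (T.ch c) _ (T.tgt c) hK j
      filter_upwards [hC, up C j] with i a1 a2 z hz using (a1 z hz).trans a2
  have n2 : ∀ᶠ i in l, ∀ j ∈ Finset.range (J + 1), ∀ c, ∀ z ∈ closedBall (0 : E2) 4,
      ‖iteratedFDeriv ℝ j (trep (T.φ c) (γ i)) z‖ ≤ lam i ^ (j + 1) :=
    (eventually_all_finset _).2 fun j _ => eventually_all.2 fun c => by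
      obtain ⟨C, hC⟩ := hγ _ (T.ch c) _ (T.tgt c) hK j
      filter_upwards [hC, up C j] with i a1 a2 z hz using (a1 z hz).trans a2
  have n3 : ∀ᶠ i in l, ∀ c, ∀ z ∈ closedBall (0 : E2) 4, ∃ v : E2, ‖v‖ = 1 ∧
      IndQ (lam i)⁻¹ (fderiv ℝ (F i ∘ (T.φ c).symm) z) (D2 (F i ∘ (T.φ c).symm) z v) :=
    eventually_all.2 fun c => by
      obtain ⟨κ, hκ, hC⟩ := hU _ (T.ch c) _ (T.tgt c) hK
      filter_upwards [hC, (tendsto_inv_atTop_zero.comp hl).eventually_le_const hκ] with i a1 a2 z hz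
      obtain ⟨v, b1, b2⟩ := a1 z hz
      exact ⟨v, b1, b2.mono a2⟩
  have key : ∀ᶠ i in l, ∃ G : M → E4, Sm G ∧ pull G = γ i ∧ ∀ c, ∀ z ∈ ball (0 : E2) 3, ∀ j ≤ 2,
      ‖iteratedFDeriv ℝ j ((G - F i) ∘ (T.φ c).symm) z‖ ≤ (lam i)⁻¹ := by
    filter_upwards [hs, n1, n2, n3, h1, h2, hl.eventually_ge_atTop 2] with i a1 a2 a3 a4 a5 a6 a7
    exact hc (lam i) (F i) (γ i) a7 a1.1 a1.2.1 a1.2.2
      (fun j hj => ⟨a2 j (Finset.mem_range.2 (by omega)), a3 j (Finset.mem_range.2 (by omega))⟩)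
      a4 a5 a6
  obtain ⟨F', hF'⟩ : ∃ F' : ι → M → E4, ∀ᶠ i in l, Sm (F' i) ∧ pull (F' i) = γ i ∧ ∀ c,
      ∀ z ∈ ball (0 : E2) 3, ∀ j ≤ 2,
        ‖iteratedFDeriv ℝ j ((F' i - F i) ∘ (T.φ c).symm) z‖ ≤ (lam i)⁻¹ := by
    classical
    refine ⟨fun i => if h : (∃ G : M → E4, Sm G ∧ pull G = γ i ∧ ∀ c, ∀ z ∈ ball (0 : E2) 3,
      ∀ j ≤ 2, ‖iteratedFDeriv ℝ j ((G - F i) ∘ (T.φ c).symm) z‖ ≤ (lam i)⁻¹) then h.choose
      else F i, key.mono fun i h => ?_⟩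
    simp only [dif_pos h]
    exact h.choose_spec
  refine ⟨F', hF'.mono fun i h => ⟨h.1, h.2.1⟩, fun ψ hψ K hKt hKc ε hε => ?_⟩
  obtain ⟨C, hC0, hC⟩ := T.close hψ hKt hKc
  filter_upwards [hF', hs, hl.eventually_ge_atTop 0,
    (tendsto_inv_atTop_zero.comp hl).eventually_le_const (div_pos hε hC0)] with i a1 a2 a3 a4 z hz
    j hj
  refine (hC _ (PT.sm_sub a1.1 a2.1) _ (inv_nonneg.2 a3) a1.2.2 z hz j hj).trans ?_
  rw [mul_comm]
  exact (le_div_iff₀ hC0).1 a4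

end Vale.Agent.P205
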