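import Vale.Agent.P205.PT.One

/-!
Disjoint discs. Choose U d from one for d ∈ D, U = Σ d ∈ D, U d, mm j + m0 (iteratedFDeriv_sum_apply
or induction, card ≤ Λ^m0). At z at most one d ∈ D has z ∈ closedBall d r. For the others
fderiv (U d) z = 0 (U d vanishes near z) and wt (r⁻¹ • (z - d)) = 0 (wt_eq_zero). So the left side is
the left side of one for that d (Finset.sum_eq_single), or zero.
-/

open scoped Manifold ContDiff Topology RealInnerProductSpace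
open Set Filter Metric Function

noncomputable section

namespace Vale.Agent.P205.PT

theorem many : ∃ A : ℕ, 2 ≤ A ∧ ∀ B m0 : ℕ, ∃ (J m : ℕ) (mm : ℕ → ℕ),
    ∀ (Λ ν δ r : ℝ) (D : Finset E2) (R : E2 → (E2 ≃ₗᵢ[ℝ] E2)) (f : E2 → E4) (b : E2 → E2 → ℝ),
    2 ≤ Λ → Λ ^ m ≤ ν → ν⁻¹ ^ B ≤ δ → δ ≤ 1 → Λ⁻¹ ^ m0 ≤ r → r ≤ 1 →
    (D.card : ℝ) ≤ Λ ^ m0 → (∀ d ∈ D, ∀ d' ∈ D, d ≠ d' → 2 * r < dist d d') →
    ContDiff ℝ ∞ f → (∀ d ∈ D, ContDiff ℝ ∞ (b d)) →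
    (∀ j ≤ J, ∀ z, ‖iteratedFDeriv ℝ j f z‖ ≤ ν ^ (j + 3)) →
    (∀ j ≤ 2, ∀ z, ‖iteratedFDeriv ℝ j f z‖ ≤ Λ ^ m0) →
    (∀ d ∈ D, ∀ j ≤ J, ∀ z, ‖iteratedFDeriv ℝ j (b d) z‖ ≤ ν ^ (j + 7)) →
    (∀ d ∈ D, ∀ z, δ * Λ⁻¹ ^ m0 ≤ b d z ∧ b d z ≤ δ * Λ ^ m0) →
    (∀ d ∈ D, ∀ z ∈ ball d r, IndQ (Λ⁻¹ ^ m0) (fderiv ℝ f z) (D2 f z (R d ey))) →
    ∃ U : E2 → E4, ContDiff ℝ ∞ U ∧ (∀ z, U z ≠ 0 → ∃ d ∈ D, z ∈ ball d r) ∧
      (∀ j z, ‖iteratedFDeriv ℝ j U z‖ ≤ Λ ^ mm j * √δ * (ν ^ A) ^ j) ∧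
      ∀ z v, |‖fderiv ℝ (f + U) z v‖ ^ 2 - ‖fderiv ℝ f z v‖ ^ 2
        - ∑ d ∈ D, wt (r⁻¹ • (z - d)) ^ 2 * b d z * ⟪R d ex, v⟫ ^ 2| ≤ ν⁻¹ ^ B * ‖v‖ ^ 2 := by
  classical
  obtain ⟨A, hA, h1⟩ := one
  refine ⟨A, hA, fun B m0 => ?_⟩
  obtain ⟨J, m, mm, h2⟩ := h1 B m0
  refine ⟨J, m, fun j => mm j + m0, ?_⟩
  intro Λ ν δ r D R f b a1 a2 a3 a4 a5 a6 a7 a8 a9 a10 a11 a12 a13 a14 a15
  have hΛ : 0 < Λ := by linarith
  have hr : 0 < r := lt_of_lt_of_le (by positivity) a5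
  have hν : 0 < ν := lt_of_lt_of_le (by positivity) a2
  choose! U hU1 hU2 hU3 hU4 using fun d (hd : d ∈ D) => h2 Λ ν δ r d (R d) f (b d) a1 a2 a3 a4 a5
    a6 a9 (a10 d hd) a11 a12 (a13 d hd) (a14 d hd) (a15 d hd)
  have hdf : ∀ d ∈ D, ∀ z, DifferentiableAt ℝ (U d) z := fun d hd z =>
    (hU1 d hd).differentiable (by simp) z
  have hf : ∀ z, DifferentiableAt ℝ f z := fun z => a9.differentiable (by simp) z
  have hoff : ∀ d ∈ D, ∀ z, z ∉ closedBall d r →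
      fderiv ℝ (U d) z = 0 ∧ wt (r⁻¹ • (z - d)) = 0 := fun d hd z hz => by
    constructor
    · have e1 : U d =ᶠ[𝓝 z] fun _ => 0 := by
        filter_upwards [isClosed_closedBall.isOpen_compl.mem_nhds hz] with y hy
        by_contra hne
        exact hy (ball_subset_closedBall (hU2 d hd hne))
      rw [e1.fderiv_eq, fderiv_fun_const, Pi.zero_apply]
    · rw [mem_closedBall, dist_eq_norm, not_le] at hz
      refine wt_eq_zero ?_
      rw [norm_smul, norm_inv, Real.norm_of_nonneg hr.le, le_inv_mul_iff₀ hr]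
      linarith
  refine ⟨fun z => ∑ d ∈ D, U d z, ContDiff.sum hU1, fun z hz => ?_, fun j z => ?_, fun z v => ?_⟩
  · obtain ⟨d, hd, h⟩ := Finset.exists_ne_zero_of_sum_ne_zero hz
    exact ⟨d, hd, hU2 d hd h⟩
  · rw [iteratedFDeriv_fun_sum_apply fun d hd =>
      ((hU1 d hd).of_le (by exact_mod_cast le_top)).contDiffAt]
    refine (norm_sum_le _ _).trans ((Finset.sum_le_sum fun d hd => hU3 d hd j z).trans ?_)
    rw [Finset.sum_const, nsmul_eq_mul, pow_add]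
    calc (D.card : ℝ) * (Λ ^ mm j * √δ * (ν ^ A) ^ j)
        ≤ Λ ^ m0 * (Λ ^ mm j * √δ * (ν ^ A) ^ j) := by gcongr
      _ = _ := by ring
  · have e0 : fderiv ℝ (f + fun z => ∑ d ∈ D, U d z) z =
        fderiv ℝ f z + ∑ d ∈ D, fderiv ℝ (U d) z := by
      rw [fderiv_add (hf z) (DifferentiableAt.fun_sum fun d hd => hdf d hd z),
        fderiv_fun_sum fun d hd => hdf d hd z]
    rw [e0]
    by_cases hz : ∃ d ∈ D, z ∈ closedBall d r
    · obtain ⟨d, hd, hzd⟩ := hz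
      have e1 : ∀ d' ∈ D, d' ≠ d → z ∉ closedBall d' r := fun d' hd' hne h => by
        have := a8 d' hd' d hd hne
        have h3 := dist_triangle_left d' d z
        rw [mem_closedBall] at h hzd
        linarith
      rw [Finset.sum_eq_single_of_mem d hd fun d' hd' hne => (hoff d' hd' z (e1 d' hd' hne)).1,
        Finset.sum_eq_single_of_mem d hd fun d' hd' hne => by
          rw [(hoff d' hd' z (e1 d' hd' hne)).2]; ring, ← fderiv_add (hf z) (hdf d hd z)]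
      exact hU4 d hd z v
    · push Not at hz
      rw [Finset.sum_eq_zero fun d hd => (hoff d hd z (hz d hd)).1,
        Finset.sum_eq_zero fun d hd => by rw [(hoff d hd z (hz d hd)).2]; ring, add_zero, sub_self,
        sub_zero, abs_zero]
      positivity

end Vale.Agent.P205.PT
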