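import Vale.Agent.P205.PT.Defs

/-!
Composition of the sub-steps. n = card σ. Induction on a Finset s of σ (Finset.induction_on):
there is G with S G, N (G - F) j (card s * K j * √δ * (ν^(A^card s))^j) for all j, and
|E G y - E F y - Σ x ∈ s, q x y| ≤ card s * ν⁻¹^B * g y. Step: ν' = ν^(A^card s) ≥ ν;
N G j ≤ ν^(j+1) + ν ν'^j ≤ ν'^(j+2) (G = F + (G - F), √δ ≤ 1); for j ≤ 2
N (G - F) j ≤ ν * ν⁻¹^(2a+2) * ν^(2a) = ν⁻¹ as √δ ≤ ν⁻¹^(2a+2), A^card s ≤ a;
ν'^A = ν^(A^(card s + 1)). S is closed under sums: S 0 from F - F, x + y = x - (0 - y).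
-/

open scoped Manifold ContDiff Topology RealInnerProductSpace
open Set Filter Metric Function

noncomputable section

namespace Vale.Agent.P205.PT

theorem multi {X : Type*} [AddCommGroup X] (P : Abs X) {Y : Type*} {σ : Type} [Fintype σ]
    (E : X → Y → ℝ) (g : Y → ℝ) (q : σ → Y → ℝ) (K : ℕ → ℝ) {A a J B : ℕ} {ν δ : ℝ} {F : X}
    (hA : 1 ≤ A) (ha : A ^ Fintype.card σ ≤ a) (hν : 2 ≤ ν) (hδ : δ ≤ ν⁻¹ ^ (4 * a + 4))
    (hg : ∀ y, 0 ≤ g y) (hK0 : ∀ j, 0 ≤ K j) (hK : ∀ j ≤ J + 2, Fintype.card σ * K j ≤ ν)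
    (hF : P.S F) (hN : ∀ j ≤ J, P.N F j (ν ^ (j + 1)))
    (step : ∀ (s : σ) (ν' : ℝ) (G : X), ν ≤ ν' → P.S G → (∀ j ≤ J, P.N G j (ν' ^ (j + 2))) →
      (∀ j ≤ 2, P.N (G - F) j ν⁻¹) → ∃ G', P.S G' ∧
        (∀ j, P.N (G' - G) j (K j * √δ * (ν' ^ A) ^ j)) ∧
        ∀ y, |E G' y - E G y - q s y| ≤ ν'⁻¹ ^ B * g y) :
    ∃ F', P.S F' ∧ (∀ j, P.N (F' - F) j (Fintype.card σ * K j * √δ * (ν ^ a) ^ j)) ∧
      ∀ y, |E F' y - E F y - ∑ s, q s y| ≤ Fintype.card σ * ν⁻¹ ^ B * g y := by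
  classical
  have hν0 : 0 < ν := by linarith
  have hν1 : 1 ≤ ν := by linarith
  have hs : √δ ≤ ν⁻¹ ^ (2 * a + 2) := Real.sqrt_le_iff.2 ⟨by positivity, by
    rw [← pow_mul, show (2 * a + 2) * 2 = 4 * a + 4 by ring]
    exact hδ⟩
  have hs1 : √δ ≤ 1 := hs.trans (pow_le_one₀ (by positivity) (inv_le_one_of_one_le₀ hν1))
  have hs0 := Real.sqrt_nonneg δ
  have key : ∀ s : Finset σ, ∃ G, P.S G ∧
      (∀ j, P.N (G - F) j (s.card * K j * √δ * (ν ^ A ^ s.card) ^ j)) ∧
      ∀ y, |E G y - E F y - ∑ x ∈ s, q x y| ≤ s.card * ν⁻¹ ^ B * g y := by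
    intro s
    induction s using Finset.induction_on with
    | empty =>
      refine ⟨F, hF, fun j => ?_, fun y => by simp⟩
      rw [sub_self]
      exact P.mono _ _ _ _ (P.zero j) (by simp)
    | insert x s hx ih =>
      obtain ⟨G, hG, hGN, hGE⟩ := ih
      have hc : s.card ≤ Fintype.card σ := Finset.card_le_univ s
      have hca : A ^ s.card ≤ a := (Nat.pow_le_pow_right hA hc).trans ha
      have hcK : ∀ j ≤ J + 2, s.card * K j ≤ ν := fun j hj =>
        (mul_le_mul_of_nonneg_right (Nat.cast_le.2 hc) (hK0 j)).trans (hK j hj)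
      have hle : ν ≤ ν ^ A ^ s.card := le_self_pow₀ hν1 (pow_pos hA _).ne'
      have hup : ν ^ A ^ s.card ≤ ν ^ a := pow_mono hν hca
      rw [Finset.card_insert_of_notMem hx, pow_succ A, pow_mul]
      generalize ν ^ A ^ s.card = ν' at hGN hle hup ⊢
      have h0 : 0 < ν' := by linarith
      have hd := P.sub G F hG hF
      obtain ⟨G', hG', k1, k2⟩ := step x ν' G hle hG (fun j hj => by
        have h1 := P.add F (G - F) j _ _ hF hd (hN j hj) (hGN j)
        rw [add_sub_cancel] at h1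
        refine P.mono _ _ _ _ h1 ?_
        have a1 : ν ^ (j + 1) ≤ ν' ^ (j + 1) := pow_le_pow_left₀ hν0.le hle _
        have a2 : s.card * K j * √δ ≤ ν' * 1 :=
          mul_le_mul ((hcK j (by omega)).trans hle) hs1 hs0 h0.le
        have a3 := mul_le_mul_of_nonneg_right a2 (pow_pos h0 j).le
        have a4 : 2 * ν' ^ (j + 1) ≤ ν' * ν' ^ (j + 1) :=
          mul_le_mul_of_nonneg_right (by linarith) (pow_pos h0 _).le
        rw [pow_succ' ν' (j + 1)]
        rw [mul_one, ← pow_succ'] at a3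
        linarith) (fun j hj => by
        refine P.mono _ _ _ _ (hGN j) ?_
        have a1 : ν' ^ j ≤ ν ^ (2 * a) := by
          refine (pow_le_pow_left₀ h0.le hup j).trans ?_
          rw [← pow_mul]
          exact pow_mono hν (by nlinarith)
        have a2 : s.card * K j * √δ ≤ ν * ν⁻¹ ^ (2 * a + 2) :=
          mul_le_mul (hcK j (by omega)) hs hs0 hν0.le
        refine (mul_le_mul a2 a1 (pow_pos h0 j).le (by positivity)).trans (le_of_eq ?_)
        rw [inv_pow, pow_add]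
        field_simp)
      refine ⟨G', hG', fun j => ?_, fun y => ?_⟩
      · have h1 := P.add (G' - G) (G - F) j _ _ (P.sub G' G hG' hG) hd (k1 j) (hGN j)
        rw [sub_add_sub_cancel] at h1
        refine P.mono _ _ _ _ h1 ?_
        have a1 : ν' ^ j ≤ (ν' ^ A) ^ j :=
          pow_le_pow_left₀ h0.le (le_self_pow₀ (by linarith) (by omega)) j
        have a2 := mul_le_mul_of_nonneg_left a1
          (show 0 ≤ s.card * K j * √δ from mul_nonneg (mul_nonneg (by positivity) (hK0 j)) hs0)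
        push_cast
        linarith
      · rw [Finset.sum_insert hx]
        have a1 : ν'⁻¹ ^ B ≤ ν⁻¹ ^ B := pow_le_pow_left₀ (by positivity) (inv_anti₀ hν0 hle) B
        have a2 := mul_le_mul_of_nonneg_right a1 (hg y)
        have a3 := abs_add_le (E G' y - E G y - q x y) (E G y - E F y - ∑ x ∈ s, q x y)
        have e : E G' y - E F y - (q x y + ∑ x ∈ s, q x y) =
            E G' y - E G y - q x y + (E G y - E F y - ∑ x ∈ s, q x y) := by ring
        have a4 := k2 y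
        have a5 := hGE y
        rw [e]
        push_cast
        linarith
  obtain ⟨G, hG, h1, h2⟩ := key Finset.univ
  rw [Finset.card_univ] at h1 h2
  refine ⟨G, hG, fun j => P.mono _ _ _ _ (h1 j) ?_, h2⟩
  exact mul_le_mul_of_nonneg_left (pow_le_pow_left₀ (by positivity) (pow_mono hν ha) j)
    (mul_nonneg (mul_nonneg (by positivity) (hK0 j)) hs0)

end Vale.Agent.P205.PT
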