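import Vale.Agent.P205.PT.Smooth1

/-!
Smoothing of order J. T = mol μ, R u = u - T u. By induction on i generalizing V
(fderiv (T u) = T (fderiv u) by fderiv_mol, norm_iteratedFDeriv_fderiv, norm_iteratedFDeriv_zero):
(a) sup ‖D^i u‖ ≤ B gives ‖D^i (T u)‖ ≤ B, so ‖D^i (R u)‖ ≤ 2 B, and ‖D^(i+j) (T u)‖ ≤ C_j B μ^j;
(b) sup ‖D^(i+1) u‖ ≤ B gives ‖D^i (R u)‖ ≤ B / μ.
Induction on J: w_0 = 0, w_(J+1) = T u + (w_J for R u), so u - w_(J+1) = R u - (w_J for R u);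
constants C_(J+1) j = C j + 2 C_J j.
-/

open scoped Manifold ContDiff Topology RealInnerProductSpace
open Set Filter Metric Function

noncomputable section

namespace Vale.Agent.P205.PT

variable {V : Type} [NormedAddCommGroup V] [NormedSpace ℝ V] [CompleteSpace V]

theorem Smooth2_fd {μ : ℝ} (hμ : 1 ≤ μ) {u : E2 → V} (hu : ContDiff ℝ ∞ u) :
    fderiv ℝ (mol μ u) = mol μ (fderiv ℝ u) := funext fun z => (fderiv_mol hμ hu z).fderiv

theorem Smooth2_gain (j : ℕ) : ∃ C : ℝ, ∀ (i : ℕ) (V : Type) [NormedAddCommGroup V]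
    [NormedSpace ℝ V] [CompleteSpace V] (μ : ℝ), 1 ≤ μ → ∀ u : E2 → V, ContDiff ℝ ∞ u → ∀ B : ℝ,
    (∀ z, ‖iteratedFDeriv ℝ i u z‖ ≤ B) →
      ∀ z, ‖iteratedFDeriv ℝ (i + j) (mol μ u) z‖ ≤ C * B * μ ^ j := by
  obtain ⟨C, -, hC⟩ := mol_gain j
  refine ⟨C, fun i => ?_⟩
  induction i with
  | zero =>
    intro V _ _ _ μ hμ u hu B h z
    rw [zero_add]
    exact hC V μ hμ u hu B (fun y => by simpa only [norm_iteratedFDeriv_zero] using h y) z
  | succ i ih =>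
    intro V _ _ _ μ hμ u hu B h z
    rw [Nat.add_right_comm, ← norm_iteratedFDeriv_fderiv, Smooth2_fd hμ hu]
    exact ih _ μ hμ _ (contDiff_infty_iff_fderiv.1 hu).2 B
      (fun y => by rw [norm_iteratedFDeriv_fderiv]; exact h y) z

theorem Smooth2_le (i : ℕ) : ∀ (V : Type) [NormedAddCommGroup V]
    [NormedSpace ℝ V] [CompleteSpace V] (μ : ℝ), 1 ≤ μ → ∀ u : E2 → V, ContDiff ℝ ∞ u → ∀ B : ℝ,
    (∀ z, ‖iteratedFDeriv ℝ i u z‖ ≤ B) → ∀ z, ‖iteratedFDeriv ℝ i (mol μ u) z‖ ≤ B := by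
  induction i with
  | zero =>
    intro V _ _ _ μ hμ u hu B h z
    rw [norm_iteratedFDeriv_zero]
    exact mol_le μ (fun y => by simpa only [norm_iteratedFDeriv_zero] using h y) z
  | succ i ih =>
    intro V _ _ _ μ hμ u hu B h z
    rw [← norm_iteratedFDeriv_fderiv, Smooth2_fd hμ hu]
    exact ih _ μ hμ _ (contDiff_infty_iff_fderiv.1 hu).2 B
      (fun y => by rw [norm_iteratedFDeriv_fderiv]; exact h y) z

theorem Smooth2_sub (i : ℕ) : ∀ (V : Type) [NormedAddCommGroup V]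
    [NormedSpace ℝ V] [CompleteSpace V] (μ : ℝ), 1 ≤ μ → ∀ u : E2 → V, ContDiff ℝ ∞ u → ∀ B : ℝ,
    (∀ z, ‖iteratedFDeriv ℝ (i + 1) u z‖ ≤ B) →
      ∀ z, ‖iteratedFDeriv ℝ i (u - mol μ u) z‖ ≤ B * μ⁻¹ := by
  induction i with
  | zero =>
    intro V _ _ _ μ hμ u hu B h z
    rw [norm_iteratedFDeriv_zero]
    exact mol_sub hμ hu (fun y => by
      rw [← norm_iteratedFDeriv_one]
      exact h y) z
  | succ i ih =>
    intro V _ _ _ μ hμ u hu B h z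
    have e : fderiv ℝ (u - mol μ u) = fderiv ℝ u - mol μ (fderiv ℝ u) := funext fun y =>
      ((hu.differentiable (by simp) y).hasFDerivAt.sub (fderiv_mol hμ hu y)).fderiv
    rw [← norm_iteratedFDeriv_fderiv, e]
    exact ih _ μ hμ _ (contDiff_infty_iff_fderiv.1 hu).2 B
      (fun y => by rw [norm_iteratedFDeriv_fderiv]; exact h y) z

theorem smoothing (J : ℕ) : ∃ C : ℕ → ℝ, ∀ μ : ℝ, 1 ≤ μ → ∀ u : E2 → V, ContDiff ℝ ∞ u →
    ∃ w : E2 → V, ContDiff ℝ ∞ w ∧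
      (∀ (i j : ℕ) (B : ℝ), (∀ z, ‖iteratedFDeriv ℝ i u z‖ ≤ B) →
        ∀ z, ‖iteratedFDeriv ℝ (i + j) w z‖ ≤ C j * B * μ ^ j) ∧
      (∀ (i : ℕ) (B : ℝ), (∀ z, ‖iteratedFDeriv ℝ (i + J) u z‖ ≤ B) →
        ∀ z, ‖iteratedFDeriv ℝ i (u - w) z‖ ≤ B * μ⁻¹ ^ J) := by
  have hle : ∀ j : ℕ, ((j : ℕ∞) : WithTop ℕ∞) ≤ ∞ := fun j => by exact_mod_cast le_top
  induction J with
  | zero =>
    refine ⟨fun _ => 0, fun μ _ u _ => ⟨0, contDiff_const, fun i j B _ z => ?_, fun i B h z => ?_⟩⟩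
    · rw [iteratedFDeriv_zero, Pi.zero_apply, norm_zero, zero_mul, zero_mul]
    · rw [sub_zero, pow_zero, mul_one]
      exact h z
  | succ J ih =>
    obtain ⟨C, hC⟩ := ih
    choose D hD using Smooth2_gain
    refine ⟨fun j => D j + 2 * C j, fun μ hμ u hu => ?_⟩
    have hm := contDiff_mol hμ hu
    obtain ⟨w, hw, h1, h2⟩ := hC μ hμ (u - mol μ u) (hu.sub hm)
    refine ⟨mol μ u + w, hm.add hw, fun i j B h z => ?_, fun i B h z => ?_⟩
    · have h3 : ∀ y, ‖iteratedFDeriv ℝ i (u - mol μ u) y‖ ≤ B + B := fun y => by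
        rw [iteratedFDeriv_sub_apply (hu.contDiffAt.of_le (hle i)) (hm.contDiffAt.of_le (hle i))]
        exact (norm_sub_le _ _).trans (add_le_add (h y) (Smooth2_le i V μ hμ u hu B h y))
      rw [iteratedFDeriv_add_apply (hm.contDiffAt.of_le (hle _)) (hw.contDiffAt.of_le (hle _))]
      refine (norm_add_le _ _).trans
        ((add_le_add (hD j i V μ hμ u hu B h z) (h1 i j _ h3 z)).trans (le_of_eq ?_))
      ring
    · rw [← sub_sub, pow_succ', ← mul_assoc]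
      exact h2 i _ (Smooth2_sub (i + J) V μ hμ u hu B h) z

end Vale.Agent.P205.PT
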