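import Vale.Agent.P205.PT.Disc
import Vale.Agent.P205.PT.Smooth2

/-!
One disc, finitely many derivatives. k from disc, A = 2 (k + 2), J' = A + B + 10, J = J' + 2,
μ = ν², ft and bt = smoothing of order J' of f and b. Then (C j ≤ Λ ^ e j by pow_ge)
‖D^(1+j) ft‖, ‖D^(2+j) ft‖ ≤ Λ ^ (e j + m0) μ^j, ‖D^j bt‖ ≤ Λ ^ (e j + m0) δ μ^j (0 ≤ b ≤ δ Λ^m0),
‖D^i (f - ft)‖ ≤ ν^(i+J'+3) μ⁻¹^J' ≤ ν⁻¹^(A+B+5) for i ≤ 2, |b - bt| ≤ ν⁻¹^(B+3) ≤ δ ν⁻¹^3.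
With ν ≥ Λ^(m0+1): bt ≥ δ Λ⁻¹^(m0+1), IndQ Λ⁻¹^(m0+1) for ft (indQ_c2). Apply disc with n = B + 2,
m0 + 1. Error = error of disc + 2 ⟪D(f - ft) v, DU v⟫ + wt² (bt - b) ⟪R ex, v⟫², each at most
ν⁻¹^(B+2) ‖v‖² ≤ ν⁻¹^B ‖v‖² / 4 when ν ≥ Λ^m1, Λ^(mm 1). Take m = 1 + m0 + m1 + mm 1.
-/

open scoped Manifold ContDiff Topology RealInnerProductSpace
open Set Filter Metric Function

noncomputable section

namespace Vale.Agent.P205.PT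

theorem one_pw {ν : ℝ} (h : 2 ≤ ν) {a b c : ℕ} (hc : c + a ≤ b) :
    ν ^ a * ν⁻¹ ^ b ≤ ν⁻¹ ^ c := by
  have h0 : 0 < ν := by linarith
  calc ν ^ a * ν⁻¹ ^ b ≤ ν ^ a * ν⁻¹ ^ (c + a) :=
        mul_le_mul_of_nonneg_left (inv_pow_anti h hc) (by positivity)
    _ = ν⁻¹ ^ c * (ν * ν⁻¹) ^ a := by rw [pow_add, mul_pow]; ring
    _ = _ := by rw [mul_inv_cancel₀ h0.ne', one_pow, mul_one]

theorem one_err {a a' u : E4} {w b b' ζ e n : ℝ} (h1 : |‖a' + u‖ ^ 2 - ‖a'‖ ^ 2 - w * b' * ζ| ≤ e * n)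
    (h2 : 2 * (‖a - a'‖ * ‖u‖) ≤ e * n) (hw0 : 0 ≤ w) (hw1 : w ≤ 1) (h3 : |b - b'| ≤ e)
    (hζ0 : 0 ≤ ζ) (hζ : ζ ≤ n) : |‖a + u‖ ^ 2 - ‖a‖ ^ 2 - w * b * ζ| ≤ 3 * e * n := by
  have e1 : ‖a + u‖ ^ 2 - ‖a‖ ^ 2 - w * b * ζ =
      (‖a' + u‖ ^ 2 - ‖a'‖ ^ 2 - w * b' * ζ) + 2 * ⟪a - a', u⟫ - w * (b - b') * ζ := by
    rw [norm_add_sq_real, norm_add_sq_real, inner_sub_left]; ring
  have e2 : |2 * ⟪a - a', u⟫| ≤ e * n := by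
    rw [abs_mul, abs_two]
    exact le_trans (mul_le_mul_of_nonneg_left (abs_real_inner_le_norm _ _) zero_le_two) h2
  have e3 : |w * (b - b') * ζ| ≤ e * n := by
    rw [abs_mul, abs_mul, abs_of_nonneg hw0, abs_of_nonneg hζ0]
    have he : 0 ≤ e := (abs_nonneg _).trans h3
    calc w * |b - b'| * ζ ≤ 1 * e * n := by gcongr
      _ = _ := by ring
  rw [e1]
  have := abs_sub (‖a' + u‖ ^ 2 - ‖a'‖ ^ 2 - w * b' * ζ + 2 * ⟪a - a', u⟫) (w * (b - b') * ζ)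
  have := abs_add_le (‖a' + u‖ ^ 2 - ‖a'‖ ^ 2 - w * b' * ζ) (2 * ⟪a - a', u⟫)
  linarith

theorem one : ∃ A : ℕ, 2 ≤ A ∧ ∀ B m0 : ℕ, ∃ (J m : ℕ) (mm : ℕ → ℕ),
    ∀ (Λ ν δ r : ℝ) (d : E2) (R : E2 ≃ₗᵢ[ℝ] E2) (f : E2 → E4) (b : E2 → ℝ),
    2 ≤ Λ → Λ ^ m ≤ ν → ν⁻¹ ^ B ≤ δ → δ ≤ 1 → Λ⁻¹ ^ m0 ≤ r → r ≤ 1 →
    ContDiff ℝ ∞ f → ContDiff ℝ ∞ b →
    (∀ j ≤ J, ∀ z, ‖iteratedFDeriv ℝ j f z‖ ≤ ν ^ (j + 3)) →
    (∀ j ≤ 2, ∀ z, ‖iteratedFDeriv ℝ j f z‖ ≤ Λ ^ m0) →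
    (∀ j ≤ J, ∀ z, ‖iteratedFDeriv ℝ j b z‖ ≤ ν ^ (j + 7)) →
    (∀ z, δ * Λ⁻¹ ^ m0 ≤ b z ∧ b z ≤ δ * Λ ^ m0) →
    (∀ z ∈ ball d r, IndQ (Λ⁻¹ ^ m0) (fderiv ℝ f z) (D2 f z (R ey))) →
    ∃ U : E2 → E4, ContDiff ℝ ∞ U ∧ support U ⊆ ball d r ∧
      (∀ j z, ‖iteratedFDeriv ℝ j U z‖ ≤ Λ ^ mm j * √δ * (ν ^ A) ^ j) ∧
      ∀ z v, |‖fderiv ℝ (f + U) z v‖ ^ 2 - ‖fderiv ℝ f z v‖ ^ 2
        - wt (r⁻¹ • (z - d)) ^ 2 * b z * ⟪R ex, v⟫ ^ 2| ≤ ν⁻¹ ^ B * ‖v‖ ^ 2 := by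
  obtain ⟨k, hk⟩ := disc
  refine ⟨2 * (k + 2), by omega, fun B m0 => ?_⟩
  obtain ⟨A, hA⟩ : ∃ A, A = 2 * (k + 2) := ⟨_, rfl⟩
  rw [← hA]
  obtain ⟨Cf, hCf⟩ := smoothing (V := E4) (A + B + 10)
  obtain ⟨Cb, hCb⟩ := smoothing (V := ℝ) (A + B + 10)
  choose e he using fun j => pow_ge (max (Cf j) (Cb j))
  obtain ⟨mm, m1, hd⟩ := hk (B + 2) (m0 + 1) (fun j => e j + m0)
  refine ⟨A + B + 10 + 2, 1 + m0 + m1 + mm 1, mm, ?_⟩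
  intro Λ ν δ r d R f b hΛ hν hδ hδ1 hr0 hr1 sf sb f1 f2 b1 b2 hI
  have hΛ0 : 0 < Λ := by linarith
  have hge : ∀ a ≤ 1 + m0 + m1 + mm 1, Λ ^ a ≤ ν := fun a ha => (pow_mono hΛ ha).trans hν
  have hν2 : 2 ≤ ν := hΛ.trans (by simpa using hge 1 (by omega))
  have hν0 : 0 < ν := by linarith
  have hδ0 : 0 < δ := lt_of_lt_of_le (by positivity) hδ
  have hμ : 1 ≤ ν ^ 2 := one_le_pow₀ (by linarith)
  have hμi : ∀ n : ℕ, (ν ^ 2)⁻¹ ^ n = ν⁻¹ ^ (2 * n) := fun n => by rw [← inv_pow, ← pow_mul]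
  have hx : ν⁻¹ ≤ Λ⁻¹ ^ (m0 + 1) := by
    rw [inv_pow]; exact inv_anti₀ (by positivity) (hge _ (by omega))
  have hx1 : ∀ n : ℕ, 1 ≤ n → ν⁻¹ ^ n ≤ Λ⁻¹ ^ (m0 + 1) := fun n hn =>
    le_trans (by simpa using inv_pow_anti hν2 hn) hx
  have hhalf : 2 * Λ⁻¹ ^ (m0 + 1) ≤ Λ⁻¹ ^ m0 := by
    have : 2 * Λ⁻¹ ≤ 1 := by rw [← div_eq_mul_inv, div_le_one hΛ0]; exact hΛ
    calc 2 * Λ⁻¹ ^ (m0 + 1) = Λ⁻¹ ^ m0 * (2 * Λ⁻¹) := by ring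
      _ ≤ Λ⁻¹ ^ m0 * 1 := by gcongr
      _ = _ := mul_one _
  obtain ⟨ft, sft, g1, g2⟩ := hCf (ν ^ 2) hμ f sf
  obtain ⟨bt, sbt, k1, k2⟩ := hCb (ν ^ 2) hμ b sb
  have df : ∀ i ≤ 2, ∀ z, ‖iteratedFDeriv ℝ i (f - ft) z‖ ≤ ν⁻¹ ^ (A + B + 5) := fun i hi z => by
    refine (g2 i _ (f1 _ (by omega)) z).trans ?_
    rw [hμi]; exact one_pw hν2 (by omega)
  have db : ∀ z, |b z - bt z| ≤ ν⁻¹ ^ (B + 3) := fun z => by
    have := k2 0 _ (b1 _ (by omega)) z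
    rw [norm_iteratedFDeriv_zero, hμi] at this
    exact this.trans (one_pw hν2 (by omega))
  have hC : ∀ j (C X : ℝ), C ≤ max (Cf j) (Cb j) → 0 ≤ X →
      C * (X * Λ ^ m0) * (ν ^ 2) ^ j ≤ Λ ^ (e j + m0) * X * (ν ^ 2) ^ j := fun j C X h hX => by
    have := h.trans (he j Λ hΛ)
    calc C * (X * Λ ^ m0) * (ν ^ 2) ^ j ≤ Λ ^ e j * (X * Λ ^ m0) * (ν ^ 2) ^ j := by gcongr
      _ = _ := by rw [pow_add]; ring
  obtain ⟨U, sU, u1, u2, u3⟩ := hd Λ (ν ^ 2) δ r d R ft bt hΛ hμ hδ0 hδ1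
    ((inv_pow_anti hΛ (Nat.le_succ _)).trans hr0) hr1 sft sbt
    (fun j z => by
      refine ⟨?_, ?_, ?_⟩
      · have := g1 1 j _ (f2 1 (by omega)) z
        rw [add_comm 1 j] at this
        simpa using this.trans (by simpa using hC j (Cf j) 1 (le_max_left _ _) zero_le_one)
      · have := g1 2 j _ (f2 2 le_rfl) z
        rw [add_comm 2 j] at this
        simpa using this.trans (by simpa using hC j (Cf j) 1 (le_max_left _ _) zero_le_one)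
      · have := k1 0 j (δ * Λ ^ m0) (fun z => by
          rw [norm_iteratedFDeriv_zero, Real.norm_eq_abs,
            abs_of_nonneg (le_trans (by positivity) (b2 z).1)]
          exact (b2 z).2) z
        rw [zero_add] at this
        exact this.trans (hC j (Cb j) δ (le_max_right _ _) hδ0.le))
    (fun z => by
      have h1 := (abs_le.1 (db z)).2
      have h2 : ν⁻¹ ^ (B + 3) ≤ δ * Λ⁻¹ ^ (m0 + 1) := by
        rw [pow_add]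
        exact mul_le_mul hδ (hx1 3 (by omega)) (by positivity) hδ0.le
      have h3 := mul_le_mul_of_nonneg_left hhalf hδ0.le
      linarith [(b2 z).1])
    (fun z hz => by
      have n1 : ∀ i ≤ 2, ‖iteratedFDeriv ℝ i (ft - f) z‖ ≤ ν⁻¹ ^ (A + B + 5) := fun i hi => by
        rw [← neg_sub f ft, iteratedFDeriv_neg_apply, norm_neg]; exact df i hi z
      refine (indQ_c2 sf.contDiffAt sft.contDiffAt (by simp [ey]) (n1 1 (by omega)) (n1 2 le_rfl)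
        (hI z hz)).mono ?_
      linarith [hx1 (A + B + 5) (by omega)])
  refine ⟨U, sU, u1, fun j z => by rw [hA, pow_mul]; exact u2 j z, fun z v => ?_⟩
  have d1 : DifferentiableAt ℝ f z := sf.differentiable (by simp) z
  have d2 : DifferentiableAt ℝ ft z := sft.differentiable (by simp) z
  have d3 : DifferentiableAt ℝ U z := sU.differentiable (by simp) z
  have h1 := u3 z v
  rw [fderiv_add d2 d3, ContinuousLinearMap.add_apply] at h1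
  rw [fderiv_add d1 d3, ContinuousLinearMap.add_apply]
  have hn : 0 ≤ ‖v‖ ^ 2 := sq_nonneg _
  refine (one_err (e := ν⁻¹ ^ (B + 2)) (n := ‖v‖ ^ 2) (h1.trans ?_) ?_ (sq_nonneg _)
    (pow_le_one₀ (wt_nonneg _) (wt_le_one _)) ((db z).trans (inv_pow_anti hν2 (by omega)))
    (sq_nonneg _) ?_).trans ?_
  · refine mul_le_mul_of_nonneg_right ?_ hn
    rw [hμi]
    calc Λ ^ m1 * ν⁻¹ ^ (2 * (B + 2)) ≤ ν ^ 1 * ν⁻¹ ^ (2 * (B + 2)) := by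
          rw [pow_one]; gcongr; exact hge _ (by omega)
      _ ≤ _ := one_pw hν2 (by omega)
  · have a1 : ‖fderiv ℝ f z v - fderiv ℝ ft z v‖ ≤ ν⁻¹ ^ (A + B + 5) * ‖v‖ := by
      rw [← ContinuousLinearMap.sub_apply, ← fderiv_sub d1 d2]
      refine (ContinuousLinearMap.le_opNorm _ _).trans ?_
      rw [norm_fderiv_eq]
      exact mul_le_mul_of_nonneg_right (df 1 (by omega) z) (norm_nonneg _)
    have a2 : ‖fderiv ℝ U z v‖ ≤ ν ^ (A + 1) * ‖v‖ := by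
      refine (ContinuousLinearMap.le_opNorm _ _).trans ?_
      rw [norm_fderiv_eq]
      refine mul_le_mul_of_nonneg_right ((u2 1 z).trans ?_) (norm_nonneg _)
      rw [pow_one, ← pow_mul, ← hA]
      calc Λ ^ mm 1 * √δ * ν ^ A ≤ ν * 1 * ν ^ A := by
            gcongr
            · exact hge _ (by omega)
            · exact Real.sqrt_le_one.2 hδ1
        _ = _ := by ring
    have a3 : ν ^ (A + 2) * ν⁻¹ ^ (A + B + 5) ≤ ν⁻¹ ^ (B + 2) := one_pw hν2 (by omega)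
    calc 2 * (‖fderiv ℝ f z v - fderiv ℝ ft z v‖ * ‖fderiv ℝ U z v‖)
        ≤ ν * (ν⁻¹ ^ (A + B + 5) * ‖v‖ * (ν ^ (A + 1) * ‖v‖)) := by gcongr
      _ = ν ^ (A + 2) * ν⁻¹ ^ (A + B + 5) * ‖v‖ ^ 2 := by ring
      _ ≤ _ := mul_le_mul_of_nonneg_right a3 hn
  · have := abs_real_inner_le_norm (R ex) v
    rw [LinearIsometryEquiv.norm_map, show ‖ex‖ = 1 by simp [ex], one_mul] at this
    rw [← sq_abs]; exact pow_le_pow_left₀ (abs_nonneg _) this 2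
  · refine mul_le_mul_of_nonneg_right ?_ hn
    have : ν⁻¹ ≤ 1 / 2 := by rw [one_div]; exact inv_anti₀ two_pos hν2
    have h4 : ν⁻¹ ^ 2 ≤ (1 / 2) ^ 2 := pow_le_pow_left₀ (by positivity) this 2
    have h5 : 0 ≤ ν⁻¹ ^ B := by positivity
    rw [pow_add]; nlinarith

end Vale.Agent.P205.PT
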