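import Vale.Agent.P205.PT.Nrm
import Vale.Agent.P205.PT.Latt

/-!
The normalising function. ϖ p = Σ i, push (φ i) (Wt r D) p is smooth (sm_push with
K = closedBall 0 3, support_Wt), c ≤ ϖ (T.cov, Wt_lower, the other terms are ≥ 0),
ϖ ≤ n C Λ^m0 (Wt_bound 0), T.Nrm ϖ j ≤ n C' Λ^m0 (Λ^m0)^j (T.nrm_push with ν = r⁻¹ ≤ Λ^m0,
Wt_bound, Nrm.add by induction on the finite sum). ψ = ϖ⁻¹ = ϖ ^ (-1 : ℝ) (Real.rpow_neg_one);
rpow_bound with ν = 1 and L a power of Λ dominating c⁻¹ and all the bounds of order ≤ j.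
-/

open scoped Manifold ContDiff Topology RealInnerProductSpace
open Set Filter Metric Function

noncomputable section

namespace Vale.Agent.P205.PT

variable {M : Type*} [TopologicalSpace M] [ChartedSpace E2 M] [IsManifold I2 ∞ M] {γ0 : M → Bil}

theorem Part_sum (T : Atl γ0) {ι : Type} (s : Finset ι) {f : ι → M → ℝ} (hf : ∀ i, Sm (f i)) :
    Sm (∑ i ∈ s, f i) ∧ ∀ j B, (∀ i, T.Nrm (f i) j B) → T.Nrm (∑ i ∈ s, f i) j (s.card * B) := by
  classical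
  induction s using Finset.induction_on with
  | empty => exact ⟨contMDiff_const, fun j B _ => (T.nrm_zero j).mono (by simp)⟩
  | insert a s ha ih =>
    rw [Finset.sum_insert ha, Finset.card_insert_of_notMem ha]
    refine ⟨sm_add (hf a) ih.1, fun j B h =>
      ((h a).add (ih.2 j B h) (hf a) ih.1).mono (le_of_eq ?_)⟩
    push_cast
    ring

theorem Part_bound [T2Space M] (T : Atl γ0) (m0 j : ℕ) : ∃ e : ℕ,
    ∀ (Λ r : ℝ) (D : Finset E2), 2 ≤ Λ → Λ⁻¹ ^ m0 ≤ r → r ≤ 1 / 2 → (D.card : ℝ) ≤ Λ ^ m0 →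
    (∀ d ∈ D, ‖d‖ ≤ 2) → Sm (∑ i, push (T.φ i) (Wt r D)) ∧
      T.Nrm (∑ i, push (T.φ i) (Wt r D)) j (Λ ^ e) := by
  obtain ⟨C, hC0, hC⟩ := T.nrm_push (V := ℝ) j
  choose Cw hw0 hw using Wt_bound
  obtain ⟨e, he⟩ := pow_ge (T.n * C * ∑ k ∈ Finset.range (j + 1), Cw k)
  refine ⟨e + m0 + m0 * j, fun Λ r D hΛ hr hr1 hD hd => ?_⟩
  have hΛ0 : 0 < Λ := by linarith
  have hr0 : 0 < r := lt_of_lt_of_le (by positivity) hr
  have hri : r⁻¹ ≤ Λ ^ m0 := by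
    rw [inv_pow] at hr
    exact inv_le_of_inv_le₀ (by positivity) hr
  have hS : 0 ≤ ∑ k ∈ Finset.range (j + 1), Cw k := Finset.sum_nonneg fun k _ => (hw0 k).le
  have hs := support_Wt hr0 hr1 hd
  have h := Part_sum T Finset.univ fun i => sm_push (T.ch i) (contDiff_Wt r D).contDiffOn
    (isCompact_closedBall 0 3) ((closedBall_subset_closedBall (by norm_num)).trans (T.tgt i)) hs
  refine ⟨h.1, (h.2 j _ fun i => hC i _ ((∑ k ∈ Finset.range (j + 1), Cw k) * Λ ^ m0) r⁻¹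
    (by positivity) ((one_le_inv₀ hr0).2 (by linarith)) (contDiff_Wt r D) hs fun k hk z =>
      (hw k r D hr0 z).trans ?_).mono ?_⟩
  · have := Finset.single_le_sum (fun k _ => (hw0 k).le)
      (Finset.mem_range.2 (Nat.lt_succ_of_le hk))
    gcongr
  · rw [Finset.card_univ, Fintype.card_fin]
    calc _ = (T.n * C * ∑ k ∈ Finset.range (j + 1), Cw k) * Λ ^ m0 * r⁻¹ ^ j := by ring
      _ ≤ Λ ^ e * Λ ^ m0 * (Λ ^ m0) ^ j := by
        gcongr
        exact he Λ hΛ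
      _ = _ := by ring

theorem exists_part [T2Space M] (T : Atl γ0) (m0 : ℕ) : ∃ (m1 : ℕ) (mψ : ℕ → ℕ),
    ∀ (Λ r : ℝ) (D : Finset E2), 2 ≤ Λ → Λ⁻¹ ^ m0 ≤ r → r ≤ 1 / 2 → (D.card : ℝ) ≤ Λ ^ m0 →
    (∀ d ∈ D, ‖d‖ ≤ 2) → (∀ z : E2, ‖z‖ < 1 → ∃ d ∈ D, ‖z - d‖ ≤ 3 / 4 * r) →
    ∃ ψ : M → ℝ, Sm ψ ∧ (∀ j, T.Nrm ψ j (Λ ^ mψ j)) ∧
      (∀ p, Λ⁻¹ ^ m1 ≤ ψ p ∧ ψ p ≤ Λ ^ m1) ∧
      ∀ p, ψ p * ∑ i, push (T.φ i) (Wt r D) p = 1 := by
  choose e he using Part_bound T m0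
  choose mr hmr using rpow_bound (-1)
  obtain ⟨c, hc0, hc⟩ := Wt_lower
  obtain ⟨ec, hec⟩ := pow_ge' hc0
  refine ⟨e 0 + ec, fun j => (1 + ec + (Finset.range (j + 1)).sup e) * mr j,
    fun Λ r D hΛ hr hr1 hD hd hcov => ?_⟩
  have hΛ0 : 0 < Λ := by linarith
  have hr0 : 0 < r := lt_of_lt_of_le (by positivity) hr
  have hs := (he 0 Λ r D hΛ hr hr1 hD hd).1
  have hn := fun j => (he j Λ r D hΛ hr hr1 hD hd).2
  have hev : ∀ p, ∑ i, push (T.φ i) (Wt r D) p = (∑ i, push (T.φ i) (Wt r D)) p := fun p =>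
    (Finset.sum_apply _ _ _).symm
  have hlo : ∀ p, Λ⁻¹ ^ ec ≤ (∑ i, push (T.φ i) (Wt r D)) p := fun p => by
    obtain ⟨i, h1, h2⟩ := T.cov p
    rw [← hev]
    refine le_trans ?_ (Finset.single_le_sum (fun k _ => ?_) (Finset.mem_univ i))
    · rw [push, if_pos h1]
      exact (hec Λ hΛ).trans (hc r D _ hr0 (hcov _ h2))
    · unfold push
      split_ifs
      · exact Wt_nonneg _ _ _
      · exact le_rfl
  simp only [hev]
  generalize (∑ i, push (T.φ i) (Wt r D)) = w at hs hn hlo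
  have hpos : ∀ p, 0 < w p := fun p => lt_of_lt_of_le (by positivity) (hlo p)
  have hhi : ∀ p, w p ≤ Λ ^ e 0 := fun p => by
    obtain ⟨i, h1, h2⟩ := T.cov p
    have h3 := hn 0 i (T.φ i p) (mem_closedBall_zero_iff.2 (by linarith))
    rw [norm_iteratedFDeriv_zero, comp_apply, (T.φ i).left_inv h1] at h3
    exact (le_abs_self _).trans h3
  refine ⟨fun p => (w p)⁻¹, ContMDiff.inv₀ hs fun p => (hpos p).ne', fun j i z hz => ?_,
    fun p => ⟨?_, ?_⟩, fun p => inv_mul_cancel₀ (hpos p).ne'⟩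
  · have h1 : (fun p => (w p)⁻¹) ∘ (T.φ i).symm = fun x => (w ∘ (T.φ i).symm) x ^ (-1 : ℝ) :=
      funext fun x => (Real.rpow_neg_one _).symm
    rw [h1]
    refine (hmr j _ z (Λ ^ (1 + ec + (Finset.range (j + 1)).sup e)) 1 ?_ le_rfl (T.smAt hs i z hz)
      ?_ fun k hk => (hn k i z hz).trans ?_).trans (le_of_eq ?_)
    · exact hΛ.trans ((pow_one Λ).symm.trans_le (pow_mono hΛ (by omega)))
    · rw [← inv_pow]
      exact (inv_pow_anti hΛ (by omega)).trans (hlo _)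
    · rw [one_pow, mul_one]
      exact pow_mono hΛ ((Finset.le_sup (f := e) (Finset.mem_range.2 (by omega))).trans
        (Nat.le_add_left _ _))
    · rw [one_pow, mul_one, ← pow_mul]
  · refine (inv_pow_anti hΛ (Nat.le_add_right _ _)).trans ?_
    rw [inv_pow]
    exact inv_anti₀ (hpos p) (hhi p)
  · refine le_trans ?_ (pow_mono hΛ (Nat.le_add_left ec _))
    have h1 := hlo p
    rw [inv_pow] at h1
    exact inv_le_of_inv_le₀ (by positivity) h1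

end Vale.Agent.P205.PT
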