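import Vale.Agent.P205.PT.Defs

/-!
The mollifier at scale 1/μ. rho = normed bump of radius 1 (smooth, ≥ 0, integral 1, support in the
unit ball), mol μ u z = ∫ y, rho y • u (z - μ⁻¹ • y). No support condition on u.
fderiv_mol: hasFDerivAt_integral_of_dominated_of_fderiv_le on ball z 1; the bound is
rho y * sup of ‖fderiv u‖ on closedBall z 2 (rho y = 0 for ‖y‖ ≥ 1).
contDiff_mol: contDiff_infty_iff_fderiv style induction on the order generalizing V
(or mol_eq_conv and HasCompactSupport.contDiff_convolution_left).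
mol_gain: change variables y ↦ μ⁻¹ • y (integral_comp_smul): mol μ u = rhoμ ⋆ u with
rhoμ y = μ ^ 2 * rho (μ • y). General lemma by induction on j, generalizing the value types of the
kernel: for f : E2 → W smooth with compact support, L : W →L V →L V', ‖D^j (f ⋆[L] u) z‖ ≤
‖L‖ * (∫ ‖D^j f‖) * B, from HasCompactSupport.hasFDerivAt_convolution_left, norm_precompL_le and
norm_iteratedFDeriv_fderiv. Alternatively rescale first: mol μ u z = mol 1 (u ∘ (μ⁻¹ • ·)) (μ • z),
so only μ = 1 needs the convolution.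
mol_sub: u z - mol μ u z = ∫ rho y • (u z - u (z - μ⁻¹ • y)), mean value inequality.
-/

open scoped Manifold ContDiff Topology RealInnerProductSpace
open Set Filter Metric Function

noncomputable section

namespace Vale.Agent.P205.PT

variable {V : Type} [NormedAddCommGroup V] [NormedSpace ℝ V] [CompleteSpace V]

def rho : E2 → ℝ :=
  (⟨1 / 2, 1, by norm_num, by norm_num⟩ : ContDiffBump (0 : E2)).normed MeasureTheory.volume

def mol (μ : ℝ) (u : E2 → V) (z : E2) : V := ∫ y, rho y • u (z - μ⁻¹ • y)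

open MeasureTheory

theorem smooth1_cd : ContDiff ℝ ∞ rho := ContDiffBump.contDiff_normed _

theorem smooth1_nonneg (y : E2) : 0 ≤ rho y := ContDiffBump.nonneg_normed _ y

theorem smooth1_int : ∫ y, rho y = 1 := ContDiffBump.integral_normed _

theorem smooth1_cs : HasCompactSupport rho := ContDiffBump.hasCompactSupport_normed _

theorem smooth1_integrable : Integrable rho := ContDiffBump.integrable_normed _

theorem smooth1_zero {y : E2} (h : 1 ≤ ‖y‖) : rho y = 0 := by
  by_contra h0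
  have h1 : y ∈ support rho := h0
  rw [rho, ContDiffBump.support_normed_eq, mem_ball_zero_iff] at h1
  exact absurd h1 (not_lt.2 h)

omit [CompleteSpace V] in
theorem smooth1_cont (μ : ℝ) {u : E2 → V} (hu : Continuous u) (z : E2) :
    Continuous fun y => rho y • u (z - μ⁻¹ • y) :=
  smooth1_cd.continuous.smul (hu.comp (by fun_prop))

omit [CompleteSpace V] in
theorem smooth1_ii (μ : ℝ) {u : E2 → V} (hu : Continuous u) (z : E2) :
    Integrable fun y => rho y • u (z - μ⁻¹ • y) :=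
  (smooth1_cont μ hu z).integrable_of_hasCompactSupport smooth1_cs.smul_right

omit [CompleteSpace V] in
theorem smooth1_bd {f : E2 → V} {B : ℝ} (h : ∀ y, ‖y‖ < 1 → ‖f y‖ ≤ B) (y : E2) :
    ‖rho y • f y‖ ≤ rho y * B := by
  rcases lt_or_ge ‖y‖ 1 with hy | hy
  · rw [norm_smul, Real.norm_of_nonneg (smooth1_nonneg y)]
    exact mul_le_mul_of_nonneg_left (h y hy) (smooth1_nonneg y)
  · rw [smooth1_zero hy, zero_smul, norm_zero, zero_mul]

omit [CompleteSpace V] in
theorem smooth1_le {f : E2 → V} {B : ℝ} (h : ∀ y, ‖y‖ < 1 → ‖f y‖ ≤ B) :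
    ‖∫ y, rho y • f y‖ ≤ B := by
  have h1 := norm_integral_le_of_norm_le (smooth1_integrable.mul_const B)
    (Eventually.of_forall (smooth1_bd h))
  rwa [integral_mul_const, smooth1_int, one_mul] at h1

theorem smooth1_small {μ : ℝ} (hμ : 1 ≤ μ) {y : E2} (hy : ‖y‖ < 1) : ‖μ⁻¹ • y‖ ≤ μ⁻¹ := by
  have h0 : 0 ≤ μ⁻¹ := inv_nonneg.2 (by linarith)
  rw [norm_smul, Real.norm_of_nonneg h0]
  exact mul_le_of_le_one_right h0 hy.le

open scoped Convolution in
omit [CompleteSpace V] in
theorem smooth1_conv {μ : ℝ} (hμ : 1 ≤ μ) (u : E2 → V) : mol μ u =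
    fun z => (rho ⋆[ContinuousLinearMap.lsmul ℝ ℝ, volume] fun x => u (μ⁻¹ • x)) (μ • z) := by
  funext z
  simp only [mol, convolution_def, ContinuousLinearMap.lsmul_apply, smul_sub,
    inv_smul_smul₀ (by linarith : μ ≠ 0)]

open scoped Convolution in
theorem smooth1_gain (j : ℕ) : ∀ (W V V' : Type) [NormedAddCommGroup W] [NormedSpace ℝ W]
    [NormedAddCommGroup V] [NormedSpace ℝ V] [NormedAddCommGroup V'] [NormedSpace ℝ V']
    [CompleteSpace V'] (L : W →L[ℝ] V →L[ℝ] V') (f : E2 → W) (u : E2 → V) (B : ℝ) (z : E2),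
    ‖L‖ ≤ 1 → ContDiff ℝ ∞ f → HasCompactSupport f → Continuous u → (∀ x, ‖u x‖ ≤ B) →
    ‖iteratedFDeriv ℝ j (f ⋆[L, volume] u) z‖ ≤ (∫ y, ‖iteratedFDeriv ℝ j f y‖) * B := by
  induction j with
  | zero =>
    intro W V V' _ _ _ _ _ _ _ L f u B z hL hf hc hu hB
    simp only [norm_iteratedFDeriv_zero]
    rw [← integral_mul_const, convolution_def]
    refine norm_integral_le_of_norm_le
      ((hf.continuous.integrable_of_hasCompactSupport hc).norm.mul_const B)
      (Eventually.of_forall fun y => (L.le_opNorm₂ _ _).trans ?_)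
    exact mul_le_mul (mul_le_of_le_one_left (norm_nonneg _) hL) (hB _) (norm_nonneg _)
      (norm_nonneg _)
  | succ j ih =>
    intro W V V' _ _ _ _ _ _ _ L f u B z hL hf hc hu hB
    have h1 : fderiv ℝ (f ⋆[L, volume] u) = fderiv ℝ f ⋆[L.precompL E2, volume] u := by
      funext x
      exact (hc.hasFDerivAt_convolution_left L (hf.of_le (by simp)) hu.locallyIntegrable x).fderiv
    simp only [← norm_iteratedFDeriv_fderiv]
    rw [h1]
    exact ih _ _ _ _ _ u B z ((L.norm_precompL_le E2).trans hL)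
      (contDiff_infty_iff_fderiv.1 hf).2 (hc.fderiv ℝ) hu hB

theorem fderiv_mol {μ : ℝ} (hμ : 1 ≤ μ) {u : E2 → V} (hu : ContDiff ℝ ∞ u) (z : E2) :
    HasFDerivAt (mol μ u) (mol μ (fderiv ℝ u) z) z := by
  have hd : Continuous (fderiv ℝ u) := hu.continuous_fderiv (by simp)
  obtain ⟨C, hC⟩ := (isCompact_closedBall z 2).exists_bound_of_continuousOn hd.continuousOn
  refine hasFDerivAt_integral_of_dominated_of_fderiv_le
    (F := fun x y => rho y • u (x - μ⁻¹ • y))
    (F' := fun x y => rho y • fderiv ℝ u (x - μ⁻¹ • y)) (bound := fun y => rho y * C)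
    (ball_mem_nhds z one_pos)
    (Eventually.of_forall fun x => (smooth1_cont μ hu.continuous x).aestronglyMeasurable)
    (smooth1_ii μ hu.continuous z) (smooth1_cont μ hd z).aestronglyMeasurable
    (Eventually.of_forall fun y x hx => ?_) (smooth1_integrable.mul_const C)
    (Eventually.of_forall fun y x _ => ?_)
  · refine smooth1_bd (f := fun y => fderiv ℝ u (x - μ⁻¹ • y)) (fun y hy => hC _ ?_) y
    have h1 := (smooth1_small hμ hy).trans (inv_le_one_of_one_le₀ hμ)
    rw [mem_ball, dist_eq_norm] at hx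
    rw [mem_closedBall, dist_eq_norm, sub_right_comm]
    exact (norm_sub_le _ _).trans (by linarith)
  · have h1 : HasFDerivAt (fun x => u (x - μ⁻¹ • y)) (fderiv ℝ u (x - μ⁻¹ • y)) x :=
      (hu.differentiable (by simp) _).hasFDerivAt.comp x ((hasFDerivAt_id x).sub_const _)
    exact h1.fun_const_smul (rho y)

theorem contDiff_mol {μ : ℝ} (hμ : 1 ≤ μ) {u : E2 → V} (hu : ContDiff ℝ ∞ u) :
    ContDiff ℝ ∞ (mol μ u) := by
  rw [smooth1_conv hμ]
  exact (smooth1_cs.contDiff_convolution_left _ smooth1_cd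
    (hu.continuous.comp (continuous_const_smul μ⁻¹)).locallyIntegrable).comp
    (contDiff_const_smul μ)

theorem mol_le (μ : ℝ) {u : E2 → V} {B : ℝ} (h : ∀ z, ‖u z‖ ≤ B) (z : E2) :
    ‖mol μ u z‖ ≤ B :=
  smooth1_le fun _ _ => h _

theorem mol_sub {μ : ℝ} (hμ : 1 ≤ μ) {u : E2 → V} (hu : ContDiff ℝ ∞ u) {B : ℝ}
    (h : ∀ z, ‖fderiv ℝ u z‖ ≤ B) (z : E2) : ‖u z - mol μ u z‖ ≤ B * μ⁻¹ := by
  have h1 : u z - mol μ u z = ∫ y, rho y • (u z - u (z - μ⁻¹ • y)) := by
    simp only [smul_sub (rho _)]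
    rw [integral_sub (smooth1_integrable.smul_const _) (smooth1_ii μ hu.continuous z),
      integral_smul_const, smooth1_int, one_smul, mol]
  rw [h1]
  refine smooth1_le fun y hy => ?_
  have h2 := convex_univ.norm_image_sub_le_of_norm_fderiv_le (𝕜 := ℝ)
    (fun x _ => hu.differentiable (by simp) x) (fun x _ => h x) (mem_univ (z - μ⁻¹ • y))
    (mem_univ z)
  rw [sub_sub_cancel] at h2
  exact h2.trans (mul_le_mul_of_nonneg_left (smooth1_small hμ hy) ((norm_nonneg _).trans (h z)))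

/-- The constant does not depend on the target space. -/
theorem mol_gain (j : ℕ) : ∃ C : ℝ, 1 ≤ C ∧ ∀ (V : Type) [NormedAddCommGroup V] [NormedSpace ℝ V]
    [CompleteSpace V] (μ : ℝ), 1 ≤ μ → ∀ u : E2 → V, ContDiff ℝ ∞ u → ∀ B : ℝ,
    (∀ z, ‖u z‖ ≤ B) → ∀ z, ‖iteratedFDeriv ℝ j (mol μ u) z‖ ≤ C * B * μ ^ j := by
  refine ⟨max 1 (∫ y, ‖iteratedFDeriv ℝ j rho y‖), le_max_left _ _, ?_⟩
  intro V _ _ _ μ hμ u hu B hB z
  have hv : Continuous fun x : E2 => u (μ⁻¹ • x) :=
    hu.continuous.comp (continuous_const_smul μ⁻¹)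
  have hp : 0 ≤ μ ^ j := pow_nonneg (by linarith) j
  have hc := (smooth1_cs.contDiff_convolution_left (ContinuousLinearMap.lsmul ℝ ℝ) smooth1_cd
    hv.locallyIntegrable (μ := volume)).of_le (m := j) (by exact_mod_cast le_top)
  have hg := smooth1_gain j ℝ V V (ContinuousLinearMap.lsmul ℝ ℝ) rho _ B (μ • z)
    ContinuousLinearMap.opNorm_lsmul_le smooth1_cd smooth1_cs hv fun x => hB _
  rw [smooth1_conv hμ, iteratedFDeriv_comp_const_smul μ hc, norm_smul, Real.norm_of_nonneg hp,
    mul_comm]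
  refine mul_le_mul_of_nonneg_right (hg.trans ?_) hp
  exact mul_le_mul_of_nonneg_right (le_max_right _ _) ((norm_nonneg _).trans (hB z))

end Vale.Agent.P205.PT
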