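import Vale.Agent.P205.PT.Sub
import Vale.Agent.P205.PT.Multi
import Vale.Agent.P205.PT.Beta

/-!
One stage: all sub-steps, H = (1 - δ') γ - pull F.
-/

open scoped Manifold ContDiff Topology RealInnerProductSpace
open Set Filter Metric Function

noncomputable section

namespace Vale.Agent.P205.PT

variable {M : Type*} [TopologicalSpace M] [ChartedSpace E2 M] [IsManifold I2 ∞ M] {γ0 : M → Bil}

theorem stage_close {g0 g f δ δ' : ℝ} (h0 : 0 ≤ g0) (hδ : 0 < δ) (h1 : 0 ≤ δ')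
    (h2 : δ' ≤ δ / 100) (hg : |g - g0| ≤ g0 / 100) (hd : |g - f - δ * g| ≤ δ * g0 / 100) :
    |(1 - δ') * g - f - δ * g0| ≤ δ * g0 / 25 := by
  obtain ⟨a1, a2⟩ := abs_le.1 hg
  obtain ⟨b1, b2⟩ := abs_le.1 hd
  have c1 : δ * (g - g0) ≤ δ * (g0 / 100) := mul_le_mul_of_nonneg_left a2 hδ.le
  have c2 : δ * (-(g0 / 100)) ≤ δ * (g - g0) := mul_le_mul_of_nonneg_left a1 hδ.le
  have c3 : 0 ≤ δ' * g := mul_nonneg h1 (by linarith)
  have c4 : δ' * g ≤ δ / 100 * (2 * g0) :=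
    mul_le_mul h2 (by linarith) (by linarith) (by positivity)
  have c5 : 0 ≤ δ * g0 := by positivity
  rw [abs_le]
  constructor <;> nlinarith

theorem stage_H (T : Atl γ0) (J : ℕ) : ∃ m : ℕ, ∀ (Λ ν s : ℝ) (F : M → E4) (γ : M → Bil),
    2 ≤ Λ → Λ ^ m ≤ ν → |s| ≤ 1 → Sm F → SmT γ →
    (∀ j ≤ J + 1, T.Nrm F j (ν ^ (j + 1)) ∧ T.NrmT γ j (ν ^ (j + 1))) →
    ∀ j ≤ J, T.NrmT (fun p => s • γ p - pull F p) j (ν ^ (j + 5)) := by
  choose C hC0 hC using T.nrmT_pull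
  choose e he using fun j => pow_ge (1 + C j)
  refine ⟨(Finset.range (J + 1)).sup e, fun Λ ν s F γ hΛ hν hs hF hγ h j hj => ?_⟩
  have h1 : 1 + C j ≤ ν := (he j Λ hΛ).trans
    ((pow_mono hΛ (Finset.le_sup (f := e) (Finset.mem_range.2 (by omega)))).trans hν)
  have hν1 : 1 ≤ ν := by linarith [hC0 j]
  have h2 := hC j F ν ν hF hν1 fun k hk => (h k (by omega)).1.mono (le_of_eq (by ring))
  have h3 := ((h j (by omega)).2.smul hγ s).sub h2 (smT_const_smul s hγ) hF.smT_pull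
  refine h3.mono ?_
  have h4 : ν ^ (j + 1) ≤ ν ^ (j + 4) := pow_le_pow_right₀ hν1 (by omega)
  have h5 : |s| * ν ^ (j + 1) ≤ ν ^ (j + 4) :=
    (mul_le_of_le_one_left (by positivity) hs).trans h4
  have h6 : (1 + C j) * ν ^ (j + 4) ≤ ν * ν ^ (j + 4) :=
    mul_le_mul_of_nonneg_right h1 (by positivity)
  calc |s| * ν ^ (j + 1) + C j * ν ^ 2 * ν ^ (j + 2)
      ≤ ν ^ (j + 4) + C j * ν ^ (j + 4) := add_le_add h5 (le_of_eq (by ring))
    _ = (1 + C j) * ν ^ (j + 4) := by ring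
    _ ≤ ν * ν ^ (j + 4) := h6
    _ = ν ^ (j + 5) := by ring

theorem stage [T2Space M] (T : Atl γ0) (Z : Dirs) : ∃ a : ℕ, 2 ≤ a ∧
    ∀ (m0 : ℕ) (mψ : ℕ → ℕ) (b : ℕ), ∃ (J m : ℕ) (mm : ℕ → ℕ),
    ∀ (Λ ν δ : ℝ) (F0 F : M → E4) (γ : M → Bil), 2 ≤ Λ → Λ ^ m ≤ ν →
    Nonempty (Ctx T Z m0 mψ Λ F0) → Sm F0 → SmT γ → SymT γ →
    (∀ p v, |γ p v v - γ0 p v v| ≤ γ0 p v v / 100) →
    ν⁻¹ ^ b ≤ δ → δ ≤ ν⁻¹ ^ (4 * a + 4) → Sm F →
    (∀ j ≤ J, T.Nrm F j (ν ^ (j + 1)) ∧ T.NrmT γ j (ν ^ (j + 1))) → Dfc γ0 γ F δ →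
    (∀ j ≤ 2, T.Nrm (F - F0) j (Λ⁻¹ ^ m0 - ν⁻¹)) →
    ∃ F' : M → E4, Sm F' ∧ Dfc γ0 γ F' ((ν ^ a)⁻¹ ^ b) ∧
      ∀ j, T.Nrm (F' - F) j (Λ ^ mm j * √δ * (ν ^ a) ^ j) := by
  obtain ⟨A, hA, hsub⟩ := sub T
  set n := Fintype.card (Fin T.n × (ZMod 3 × ZMod 3) × Fin 3) with hn
  have hAn : 1 ≤ A ^ n := Nat.one_le_pow _ _ (by omega)
  refine ⟨A ^ n + 1, by omega, fun m0 mψ b => ?_⟩
  set a := A ^ n + 1 with ha
  obtain ⟨e, he⟩ := bet_range T Z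
  obtain ⟨J, m1, mm, hs⟩ := hsub (a * b + 1) (m0 + e)
  obtain ⟨m2, hb⟩ := bet_bound T Z J mψ
  obtain ⟨m3, hH⟩ := stage_H T J
  obtain ⟨en, hen⟩ := pow_ge (100 * n)
  set m4 := en + (Finset.range (J + 3)).sup mm with hm4
  refine ⟨J + 1, 1 + m1 + m2 + m3 + m4, fun j => en + mm j,
    fun Λ ν δ F0 F γ hΛ hν ⟨C⟩ hF0 hγ hsy hcl hd1 hd2 hF hN hD hc => ?_⟩
  have hle : ∀ k, k ≤ 1 + m1 + m2 + m3 + m4 → Λ ^ k ≤ ν := fun k hk => (pow_mono hΛ hk).trans hν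
  have hν2 : 2 ≤ ν := by have := hle 1 (by omega); rw [pow_one] at this; linarith
  have hδ : 0 < δ := lt_of_lt_of_le (by positivity) hd1
  have hi2 : ν⁻¹ ≤ 1 / 2 := by rw [one_div]; exact inv_anti₀ (by norm_num) hν2
  have hδs : δ ≤ 1 / 100 := by
    calc δ ≤ ν⁻¹ ^ (4 * a + 4) := hd2
      _ ≤ ν⁻¹ ^ 7 := inv_pow_anti hν2 (by omega)
      _ ≤ (1 / 2) ^ 7 := pow_le_pow_left₀ (by positivity) hi2 7
      _ ≤ 1 / 100 := by norm_num
  have hδ'e : (ν ^ a)⁻¹ ^ b = ν⁻¹ ^ (a * b) := by rw [← inv_pow, ← pow_mul]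
  set δ' := (ν ^ a)⁻¹ ^ b with hδ'
  have hδ'0 : 0 ≤ δ' := by positivity
  have hδ'1 : δ' ≤ δ / 100 := by
    calc δ' = ν⁻¹ ^ (a * b) := hδ'e
      _ ≤ ν⁻¹ ^ (b + b) := inv_pow_anti hν2 (by nlinarith)
      _ = ν⁻¹ ^ b * ν⁻¹ ^ b := pow_add _ _ _
      _ ≤ δ * (1 / 100) := mul_le_mul hd1 (hd1.trans hδs) (by positivity) hδ.le
      _ = δ / 100 := by ring
  set H : M → Bil := fun p => (1 - δ') • γ p - pull F p with hHdef
  have hHa : ∀ p v w, H p v w = (1 - δ') * γ p v w - pull F p v w := fun p v w => by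
    simp [hHdef]
  have sH : SmT H := (smT_const_smul _ hγ).sub hF.smT_pull
  have yH : SymT H := fun p v w => by rw [hHa, hHa, hsy p v w, symT_pull F p v w]
  have nH := hH Λ ν (1 - δ') F γ hΛ (hle _ (by omega))
    (abs_le.2 ⟨by linarith, by linarith⟩) hF hγ hN
  have cH : ∀ p v, |H p v v - δ * γ0 p v v| ≤ δ * γ0 p v v / 25 := fun p v => by
    rw [hHa]
    exact stage_close (T.nonneg p v) hδ hδ'0 hδ'1 (hcl p v) (hD p v)
  have b1 := hb Λ ν C.ψ H hΛ (hle _ (by omega)) C.sψ sH C.nψ nH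
  have b2 := he Λ δ m0 C.ψ H hΛ hδ yH C.rψ cH
  have hn0 : (0 : ℝ) ≤ n := Nat.cast_nonneg _
  have hnl : (n : ℝ) ≤ Λ ^ en := by linarith [hen Λ hΛ]
  obtain ⟨F', sF', nF', eF'⟩ := multi T.abs (Y := M × E2)
    (σ := Fin T.n × (ZMod 3 × ZMod 3) × Fin 3) (fun G y => pull G y.1 y.2 y.2)
    (fun y => γ0 y.1 y.2 y.2)
    (fun s y => tq (T.φ s.1) C.r (C.D.filter fun d => C.col d = s.2.1)
      (fun d => Z.R (C.t s.1 d) s.2.2) (fun d => bet Z (T.φ s.1) C.ψ H (C.t s.1 d) s.2.2) y.1 y.2)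
    (fun j => Λ ^ mm j) (A := A) (a := a) (J := J) (B := a * b + 1) (ν := ν) (δ := δ) (F := F)
    (by omega) (Nat.le_succ _) hν2 hd2 (fun y => T.nonneg _ _) (fun j => by positivity)
    (fun j hj => by
      have h1 : mm j ≤ (Finset.range (J + 3)).sup mm :=
        Finset.le_sup (f := mm) (Finset.mem_range.2 (by omega))
      calc (n : ℝ) * Λ ^ mm j ≤ Λ ^ en * Λ ^ mm j :=
            mul_le_mul_of_nonneg_right hnl (by positivity)
        _ = Λ ^ (en + mm j) := (pow_add _ _ _).symm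
        _ ≤ ν := hle _ (by omega))
    hF (fun j hj => (hN j (by omega)).1)
    (fun s ν' G hν' sG nG cG => by
      have hG0 : ∀ j ≤ 2, T.Nrm (G - F0) j (Λ⁻¹ ^ m0) := fun j hj => by
        have h1 := Atl.Nrm.add (cG j hj) (hc j hj) (sm_sub sG hF) (sm_sub hF hF0)
        rw [sub_add_sub_cancel] at h1
        exact h1.mono (by linarith)
      obtain ⟨g1, g2⟩ := C.adm G sG hG0
      have hm : Λ ^ m0 ≤ Λ ^ (m0 + e) := pow_mono hΛ (by omega)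
      have hm' : Λ⁻¹ ^ (m0 + e) ≤ Λ⁻¹ ^ m0 := inv_pow_anti hΛ (by omega)
      have hdd : ν'⁻¹ ^ (a * b + 1) ≤ δ := by
        calc ν'⁻¹ ^ (a * b + 1) ≤ ν⁻¹ ^ (a * b + 1) :=
              pow_le_pow_left₀ (by have : 0 < ν' := by linarith
                                   positivity) (inv_anti₀ (by linarith) hν') _
          _ ≤ ν⁻¹ ^ b := inv_pow_anti hν2 (by nlinarith)
          _ ≤ δ := hd1
      obtain ⟨G', k1, k2, k3⟩ := hs Λ ν' δ C.r (C.D.filter fun d => C.col d = s.2.1)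
        (fun d => Z.R (C.t s.1 d) s.2.2) s.1 G
        (fun d => bet Z (T.φ s.1) C.ψ H (C.t s.1 d) s.2.2) hΛ ((hle _ (by omega)).trans hν') hdd
        (by linarith) (hm'.trans C.rlo) C.rhi
        (le_trans (by exact_mod_cast Finset.card_filter_le _ _) (C.card.trans hm))
        (fun d hd => C.cen d (Finset.mem_filter.1 hd).1)
        (fun d hd d' hd' hne => C.sep d (Finset.mem_filter.1 hd).1 d' (Finset.mem_filter.1 hd').1
          hne ((Finset.mem_filter.1 hd).2.trans (Finset.mem_filter.1 hd').2.symm))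
        sG nG (fun j hj => (g1 j hj).mono hm)
        (fun d _ z hz => ⟨(b1 _ _ _ z hz).1, fun j hj => ((b1 _ _ _ z hz).2 j hj).trans
          (pow_le_pow_left₀ (by linarith) hν' _), b2 _ _ _ z hz⟩)
        (fun d hd z hz => (g2 s.1 d (Finset.mem_filter.1 hd).1 s.2.2 z hz).mono hm')
      exact ⟨G', k1, k2, fun y => k3 y.1 y.2⟩)
  refine ⟨F', sF', fun p v => ?_, fun j => Atl.Nrm.mono (nF' j) ?_⟩
  · have h1 := eF' (p, v)
    simp only [] at h1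
    rw [tq_sum C yH p v, hHa] at h1
    have h2 : γ p v v - pull F' p v v - δ' * γ p v v =
        -(pull F' p v v - pull F p v v - ((1 - δ') * γ p v v - pull F p v v)) := by ring
    rw [h2, abs_neg]
    refine h1.trans ?_
    have h3 : (n : ℝ) * ν⁻¹ ≤ 1 / 100 := by
      have h4 : 100 * (n : ℝ) ≤ ν := (hen Λ hΛ).trans (hle _ (by omega))
      rw [← div_eq_mul_inv, div_le_div_iff₀ (by linarith) (by norm_num)]
      linarith
    have h5 := T.nonneg p v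
    calc (n : ℝ) * ν⁻¹ ^ (a * b + 1) * γ0 p v v = (n * ν⁻¹) * (δ' * γ0 p v v) := by
          rw [hδ'e]; ring
      _ ≤ 1 / 100 * (δ' * γ0 p v v) := mul_le_mul_of_nonneg_right h3 (by positivity)
      _ = δ' * γ0 p v v / 100 := by ring
  · show (n : ℝ) * Λ ^ mm j * √δ * (ν ^ a) ^ j ≤ Λ ^ (en + mm j) * √δ * (ν ^ a) ^ j
    rw [pow_add Λ en]
    exact mul_le_mul_of_nonneg_right (mul_le_mul_of_nonneg_right
      (mul_le_mul_of_nonneg_right hnl (by positivity)) (Real.sqrt_nonneg _)) (by positivity)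

end Vale.Agent.P205.PT
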