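import Vale.Agent.P205.PT.Many
import Vale.Agent.P205.PT.Nrm
import Vale.Agent.P205.PT.Atlas

/-!
Sub-step on the manifold. f = cut (F ∘ φ.symm), b d = fun z => cut (fun y => β d y - δ) z + δ
= chi β + (1 - chi) δ. Apply many with B + 1 and m0 + e, where the constant of cut_bound 2 is at
most Λ^e. cut_bound J: ‖D^j f‖ ≤ C ν² ν^j ≤ ν^(j+3); ‖D^j (b d)‖ ≤ C (2 ν^6) ν^j + 1 ≤ ν^(j+7).
b d is a convex combination of β d and δ on closedBall 0 4 and equals δ outside. Discs lie in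
K = closedBall 0 (5/2) ⊆ ball 0 3, where cut_eq applies (fderiv and D2_congr). F' = F + push φ U
(sm_push, sm_add); norms: T.nrm_push j with B = Λ^(sup of mm k, k ≤ j) √δ. Metric: if
p ∈ φ.symm '' K use apply_eq_trep, trep_pull (F' ∘ φ.symm = f + U near z by push_symm, cut_eq;
b d z = β d z) and T.lower: ν⁻¹ ‖w‖² ≤ γ0 p v v when ν ≥ 2 / c i. Otherwise F' = F near p
(push_eventually_zero, pull_apply, mfderiv congruence), tq = 0 (wt_eq_zero), T.nonneg.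
-/

open scoped Manifold ContDiff Topology RealInnerProductSpace
open Set Filter Metric Function

noncomputable section

namespace Vale.Agent.P205.PT

variable {M : Type*} [TopologicalSpace M] [ChartedSpace E2 M] [IsManifold I2 ∞ M] {γ0 : M → Bil}

theorem Sub_const {δ : ℝ} (h0 : 0 ≤ δ) (h1 : δ ≤ 1) (j : ℕ) (z : E2) :
    ‖iteratedFDeriv ℝ j (fun _ : E2 => δ) z‖ ≤ 1 := by
  rcases Nat.eq_zero_or_pos j with rfl | hj
  · rw [norm_iteratedFDeriv_zero, Real.norm_of_nonneg h0]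
    exact h1
  · rw [iteratedFDeriv_const_of_ne hj.ne']
    simp

theorem Sub_range {δ lo hi lo' hi' b t : ℝ} (h0 : 0 ≤ δ) (ht0 : 0 ≤ t) (ht1 : t ≤ 1)
    (h1 : lo' ≤ lo) (h2 : lo ≤ 1) (h3 : 1 ≤ hi) (h4 : hi ≤ hi')
    (hb : t ≠ 0 → δ * lo ≤ b ∧ b ≤ δ * hi) :
    δ * lo' ≤ t * (b - δ) + δ ∧ t * (b - δ) + δ ≤ δ * hi' := by
  have a1 := mul_le_mul_of_nonneg_left h1 h0
  have a2 := mul_le_mul_of_nonneg_left h2 h0
  have a3 := mul_le_mul_of_nonneg_left h3 h0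
  have a4 := mul_le_mul_of_nonneg_left h4 h0
  by_cases ht : t = 0
  · subst ht
    constructor <;> linarith
  · obtain ⟨b1, b2⟩ := hb ht
    constructor
    · nlinarith [mul_nonneg ht0 (sub_nonneg.2 b1), mul_nonneg (sub_nonneg.2 ht1) (sub_nonneg.2 a2)]
    · nlinarith [mul_nonneg ht0 (sub_nonneg.2 b2), mul_nonneg (sub_nonneg.2 ht1) (sub_nonneg.2 a3)]

theorem Sub_b {J : ℕ} {C ν δ : ℝ} {β : E2 → ℝ} (hν : 1 ≤ ν) (hC : 2 * C + 1 ≤ ν) (h0 : 0 ≤ δ)
    (h1 : δ ≤ 1)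
    (hR : ∀ (u : E2 → ℝ) (B ν : ℝ), 1 ≤ ν → (∀ z ∈ closedBall (0 : E2) 4, ContDiffAt ℝ ∞ u z) →
      (∀ i ≤ J, ∀ z ∈ closedBall (0 : E2) 4, ‖iteratedFDeriv ℝ i u z‖ ≤ B * ν ^ i) →
      ∀ i ≤ J, ∀ z, ‖iteratedFDeriv ℝ i (cut u) z‖ ≤ C * B * ν ^ i)
    (hs : ∀ z ∈ closedBall (0 : E2) 4, ContDiffAt ℝ ∞ β z)
    (hb : ∀ z ∈ closedBall (0 : E2) 4, ∀ j ≤ J, ‖iteratedFDeriv ℝ j β z‖ ≤ ν ^ (j + 6)) :
    ∀ j ≤ J, ∀ z, ‖iteratedFDeriv ℝ j (cut (β - fun _ => δ) + fun _ => δ) z‖ ≤ ν ^ (j + 7) := by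
  intro j hj z
  have hs' : ∀ z ∈ closedBall (0 : E2) 4, ContDiffAt ℝ ∞ (β - fun _ => δ) z :=
    fun z hz => (hs z hz).sub contDiffAt_const
  have h2 := hR (β - fun _ => δ) (2 * ν ^ 6) ν hν hs' (fun i hi z hz => by
    refine (Nrm_sub (hs z hz) contDiffAt_const (hb z hz i hi) (Sub_const h0 h1 i z)).trans ?_
    have h3 : 1 ≤ ν ^ (i + 6) := one_le_pow₀ hν
    calc ν ^ (i + 6) + 1 ≤ 2 * ν ^ (i + 6) := by linarith
      _ = _ := by ring) j hj z
  refine (Nrm_add (cut_smooth hs').contDiffAt contDiffAt_const h2 (Sub_const h0 h1 j z)).trans ?_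
  have h3 : 1 ≤ ν ^ (j + 6) := one_le_pow₀ hν
  calc C * (2 * ν ^ 6) * ν ^ j + 1 ≤ (2 * C + 1) * ν ^ (j + 6) := by
        have : C * (2 * ν ^ 6) * ν ^ j = 2 * C * ν ^ (j + 6) := by ring
        linarith
    _ ≤ ν * ν ^ (j + 6) := mul_le_mul_of_nonneg_right hC (by positivity)
    _ = _ := by ring

theorem Sub_ball {D : Finset E2} {r : ℝ} (hD : ∀ d ∈ D, ‖d‖ ≤ 2) (hr : r ≤ 1 / 2) {d z : E2}
    (hd : d ∈ D) (hz : z ∈ ball d r) : ‖z‖ < 5 / 2 := by
  have h1 := hD d hd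
  have h2 : ‖z - d‖ < r := by rwa [mem_ball, dist_eq_norm] at hz
  have h3 := norm_add_le (z - d) d
  rw [sub_add_cancel] at h3
  linarith

omit [IsManifold I2 ∞ M] in
theorem Sub_tq (φ : Chart M) {r : ℝ} {D : Finset E2} (hD : ∀ d ∈ D, ‖d‖ ≤ 2) (hr0 : 0 < r)
    (hr : r ≤ 1 / 2) (R : E2 → (E2 ≃ₗᵢ[ℝ] E2)) (β : E2 → E2 → ℝ) {p : M}
    (hp : p ∉ φ.symm '' closedBall (0 : E2) (5 / 2)) (v : E2) : tq φ r D R β p v = 0 := by
  unfold tq push
  split_ifs with h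
  · refine Finset.sum_eq_zero fun d hd => ?_
    have h1 : 1 ≤ ‖r⁻¹ • (φ p - d)‖ := by
      rw [norm_smul, norm_inv, Real.norm_of_nonneg hr0.le, inv_mul_eq_div, le_div_iff₀ hr0,
        one_mul]
      by_contra h2
      refine hp ⟨φ p, ?_, φ.left_inv h⟩
      rw [mem_closedBall_zero_iff]
      exact (Sub_ball hD hr hd (by rw [mem_ball, dist_eq_norm]; exact not_le.1 h2)).le
    rw [wt_eq_zero h1]
    simp
  · rfl

theorem sub [T2Space M] (T : Atl γ0) : ∃ A : ℕ, 2 ≤ A ∧ ∀ B m0 : ℕ,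
    ∃ (J m : ℕ) (mm : ℕ → ℕ), ∀ (Λ ν δ r : ℝ) (D : Finset E2) (R : E2 → (E2 ≃ₗᵢ[ℝ] E2))
    (i : Fin T.n) (F : M → E4) (β : E2 → E2 → ℝ),
    2 ≤ Λ → Λ ^ m ≤ ν → ν⁻¹ ^ B ≤ δ → δ ≤ 1 → Λ⁻¹ ^ m0 ≤ r → r ≤ 1 / 2 →
    (D.card : ℝ) ≤ Λ ^ m0 → (∀ d ∈ D, ‖d‖ ≤ 2) →
    (∀ d ∈ D, ∀ d' ∈ D, d ≠ d' → 2 * r < dist d d') → Sm F →
    (∀ j ≤ J, T.Nrm F j (ν ^ (j + 2))) → (∀ j ≤ 2, T.Nrm F j (Λ ^ m0)) →
    (∀ d ∈ D, ∀ z ∈ closedBall (0 : E2) 4, ContDiffAt ℝ ∞ (β d) z ∧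
      (∀ j ≤ J, ‖iteratedFDeriv ℝ j (β d) z‖ ≤ ν ^ (j + 6)) ∧
      δ * Λ⁻¹ ^ m0 ≤ β d z ∧ β d z ≤ δ * Λ ^ m0) →
    (∀ d ∈ D, ∀ z ∈ ball d r, IndQ (Λ⁻¹ ^ m0) (fderiv ℝ (F ∘ (T.φ i).symm) z)
      (D2 (F ∘ (T.φ i).symm) z (R d ey))) →
    ∃ F' : M → E4, Sm F' ∧ (∀ j, T.Nrm (F' - F) j (Λ ^ mm j * √δ * (ν ^ A) ^ j)) ∧
      ∀ p v, |pull F' p v v - pull F p v v - tq (T.φ i) r D R β p v| ≤ ν⁻¹ ^ B * γ0 p v v := by
  obtain ⟨A, hA, hm⟩ := many
  refine ⟨A, hA, fun B m0 => ?_⟩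
  obtain ⟨C2, hC2, h2⟩ := cut_bound (V := E4) 2
  obtain ⟨e, he⟩ := pow_ge C2
  obtain ⟨J, m, mm, hm⟩ := hm (B + 1) (m0 + e)
  obtain ⟨CJ, hCJ, hJ⟩ := cut_bound (V := E4) J
  obtain ⟨CR, hCR, hR⟩ := cut_bound (V := ℝ) J
  obtain ⟨e', he'⟩ := pow_ge (CJ + (2 * CR + 1) + ∑ i, 2 / T.c i)
  choose Cp hCp hp using T.nrm_push (V := E4)
  choose ep hep using fun j => pow_ge (Cp j)
  refine ⟨J, m + e', fun j => ep j + (Finset.range (j + 1)).sup mm, ?_⟩
  intro Λ ν δ r D R i F β hΛ hν hδ hδ1 hr0 hr hcard hD hsep hF hN hN2 hβ hI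
  have hc0 : ∀ i, 0 ≤ 2 / T.c i := fun i => (div_pos two_pos (T.cpos i)).le
  have hc1 : 2 / T.c i ≤ ∑ i, 2 / T.c i :=
    Finset.single_le_sum (fun i _ => hc0 i) (Finset.mem_univ i)
  have hν0 := ((he' Λ hΛ).trans (pow_mono hΛ (Nat.le_add_left e' m))).trans hν
  have hci := hc0 i
  have hν2 : 2 ≤ ν := by linarith
  have hν1 : 1 ≤ ν := by linarith
  have hδ0 : 0 ≤ δ := le_trans (by positivity) hδ
  have hr1 : 0 < r := lt_of_lt_of_le (by positivity) hr0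
  have hlo := inv_pow_anti hΛ (Nat.le_add_right m0 e)
  have hhi := pow_mono hΛ (Nat.le_add_right m0 e)
  have hsm := T.smAt hF i
  set φ := T.φ i with hφ
  have hch : IsCh φ := T.ch i
  have h3 : ∀ {z : E2}, ‖z‖ ≤ 5 / 2 → z ∈ ball (0 : E2) 3 := fun hz => by
    rw [mem_ball_zero_iff]
    linarith
  obtain ⟨U, hU, hUs, hUb, hUm⟩ := hm Λ ν δ r D R (cut (F ∘ φ.symm))
    (fun d => cut (β d - fun _ => δ) + fun _ => δ) hΛ
    ((pow_mono hΛ (Nat.le_add_right m e')).trans hν)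
    ((inv_pow_anti hν2 (Nat.le_succ B)).trans hδ) hδ1 (hlo.trans hr0) (by linarith)
    (hcard.trans hhi) hsep (cut_smooth hsm)
    (fun d hd => (cut_smooth fun z hz => (hβ d hd z hz).1.sub contDiffAt_const).add
      contDiff_const)
    (fun j hj z => by
      refine (hJ _ (ν ^ 2) ν hν1 hsm (fun k hk z hz => ?_) j hj z).trans ?_
      · refine (hN k hk i z hz).trans_eq ?_
        ring
      · calc CJ * ν ^ 2 * ν ^ j = CJ * ν ^ (j + 2) := by ring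
          _ ≤ ν * ν ^ (j + 2) := mul_le_mul_of_nonneg_right (by linarith) (by positivity)
          _ = _ := by ring)
    (fun j hj z => by
      refine (h2 _ (Λ ^ m0) 1 le_rfl hsm (fun k hk z hz => ?_) j hj z).trans ?_
      · refine (hN2 k hk i z hz).trans_eq ?_
        rw [one_pow, mul_one]
      · rw [one_pow, mul_one, pow_add, mul_comm]
        exact mul_le_mul_of_nonneg_left (he Λ hΛ) (by positivity))
    (fun d hd => Sub_b hν1 (by linarith) hδ0 hδ1 hR (fun z hz => (hβ d hd z hz).1)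
      fun z hz => (hβ d hd z hz).2.1)
    (fun d hd z => Sub_range hδ0 chi.nonneg chi.le_one hlo (inv_pow_anti hΛ (Nat.zero_le m0))
      (pow_mono hΛ (Nat.zero_le m0)) hhi fun ht => by
        refine (hβ d hd z ?_).2.2
        have h4 : z ∈ support chi := ht
        rw [chi.support_eq] at h4
        exact ball_subset_closedBall h4)
    (fun d hd z hz => by
      have h4 := cut_eq (F ∘ φ.symm) (h3 (Sub_ball hD hr hd hz).le)
      rw [h4.fderiv_eq, D2_congr h4]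
      exact fun ξ t => (mul_le_mul_of_nonneg_right hlo (by positivity)).trans (hI d hd z hz ξ t))
  have hK : support U ⊆ closedBall (0 : E2) (5 / 2) := fun z hz => by
    obtain ⟨d, hd, hz⟩ := hUs z hz
    rw [mem_closedBall_zero_iff]
    exact (Sub_ball hD hr hd hz).le
  have hKt : closedBall (0 : E2) (5 / 2) ⊆ φ.target :=
    (closedBall_subset_closedBall (by norm_num)).trans (T.tgt i)
  have hF' : Sm (F + push φ U) :=
    sm_add hF (sm_push hch hU.contDiffOn (isCompact_closedBall _ _) hKt hK)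
  refine ⟨F + push φ U, hF', fun j => ?_, fun p v => ?_⟩
  · rw [add_sub_cancel_left]
    refine (hp j i U (Λ ^ (Finset.range (j + 1)).sup mm * √δ) (ν ^ A) (by positivity)
      (one_le_pow₀ hν1) hU (hK.trans (closedBall_subset_closedBall (by norm_num)))
      fun k hk z => (hUb k z).trans ?_).mono ?_
    · have h4 := pow_mono hΛ (Finset.le_sup (f := mm) (Finset.mem_range.2 (Nat.lt_succ_of_le hk)))
      gcongr
    · have h4 := hep j Λ hΛ
      rw [pow_add, mul_assoc (Λ ^ ep j)]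
      gcongr
  · by_cases hpK : p ∈ φ.symm '' closedBall (0 : E2) (5 / 2)
    · obtain ⟨z, hz, rfl⟩ := hpK
      have hzt := hKt hz
      have hs := φ.map_target hzt
      have hz' : φ (φ.symm z) = z := φ.right_inv hzt
      have hz3 := h3 (mem_closedBall_zero_iff.1 hz)
      have e0 := cut_eq (F ∘ φ.symm) hz3
      have e1 : (F + push φ U) ∘ φ.symm =ᶠ[𝓝 z] cut (F ∘ φ.symm) + U := by
        filter_upwards [φ.open_target.mem_nhds hzt, e0] with y hy hy'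
        simp only [Function.comp_apply, Pi.add_apply, push_symm φ U hy, hy']
      have hl := T.lower i hs (by
        rw [hz']
        exact closedBall_subset_closedBall (by norm_num) hz) v
      rw [apply_eq_trep hch _ hs, apply_eq_trep hch (pull F) hs, hz', trep_pull hF' hch hzt,
        trep_pull hF hch hzt, real_inner_self_eq_norm_sq, real_inner_self_eq_norm_sq,
        e1.fderiv_eq, ← e0.fderiv_eq, tq, push_symm φ _ hzt]
      have h4 := hUm z (dM φ (φ.symm z) v)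
      have h5 : ∀ d, (cut (β d - fun _ => δ) + fun _ => δ : E2 → ℝ) z = β d z := fun d => by
        rw [Pi.add_apply, (cut_eq _ hz3).eq_of_nhds]
        simp
      simp only [h5] at h4
      refine h4.trans ?_
      rw [pow_succ, mul_assoc]
      refine mul_le_mul_of_nonneg_left (le_trans ?_ hl) (by positivity)
      refine mul_le_mul_of_nonneg_right ?_ (by positivity)
      rw [← inv_div]
      exact inv_anti₀ (div_pos two_pos (T.cpos i)) (by linarith)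
    · have e1 : F + push φ U =ᶠ[𝓝 p] F := by
        filter_upwards [push_eventually_zero (V := E4) φ (isCompact_closedBall _ _) hKt hpK]
          with q hq
        rw [Pi.add_apply, hq U hK, add_zero]
      have e2 : dM (F + push φ U) p = dM F p := e1.mfderiv_eq
      rw [Sub_tq φ hD hr1 hr R β hpK, pull_apply, pull_apply, e2, sub_self, sub_zero, abs_zero]
      exact mul_nonneg (by positivity) (T.nonneg p v)

end Vale.Agent.P205.PT
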