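import Vale.Agent.P205.PT.Defs
import Vale.Agent.P205.S.Main

/-!
Uniform form of stepK. Take k from stepK; ι = subtype of the tuples (Λ, μ, s0, F, a) satisfying the
hypotheses, lam = μ ^ (k + 1), so lam * μ = μ ^ (k + 2) and μ ^ k / lam = μ⁻¹. PB follows from
norm_iteratedFDeriv_fderiv (C = 1, m = mm0 j), the lower bound with c = 1. Absorb C with pow_ge
(choose over j).
-/

open scoped Manifold ContDiff Topology RealInnerProductSpace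
open Set Filter Metric Function

noncomputable section

namespace Vale.Agent.P205.PT

theorem unif : ∃ k : ℕ, ∀ (n m0 : ℕ) (mm0 : ℕ → ℕ), ∃ (mm : ℕ → ℕ) (m1 : ℕ),
    ∀ (Λ μ s0 : ℝ) (F : E2 → E4) (a : E2 → ℝ), 2 ≤ Λ → 1 ≤ μ → 0 < s0 → s0 ≤ 1 →
    ContDiff ℝ ∞ F → ContDiff ℝ ∞ a →
    (∀ j, ∀ z ∈ ball (0 : E2) 1, ‖iteratedFDeriv ℝ (j + 1) F z‖ ≤ Λ ^ mm0 j * μ ^ j ∧
      ‖iteratedFDeriv ℝ (j + 2) F z‖ ≤ Λ ^ mm0 j * μ ^ j ∧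
      ‖iteratedFDeriv ℝ j a z‖ ≤ Λ ^ mm0 j * μ ^ j) →
    (∀ z ∈ ball (0 : E2) 1, Λ⁻¹ ^ m0 ≤ a z ∧ IndQ (Λ⁻¹ ^ m0) (fderiv ℝ F z) (D2 F z ey)) →
    ∃ U : E2 → E4, ContDiff ℝ ∞ U ∧ support U ⊆ ball 0 1 ∧
      (∀ j z, ‖iteratedFDeriv ℝ j U z‖ ≤ Λ ^ mm j * s0 * (μ ^ (k + 2)) ^ j) ∧
      ∀ z v, |‖fderiv ℝ (F + U) z v‖ ^ 2 - ‖fderiv ℝ F z v‖ ^ 2
        - (s0 * wt z * a z) ^ 2 * v 0 ^ 2| ≤ Λ ^ m1 * μ⁻¹ ^ n * ‖v‖ ^ 2 := by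
  obtain ⟨k, hk⟩ := stepK
  refine ⟨k, fun n m0 mm0 => ?_⟩
  let ι : Type := {t : ℝ × ℝ × ℝ × (E2 → E4) × (E2 → ℝ) // 2 ≤ t.1 ∧ 1 ≤ t.2.1 ∧ 0 < t.2.2.1 ∧
    t.2.2.1 ≤ 1 ∧ ContDiff ℝ ∞ t.2.2.2.1 ∧ ContDiff ℝ ∞ t.2.2.2.2 ∧
    (∀ j, ∀ z ∈ ball (0 : E2) 1,
      ‖iteratedFDeriv ℝ (j + 1) t.2.2.2.1 z‖ ≤ t.1 ^ mm0 j * t.2.1 ^ j ∧
      ‖iteratedFDeriv ℝ (j + 2) t.2.2.2.1 z‖ ≤ t.1 ^ mm0 j * t.2.1 ^ j ∧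
      ‖iteratedFDeriv ℝ j t.2.2.2.2 z‖ ≤ t.1 ^ mm0 j * t.2.1 ^ j) ∧
    ∀ z ∈ ball (0 : E2) 1, t.1⁻¹ ^ m0 ≤ t.2.2.2.2 z ∧
      IndQ (t.1⁻¹ ^ m0) (fderiv ℝ t.2.2.2.1 z) (D2 t.2.2.2.1 z ey)}
  obtain ⟨U, u1, u2, C, m, u3⟩ := hk ι (fun t => t.1.1) (fun t => t.1.2.1)
    (fun t => t.1.2.1 ^ (k + 1)) (fun t => t.1.2.2.1) (fun t => t.1.2.2.2.1)
    (fun t => t.1.2.2.2.2)
    (fun t => ⟨by linarith [t.2.1], t.2.2.1, pow_le_pow_right₀ t.2.2.1 k.le_succ, t.2.2.2.1,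
      t.2.2.2.2.1⟩)
    (fun t => ⟨t.2.2.2.2.2.1, t.2.2.2.2.2.2.1⟩)
    (fun j => ⟨1, mm0 j, fun t z hz => by
      rw [norm_iteratedFDeriv_fderiv, one_mul]; exact (t.2.2.2.2.2.2.2.1 j z hz).1⟩)
    (fun j => ⟨1, mm0 j, fun t z hz => by
      rw [norm_iteratedFDeriv_fderiv, norm_iteratedFDeriv_fderiv, one_mul]
      exact (t.2.2.2.2.2.2.2.1 j z hz).2.1⟩)
    (fun j => ⟨1, mm0 j, fun t z hz => by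
      rw [one_mul]; exact (t.2.2.2.2.2.2.2.1 j z hz).2.2⟩)
    ⟨1, m0, one_pos, fun t z hz => by
      rw [one_div, ← inv_pow]; exact t.2.2.2.2.2.2.2.2 z hz⟩ n
  choose Cj mj hj using u2
  choose e he using pow_ge
  refine ⟨fun j => e (Cj j) + mj j, e C + m, fun Λ μ s0 F a h1 h2 h3 h4 h5 h6 h7 h8 => ?_⟩
  let t : ι := ⟨(Λ, μ, s0, F, a), h1, h2, h3, h4, h5, h6, h7, h8⟩
  have hΛ : 0 ≤ Λ := by linarith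
  have hμ : 0 < μ := by linarith
  refine ⟨U t, (u1 t).1, (u1 t).2, fun j z => (hj j t z).trans ?_, fun z v => (u3 t z v).trans ?_⟩
  · show Cj j * Λ ^ mj j * s0 * (μ ^ (k + 1) * μ) ^ j ≤ _
    rw [← pow_succ, pow_add Λ]
    have := he (Cj j) Λ h1
    gcongr
  · show C * Λ ^ m * (μ ^ k / μ ^ (k + 1)) ^ n * ‖v‖ ^ 2 ≤ _
    rw [show μ ^ k / μ ^ (k + 1) = μ⁻¹ by field_simp; ring, pow_add Λ]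
    have := he C Λ h1
    gcongr

end Vale.Agent.P205.PT
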